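import Crest.Agent.R30.Defs

/-!
# R30 Basic: indicators and averages (complete, use freely)
-/

set_option autoImplicit false

namespace Crest.Agent.R30

open Finset Crest.CombinatoricsR.TriangleRemoval

theorem ind_pos {p : Prop} (h : p) : ind p = 1 := by simp [ind, h]

theorem ind_neg {p : Prop} (h : ¬ p) : ind p = 0 := by simp [ind, h]

theorem ind_nonneg (p : Prop) : 0 ≤ ind p := by
  by_cases h : p
  · rw [ind_pos h]; exact zero_le_one
  · rw [ind_neg h]

theorem ind_le_one (p : Prop) : ind p ≤ 1 := by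
  by_cases h : p
  · rw [ind_pos h]
  · rw [ind_neg h]; exact zero_le_one

theorem ind_mono {p q : Prop} (h : p → q) : ind p ≤ ind q := by
  by_cases hp : p
  · rw [ind_pos hp, ind_pos (h hp)]
  · rw [ind_neg hp]; exact ind_nonneg q

theorem ind_congr {p q : Prop} (h : p ↔ q) : ind p = ind q := by rw [propext h]

theorem ind_and (p q : Prop) : ind (p ∧ q) = ind p * ind q := by
  by_cases hp : p <;> by_cases hq : q <;> simp [ind, hp, hq]

theorem ind_not (p : Prop) : ind (¬ p) = 1 - ind p := by
  by_cases hp : p <;> simp [ind, hp]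

theorem ind_or_le (p q : Prop) : ind (p ∨ q) ≤ ind p + ind q := by
  by_cases hp : p <;> by_cases hq : q <;> simp [ind, hp, hq]

theorem ind_eq_ite (p : Prop) [Decidable p] : ind p = if p then 1 else 0 := by
  by_cases hp : p <;> simp [ind, hp]

theorem ind_forall {ι : Type} (s : Finset ι) (p : ι → Prop) :
    ind (∀ i ∈ s, p i) = ∏ i ∈ s, ind (p i) := by
  by_cases h : ∀ i ∈ s, p i
  · rw [ind_pos h, prod_eq_one fun i hi => ind_pos (h i hi)]
  · rw [ind_neg h]
    push Not at h
    obtain ⟨i, hi, hp⟩ := h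
    exact (prod_eq_zero hi (ind_neg hp)).symm

theorem ind_exists_le {ι : Type} (s : Finset ι) (p : ι → Prop) :
    ind (∃ i ∈ s, p i) ≤ ∑ i ∈ s, ind (p i) := by
  by_cases h : ∃ i ∈ s, p i
  · obtain ⟨i, hi, hp⟩ := h
    rw [ind_pos ⟨i, hi, hp⟩, ← ind_pos hp]
    exact single_le_sum (fun j _ => ind_nonneg (p j)) hi
  · rw [ind_neg h]
    exact sum_nonneg fun j _ => ind_nonneg _

theorem sum_ind {ι : Type} (s : Finset ι) (p : ι → Prop) [DecidablePred p] :
    ∑ i ∈ s, ind (p i) = ((s.filter p).card : ℝ) := by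
  simp only [ind_eq_ite]
  rw [sum_boole]

section av

variable {α : Type} [Fintype α]

theorem av_add (f g : α → ℝ) : av (fun a => f a + g a) = av f + av g := by
  simp only [av, sum_add_distrib, add_div]

theorem av_sub (f g : α → ℝ) : av (fun a => f a - g a) = av f - av g := by
  simp only [av, sum_sub_distrib, sub_div]

theorem av_const_mul (c : ℝ) (f : α → ℝ) : av (fun a => c * f a) = c * av f := by
  simp only [av, ← mul_sum, mul_div_assoc]

theorem av_sum {ι : Type} (s : Finset ι) (f : ι → α → ℝ) :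
    av (fun a => ∑ i ∈ s, f i a) = ∑ i ∈ s, av (f i) := by
  simp only [av]
  rw [sum_comm, sum_div]

theorem av_mono {f g : α → ℝ} (h : ∀ a, f a ≤ g a) : av f ≤ av g :=
  div_le_div_of_nonneg_right (sum_le_sum fun a _ => h a) (Nat.cast_nonneg _)

theorem av_nonneg {f : α → ℝ} (h : ∀ a, 0 ≤ f a) : 0 ≤ av f :=
  div_nonneg (sum_nonneg fun a _ => h a) (Nat.cast_nonneg _)

theorem av_const [Nonempty α] (c : ℝ) : av (fun _ : α => c) = c := by
  have : (Fintype.card α : ℝ) ≠ 0 := Nat.cast_ne_zero.2 Fintype.card_ne_zero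
  simp only [av, sum_const, card_univ, nsmul_eq_mul]
  field_simp

theorem av_equiv {β : Type} [Fintype β] (e : α ≃ β) (f : β → ℝ) : av (fun a => f (e a)) = av f := by
  simp only [av]
  rw [Equiv.sum_comp e f, Fintype.card_congr e]

theorem av_prod {β : Type} [Fintype β] (f : α × β → ℝ) :
    av f = av fun a => av fun b => f (a, b) := by
  simp only [av, Fintype.sum_prod_type, Fintype.card_prod, Nat.cast_mul, ← sum_div]
  rw [div_div, mul_comm]

/-- independence -/
theorem av_pi {ι : Type} [Fintype ι] [DecidableEq ι] (f : ι → α → ℝ) :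
    av (fun w : ι → α => ∏ i, f i (w i)) = ∏ i, av (f i) := by
  simp only [av]
  rw [prod_div_distrib, prod_univ_sum, Fintype.piFinset_univ, Fintype.card_fun, prod_const,
    card_univ, Nat.cast_pow]

end av

end Crest.Agent.R30
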