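import Crest.Agent.R30.Grid

/-!
# R30 Spec: spectral gap from one sided discrepancy (task R30-Spec)

PLAN (aux in `namespace SpecA`).  `weak_l2`: for `z ≥ 0` on `W` remove a minimiser `w₀`
(`|W| z w₀ ≤ c √|W|`, so `z w₀ ² ≤ c² / |W|`) and induct: `∑ z² ≤ c² H_{|W|}`; apply this to the positive
and to the negative part; `H_k ≤ 1 + log k` (`harmonic_le_one_add_log`).
`spec`: let `B v w = (p r)⁻¹ [s(v,w) ∈ E] - r⁻¹` (symmetric), `s = |S| ≤ t = |T|` wlog, `S, T ⊆ W`.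
Claim `|eST S T / (p r) - s t / r| ≤ 12 γ √(s t)`.  Upper bound: if `γ² t ≤ s` use `Disc`
(`δ' s t / r ≤ 2 γ² √(st)`, `2 γ² t ≤ 2 γ √(st)`), else `eST ≤ 2 p r s` and `s ≤ γ √(st)`.  Lower bound:
trivial if `√(st) ≤ γ r`; else `eST S T = ∑_{v ∈ S} |W ∩ nb v| - eST S (W \ T)` gives an error
`≤ 4 δ' s + γ² (s + |W|) ≤ 12 γ² r`.  Then `weak_l2` twice: `‖B 1_T‖² ≤ (12γ)² t · 2H`, and for any `x`,
`|∑_{v ∈ T} (B x) v| = |⟨x, B 1_T⟩| ≤ ‖x‖ ‖B 1_T‖`.
`reg_of_good`: `γ = z⁻³`; links: `W = nb E u`, `r = dd`, `p r = yy`, `W ∩ nb E v = cn E u v`; globally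
`W = univ`, `r = n`, `p r = dd`.
-/

set_option autoImplicit false

namespace Crest.Agent.R30

open Finset Crest.CombinatoricsR.TriangleRemoval

namespace SpecA

theorem weak_pos {α : Type} [DecidableEq α] (z : α → ℝ) {c : ℝ} :
    ∀ (k : ℕ) (W : Finset α), W.card = k → (∀ w ∈ W, 0 ≤ z w) →
      (∀ S ⊆ W, ∑ w ∈ S, z w ≤ c * √(S.card : ℝ)) →
      ∑ w ∈ W, z w ^ 2 ≤ (harmonic k : ℝ) * c ^ 2 := by
  intro k
  induction k with
  | zero =>
    intro W hW _ _
    rw [card_eq_zero] at hW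
    simp [hW]
  | succ k ih =>
    intro W hW h0 h
    have hne : W.Nonempty := by rw [← card_pos]; omega
    obtain ⟨w0, hw0, hmin⟩ := exists_min_image W z hne
    have h1 := ih (W.erase w0) (by rw [card_erase_of_mem hw0, hW]; rfl)
      (fun w hw => h0 w (mem_of_mem_erase hw)) (fun S hS => h S (hS.trans (erase_subset _ _)))
    rw [← add_sum_erase W _ hw0, harmonic_succ]
    push_cast
    have h2 : ((k : ℝ) + 1) * z w0 ≤ c * √((k : ℝ) + 1) := by
      have := h W subset_rfl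
      rw [hW] at this
      push_cast at this
      refine le_trans ?_ this
      have := card_nsmul_le_sum W z (z w0) hmin
      rw [hW, nsmul_eq_mul] at this
      push_cast at this
      exact this
    have hk : (0 : ℝ) < k + 1 := by positivity
    have h3 : (((k : ℝ) + 1) * z w0) ^ 2 ≤ (c * √((k : ℝ) + 1)) ^ 2 :=
      pow_le_pow_left₀ (mul_nonneg hk.le (h0 w0 hw0)) h2 2
    rw [mul_pow, mul_pow, Real.sq_sqrt hk.le] at h3
    have h4 : z w0 ^ 2 ≤ ((k : ℝ) + 1)⁻¹ * c ^ 2 := by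
      rw [inv_mul_eq_div, le_div_iff₀ hk]
      nlinarith
    linarith

theorem log_card_mono {a b : ℕ} (h : a ≤ b) : Real.log a ≤ Real.log b := by
  rcases Nat.eq_zero_or_pos a with rfl | ha
  · simpa using Real.log_natCast_nonneg b
  · exact Real.log_le_log (by exact_mod_cast ha) (by exact_mod_cast h)

theorem weak_pos' {α : Type} [DecidableEq α] (z : α → ℝ) {c : ℝ} (W V : Finset α) (hV : V ⊆ W)
    (h0 : ∀ w ∈ V, 0 ≤ z w) (h : ∀ S ⊆ V, ∑ w ∈ S, z w ≤ c * √(S.card : ℝ)) :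
    ∑ w ∈ V, z w ^ 2 ≤ (1 + Real.log W.card) * c ^ 2 := by
  refine (weak_pos z _ V rfl h0 h).trans (mul_le_mul_of_nonneg_right ?_ (sq_nonneg c))
  have := harmonic_le_one_add_log V.card
  have := log_card_mono (card_le_card hV)
  linarith

end SpecA

theorem weak_l2 {α : Type} [DecidableEq α] (W : Finset α) (z : α → ℝ) {c : ℝ}
    (h : ∀ S ⊆ W, |∑ w ∈ S, z w| ≤ c * √(S.card : ℝ)) :
    ∑ w ∈ W, z w ^ 2 ≤ 2 * (1 + Real.log W.card) * c ^ 2 := by
  classical
  have h1 := SpecA.weak_pos' z (c := c) W (W.filter fun w => 0 ≤ z w) (filter_subset _ _)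
    (fun w hw => (mem_filter.1 hw).2)
    (fun S hS => (le_abs_self _).trans (h S (hS.trans (filter_subset _ _))))
  have h2 := SpecA.weak_pos' (fun w => - z w) (c := c) W (W.filter fun w => ¬ 0 ≤ z w)
    (filter_subset _ _) (fun w hw => by have := (mem_filter.1 hw).2; linarith [not_le.1 this])
    (fun S hS => by
      rw [sum_neg_distrib]
      exact (neg_le_abs _).trans (h S (hS.trans (filter_subset _ _))))
  simp only [neg_sq] at h2
  rw [← sum_filter_add_sum_filter_not W (fun w => 0 ≤ z w)]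
  linarith

namespace SpecA

theorem op_bound {α : Type} [DecidableEq α] (W : Finset α) (B : α → α → ℝ)
    (hB : ∀ v w, B v w = B w v) {c : ℝ}
    (h : ∀ S ⊆ W, ∀ T ⊆ W, |∑ v ∈ S, ∑ w ∈ T, B v w| ≤ c * √(T.card : ℝ) * √(S.card : ℝ))
    (x : α → ℝ) :
    ∑ v ∈ W, (∑ w ∈ W, B v w * x w) ^ 2 ≤
      (2 * (1 + Real.log W.card) * c) ^ 2 * ∑ w ∈ W, x w ^ 2 := by
  set Hh := 2 * (1 + Real.log W.card) with hH
  have hH0 : 0 ≤ Hh := by
    have := Real.log_natCast_nonneg W.card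
    positivity
  have hx : 0 ≤ ∑ w ∈ W, x w ^ 2 := sum_nonneg fun _ _ => sq_nonneg _
  have h1 : ∀ T ⊆ W, ∑ v ∈ W, (∑ w ∈ T, B v w) ^ 2 ≤ Hh * (c ^ 2 * T.card) := by
    intro T hT
    have := weak_l2 W (fun v => ∑ w ∈ T, B v w) (fun S hS => h S hS T hT)
    rwa [mul_pow, Real.sq_sqrt (Nat.cast_nonneg _)] at this
  have h2 := weak_l2 W (fun v => ∑ w ∈ W, B v w * x w)
    (c := √((∑ w ∈ W, x w ^ 2) * (Hh * c ^ 2))) (fun T hT => by
      rw [← Real.sqrt_mul (by positivity)]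
      apply Real.abs_le_sqrt
      have e : ∑ v ∈ T, ∑ w ∈ W, B v w * x w = ∑ w ∈ W, x w * ∑ v ∈ T, B w v := by
        rw [sum_comm]
        refine sum_congr rfl fun w _ => ?_
        rw [mul_sum]
        exact sum_congr rfl fun v _ => by rw [hB v w, mul_comm]
      rw [e]
      refine (sum_mul_sq_le_sq_mul_sq W x _).trans ?_
      rw [mul_assoc]
      refine mul_le_mul_of_nonneg_left ?_ hx
      rw [mul_assoc]
      exact h1 T hT)
  rw [Real.sq_sqrt (by positivity)] at h2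
  refine h2.trans (le_of_eq ?_)
  ring

theorem sq_le' {a b : ℝ} (hb : 0 ≤ b) (h : a ^ 2 ≤ b ^ 2) : a ≤ b :=
  (abs_le_of_sq_le_sq' h hb).2

theorem real_disc {p r δ' κ γ s t w e e' g : ℝ} (hp : 0 < p) (hr : 0 < r)
    (hγ : 0 < γ) (hγ1 : γ ≤ 1) (hδ0 : 0 ≤ δ') (hδ : δ' ≤ γ ^ 2) (hκ0 : 0 ≤ κ)
    (hκ : κ ≤ γ ^ 2 * (p * r)) (hs : 0 ≤ s) (hst : s ≤ t) (htw : t ≤ w)
    (hW : |w - r| ≤ δ' * r) (hg0 : 0 ≤ g) (hg : g ^ 2 = s * t) (he0 : 0 ≤ e)
    (he1 : e ≤ (1 + δ') * p * s * t + κ * (s + t)) (he2 : e ≤ s * ((1 + δ') * (p * r)))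
    (he3 : s * ((1 - δ') * (p * r)) ≤ e + e')
    (he4 : e' ≤ (1 + δ') * p * s * (w - t) + κ * (s + (w - t))) :
    |e - p * s * t| ≤ 12 * γ * g * (p * r) := by
  have hγ2 : γ ^ 2 ≤ γ := by nlinarith
  have hδ1 : δ' ≤ 1 := by linarith
  obtain ⟨hW1, hW2⟩ := abs_le.1 hW
  have hw2 : w ≤ 2 * r := by nlinarith
  have ht : 0 ≤ t := hs.trans hst
  have hpr : 0 < p * r := mul_pos hp hr
  have hgt : g ≤ t := by
    refine sq_le' ht ?_
    nlinarith
  have hq : 0 ≤ γ * g * (p * r) := by positivity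
  rw [abs_le]
  constructor
  · -- lower bound
    rcases le_or_gt g (γ * r) with hc | hc
    · have : p * s * t ≤ γ * g * (p * r) := by
        calc p * s * t = p * g * g := by rw [mul_assoc, ← hg]; ring
          _ ≤ p * g * (γ * r) := mul_le_mul_of_nonneg_left hc (by positivity)
          _ = _ := by ring
      linarith
    · have a1 : κ * (s + (w - t)) ≤ γ ^ 2 * (p * r) * (2 * r) :=
        mul_le_mul hκ (by linarith) (by linarith) (by positivity)
      have a2 : p * s * (w - r) ≤ p * s * (δ' * r) :=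
        mul_le_mul_of_nonneg_left hW2 (by positivity)
      have a3 : δ' * p * s * (w - t) ≤ δ' * p * s * (2 * r) :=
        mul_le_mul_of_nonneg_left (by linarith) (by positivity)
      have a4 : δ' * s ≤ γ ^ 2 * (2 * r) := mul_le_mul hδ (by linarith) hs (by positivity)
      have a5 : δ' * s * (p * r) ≤ γ ^ 2 * (2 * r) * (p * r) :=
        mul_le_mul_of_nonneg_right a4 hpr.le
      have a6 : γ * (γ * r) * (p * r) ≤ γ * g * (p * r) :=
        mul_le_mul_of_nonneg_right (mul_le_mul_of_nonneg_left hc.le hγ.le) hpr.le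
      nlinarith
  · rcases le_or_gt (γ ^ 2 * t) s with hc | hc
    · have b1 : γ ^ 2 * t ≤ γ * g := by
        refine sq_le' (by positivity) ?_
        · rw [mul_pow γ g, hg]
          have : γ ^ 2 * t * (γ ^ 2 * t) ≤ γ ^ 2 * t * s :=
            mul_le_mul_of_nonneg_left hc (by positivity)
          nlinarith
      have b2 : κ * (s + t) ≤ γ ^ 2 * (p * r) * (2 * t) :=
        mul_le_mul hκ (by linarith) (by linarith) (by positivity)
      have b3 : γ ^ 2 * t * (p * r) ≤ γ * g * (p * r) := mul_le_mul_of_nonneg_right b1 hpr.le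
      have b4 : δ' * p * s * t ≤ γ * g * (p * (2 * r)) := by
        calc δ' * p * s * t = δ' * (g * (p * g)) := by
              rw [mul_assoc, mul_assoc, ← hg]; ring
          _ ≤ γ * (g * (p * (2 * r))) := by
              refine mul_le_mul (hδ.trans hγ2) ?_ (by positivity) hγ.le
              exact mul_le_mul_of_nonneg_left (mul_le_mul_of_nonneg_left (by linarith) hp.le) hg0
          _ = _ := by ring
      nlinarith
    · have b1 : s ≤ γ * g := by
        refine sq_le' (by positivity) ?_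
        · rw [mul_pow γ g, hg]
          have : s * s ≤ s * (γ ^ 2 * t) := mul_le_mul_of_nonneg_left hc.le hs
          nlinarith
      have b2 : s * ((1 + δ') * (p * r)) ≤ γ * g * (2 * (p * r)) :=
        mul_le_mul b1 (mul_le_mul_of_nonneg_right (by linarith) hpr.le) (by positivity)
          (by positivity)
      have b3 : 0 ≤ p * s * t := by positivity
      nlinarith

theorem eST_eq {n : ℕ} (E : St n) (S T : Finset (Fin n)) :
    eST E S T = ∑ v ∈ S, ∑ w ∈ T, ind (s(v, w) ∈ E) := by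
  rw [eST, ← sum_ind, sum_product]

theorem card_eq {n : ℕ} (E : St n) (T : Finset (Fin n)) (v : Fin n) :
    ((T ∩ nb E v).card : ℝ) = ∑ w ∈ T, ind (s(v, w) ∈ E) := by
  rw [sum_ind]
  congr 2
  ext w
  simp [mem_nb]

theorem eST_symm {n : ℕ} (E : St n) (S T : Finset (Fin n)) : eST E S T = eST E T S := by
  rw [eST_eq, eST_eq, sum_comm]
  exact sum_congr rfl fun v _ => sum_congr rfl fun w _ => by rw [Sym2.eq_swap]

theorem disc2 {n : ℕ} (E : St n) (W : Finset (Fin n)) {p r δ' κ γ : ℝ} (hp : 0 < p) (hr : 0 < r)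
    (hγ : 0 < γ) (hγ1 : γ ≤ 1) (hδ0 : 0 ≤ δ') (hδ : δ' ≤ γ ^ 2) (hκ0 : 0 ≤ κ)
    (hκ : κ ≤ γ ^ 2 * (p * r)) (hW : |(W.card : ℝ) - r| ≤ δ' * r)
    (hdeg : ∀ v ∈ W, |((W ∩ nb E v).card : ℝ) - p * r| ≤ δ' * (p * r)) (disc : Disc p δ' κ E)
    {S T : Finset (Fin n)} (hS : S ⊆ W) (hT : T ⊆ W) (hST : S.card ≤ T.card) :
    |eST E S T - p * S.card * T.card| ≤ 12 * γ * (√(T.card : ℝ) * √(S.card : ℝ)) * (p * r) := by
  have hsplit : eST E S T + eST E S (W \ T) = ∑ v ∈ S, ((W ∩ nb E v).card : ℝ) := by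
    rw [eST_eq, eST_eq, ← sum_add_distrib]
    refine sum_congr rfl fun v _ => ?_
    rw [card_eq, ← sum_sdiff hT, add_comm]
  have hnn : ∀ S T, 0 ≤ eST E S T := fun S T => Nat.cast_nonneg _
  refine real_disc (w := W.card) (e' := eST E S (W \ T)) hp hr hγ hγ1 hδ0 hδ hκ0 hκ
    (Nat.cast_nonneg _) (by exact_mod_cast hST) (by exact_mod_cast card_le_card hT) hW
    (by positivity) ?_ (hnn _ _) (disc S T) ?_ ?_ ?_
  · rw [mul_pow, Real.sq_sqrt (Nat.cast_nonneg _), Real.sq_sqrt (Nat.cast_nonneg _), mul_comm]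
  · have := sum_le_card_nsmul S (fun v => ((W ∩ nb E v).card : ℝ)) ((1 + δ') * (p * r))
      (fun v hv => by have := (abs_le.1 (hdeg v (hS hv))).2; linarith)
    rw [nsmul_eq_mul] at this
    linarith [hnn S (W \ T)]
  · have := card_nsmul_le_sum S (fun v => ((W ∩ nb E v).card : ℝ)) ((1 - δ') * (p * r))
      (fun v hv => by have := (abs_le.1 (hdeg v (hS hv))).1; linarith)
    rw [nsmul_eq_mul] at this
    linarith
  · have := disc S (W \ T)
    rwa [card_sdiff_of_subset hT, Nat.cast_sub (card_le_card hT)] at this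

end SpecA

theorem spec {n : ℕ} (E : St n) (W : Finset (Fin n)) {p r δ' κ γ : ℝ} (hp : 0 < p) (hr : 0 < r)
    (hγ : 0 < γ) (hγ1 : γ ≤ 1) (hδ0 : 0 ≤ δ') (hδ : δ' ≤ γ ^ 2) (hκ0 : 0 ≤ κ)
    (hκ : κ ≤ γ ^ 2 * (p * r)) (hW : |(W.card : ℝ) - r| ≤ δ' * r)
    (hdeg : ∀ v ∈ W, |((W ∩ nb E v).card : ℝ) - p * r| ≤ δ' * (p * r)) (disc : Disc p δ' κ E)
    (x : Fin n → ℝ) :
    ∑ v ∈ W, ((p * r)⁻¹ * ∑ w ∈ W ∩ nb E v, x w - r⁻¹ * ∑ w ∈ W, x w) ^ 2 ≤
      (24 * γ * (1 + Real.log n)) ^ 2 * ∑ w ∈ W, x w ^ 2 := by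
  have hpr : 0 < p * r := mul_pos hp hr
  have key := SpecA.op_bound W (fun v w => (p * r)⁻¹ * ind (s(v, w) ∈ E) - r⁻¹)
    (fun v w => by rw [Sym2.eq_swap]) (c := 12 * γ) (fun S hS T hT => by
      have e : ∑ v ∈ S, ∑ w ∈ T, ((p * r)⁻¹ * ind (s(v, w) ∈ E) - r⁻¹) =
          (p * r)⁻¹ * (eST E S T - p * S.card * T.card) := by
        simp only [sum_sub_distrib, ← mul_sum, sum_const, nsmul_eq_mul]
        rw [← SpecA.eST_eq]
        field_simp
      rw [e, abs_mul, abs_of_pos (inv_pos.2 hpr), inv_mul_le_iff₀ hpr]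
      rcases le_total S.card T.card with h | h
      · have := SpecA.disc2 E W hp hr hγ hγ1 hδ0 hδ hκ0 hκ hW hdeg disc hS hT h
        linarith
      · have := SpecA.disc2 E W hp hr hγ hγ1 hδ0 hδ hκ0 hκ hW hdeg disc hT hS h
        rw [SpecA.eST_symm, mul_right_comm p] at this
        linarith) x
  have e : ∀ v, (p * r)⁻¹ * ∑ w ∈ W ∩ nb E v, x w - r⁻¹ * ∑ w ∈ W, x w =
      ∑ w ∈ W, ((p * r)⁻¹ * ind (s(v, w) ∈ E) - r⁻¹) * x w := by
    intro v
    simp only [sub_mul, sum_sub_distrib, mul_assoc, ← mul_sum]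
    congr 2
    rw [← sum_ite_mem]
    refine sum_congr rfl fun w _ => ?_
    by_cases h : s(v, w) ∈ E
    · rw [ind_pos h, if_pos (mem_nb.2 h), one_mul]
    · rw [ind_neg h, if_neg (fun h' => h (mem_nb.1 h')), zero_mul]
  simp only [e]
  refine key.trans (mul_le_mul_of_nonneg_right ?_ (sum_nonneg fun _ _ => sq_nonneg _))
  have h1 := Real.log_natCast_nonneg W.card
  have h2 : Real.log W.card ≤ Real.log n :=
    SpecA.log_card_mono (by simpa using card_le_univ W)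
  refine pow_le_pow_left₀ (by positivity) ?_ 2
  nlinarith

theorem reg_of_good (P : Par) {i : ℕ} (hi : i ≤ P.m) {E : St P.n} (h : P.Good i E)
    (disc : Disc (pp P.n i) P.δ' P.κ E) : Reg E (dd P.n i) (yy P.n i) P.lam := by
  have hz := P.z_ge
  have hz0 := P.z_pos
  have hz1 : 1 ≤ P.z := by linarith
  have hp := Par.pp_pos hi
  have hn : (0 : ℝ) < P.n := by have := P.n3; positivity
  have hd : 0 < dd P.n i := mul_pos hn hp
  have hy : 0 < yy P.n i := mul_pos hn (by positivity)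
  have hinv : ∀ a b : ℕ, a ≤ b → (P.z ^ b)⁻¹ ≤ (P.z ^ a)⁻¹ := fun a b hab =>
    inv_anti₀ (by positivity) (pow_le_pow_right₀ hz1 hab)
  have hγ : 0 < (P.z ^ 3)⁻¹ := by positivity
  have hγ1 : (P.z ^ 3)⁻¹ ≤ 1 := by simpa using hinv 0 3 (by norm_num)
  have hδ0 : 0 ≤ P.δ' := by unfold Par.δ'; positivity
  have hγ2 : ((P.z ^ 3)⁻¹) ^ 2 = (P.z ^ 6)⁻¹ := by rw [inv_pow, ← pow_mul]
  have hδ : P.δ' ≤ ((P.z ^ 3)⁻¹) ^ 2 := by rw [hγ2]; exact hinv 6 7 (by norm_num)
  have hκ0 : 0 ≤ P.κ := by unfold Par.κ; positivity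
  have hκ : P.κ ≤ ((P.z ^ 3)⁻¹) ^ 2 * yy P.n i := by
    rw [hγ2, le_inv_mul_iff₀ (by positivity)]
    refine le_trans ?_ (Par.D_le_yy hi)
    unfold Par.κ Par.D
    rw [← pow_add]
    exact pow_le_pow_right₀ hz1 (by norm_num)
  have hlam : (24 * (P.z ^ 3)⁻¹ * (1 + Real.log P.n)) ^ 2 ≤ P.lam ^ 2 := by
    have h1 := P.L_ge
    have h2 := P.L_le
    unfold Par.L at h1 h2
    refine pow_le_pow_left₀ (by positivity) ?_ 2
    unfold Par.lam
    have : 24 * (P.z ^ 3)⁻¹ * (1 + Real.log P.n) ≤ (P.z ^ 3)⁻¹ * P.z := by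
      have : 24 * (1 + Real.log P.n) ≤ P.z := by linarith
      nlinarith
    refine this.trans (le_of_eq ?_)
    field_simp
  have hpd : pp P.n i * dd P.n i = yy P.n i := by unfold dd yy; ring
  have hpn : pp P.n i * P.n = dd P.n i := by unfold dd; ring
  refine ⟨fun u => (h.deg u).trans (mul_le_mul_of_nonneg_right (hinv 2 7 (by norm_num)) hd.le),
    fun u v huv => ?_, fun u x => ?_, fun x => ?_⟩
  · have h1 := (abs_le.1 (h.cod u v huv)).2
    have h2 : P.δ ≤ 1 := by simpa [Par.δ] using hinv 0 8 (by norm_num)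
    nlinarith
  · have := spec E (nb E u) hp hd hγ hγ1 hδ0 hδ hκ0 (by rwa [hpd]) (h.deg u) (fun v hv => by
      rw [hpd]
      exact (h.cod u v (mem_nb.1 hv)).trans
        (mul_le_mul_of_nonneg_right (hinv 7 8 (by norm_num)) hy.le)) disc x
    rw [hpd] at this
    exact this.trans (mul_le_mul_of_nonneg_right hlam (sum_nonneg fun _ _ => sq_nonneg _))
  · have := spec E univ hp hn hγ hγ1 hδ0 hδ hκ0 (by
      rw [hpn]
      exact hκ.trans (mul_le_mul_of_nonneg_left (Par.yy_le_dd hi) (by positivity)))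
      (by simp; positivity) (fun v _ => by
        rw [hpn, univ_inter]
        exact h.deg v) disc x
    simp only [hpn, univ_inter] at this
    exact this.trans (mul_le_mul_of_nonneg_right hlam (sum_nonneg fun _ _ => sq_nonneg _))

end Crest.Agent.R30
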