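import Crest.Agent.R30.Graph

/-!
# R30 Grid: the parameters and the time grid (task R30-Grid)

PLAN (aux in `namespace GridA`).  `L = log n ≥ 1` as `n ≥ 3 > e`; `1000 L ≤ (1000 L) ^ 25000 ≤ z`.
`pp n i` is decreasing, `pp (i+1) = pp i (1 - tt i)`, `(n p_m)² = n D ≥ n²/n`.., so `n p_m ≥ 1` and
`tt i ≤ 6 / n`.  `∑ tt ≤ ∑ -log (1 - tt) = log (pp 0 / pp j) ≤ log n`.  `decay`: `log (1 - t) ≥ -t - 2t²`
for `t ≤ 1/2`, so `∑ tt ≥ log (pp 0 / pp j) - 2 ∑ tt²`, `pp 0 = 1 - 1/n`, `exp s ≤ 1 + 2 s` for `s ≤ 1`.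
`Good.Q`: `six_Q`, `cod = y (1 + aa)`, `sum_deg_eq`.  `exists_par`: `m = ⌊(n² - n - n^(3/2 + 1/1000)) / 6⌋₊`,
so `n² p_m ∈ [n^(3/2 + 1/1000), n^(3/2 + 1/1000) + 6)`, `D = yy n m ∈ [n^(1/500), 2 n^(1/500)]` for large
`n`, `z = D ^ (1/24)`; `isLittleO_log_rpow_rpow_atTop` (or `isLittleO_pow_log_id_atTop`) for `h3`.
-/

set_option autoImplicit false

namespace Crest.Agent.R30

open Finset Crest.CombinatoricsR.TriangleRemoval

namespace GridA

theorem pp_anti (n : ℕ) {i j : ℕ} (h : i ≤ j) : pp n j ≤ pp n i := by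
  have : (i : ℝ) ≤ j := by exact_mod_cast h
  exact div_le_div_of_nonneg_right (by linarith) (sq_nonneg _)

theorem n3R (P : Par) : (3 : ℝ) ≤ P.n := by exact_mod_cast P.n3

theorem npos (P : Par) : (0 : ℝ) < P.n := by linarith [n3R P]

theorem log_ge {t : ℝ} (h0 : 0 ≤ t) (h1 : t ≤ 1 / 2) : -t - 2 * t ^ 2 ≤ Real.log (1 - t) := by
  have hp : 0 < 1 - t := by linarith
  refine le_trans ?_ (Real.one_sub_inv_le_log_of_pos hp)
  have : (1 - t)⁻¹ ≤ 1 + t + 2 * t ^ 2 := by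
    rw [inv_le_iff_one_le_mul₀ hp]
    nlinarith [mul_nonneg (mul_nonneg h0 h0) (sub_nonneg.2 h1)]
  linarith

end GridA

open GridA

namespace Par

variable (P : Par)

theorem L_ge : 1 ≤ P.L := by 
  rw [L, Real.le_log_iff_exp_le (npos P)]
  linarith [Real.exp_one_lt_d9, n3R P]

theorem L_le : 1000 * P.L ≤ P.z := by 
  refine le_trans ?_ P.h3
  exact le_self_pow₀ (by linarith [P.L_ge, show P.L = Real.log P.n from rfl]) (by norm_num)

theorem L_pow : (1000 * P.L) ^ 25000 ≤ P.z := P.h3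

theorem z_ge : 1000 ≤ P.z := by 
  linarith [P.L_le, P.L_ge]

theorem exp_L : Real.exp P.L = P.n := by 
  exact Real.exp_log (npos P)

theorem m_le : 6 * P.m ≤ P.n ^ 2 := by 
  have h := P.p_pos
  rw [pp, div_pos_iff_of_pos_right (pow_pos (npos P) 2)] at h
  have : (6 : ℝ) * P.m ≤ (P.n : ℝ) ^ 2 := by linarith [npos P]
  exact_mod_cast this

variable {P} {i j : ℕ}

theorem pp_pos (hi : i ≤ P.m) : 0 < pp P.n i := by 
  exact P.p_pos.trans_le (pp_anti _ hi)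

theorem pp_le_one (i : ℕ) : pp P.n i ≤ 1 := by 
  rw [pp, div_le_one (pow_pos (npos P) 2)]
  have : (0 : ℝ) ≤ i := Nat.cast_nonneg i
  linarith [npos P]

theorem pp_succ (hi : i ≤ P.m) : pp P.n (i + 1) = pp P.n i * (1 - tt P.n i) := by 
  have h := (pp_pos hi).ne'
  have hn := (npos P).ne'
  have : pp P.n (i + 1) = pp P.n i - 6 / (P.n : ℝ) ^ 2 := by
    simp only [pp]; push_cast; ring
  rw [this, tt]
  field_simp

theorem tt_pos (hi : i ≤ P.m) : 0 < tt P.n i := by 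
  exact div_pos (by norm_num) (mul_pos (pow_pos (npos P) 2) (pp_pos hi))

theorem one_le_np (hi : i ≤ P.m) : 1 ≤ P.n * pp P.n i := by
  have h1 : 1 ≤ yy P.n P.m := by
    rw [← P.hz]; exact one_le_pow₀ (by linarith [P.z_ge])
  have h2 : yy P.n P.m ≤ P.n * pp P.n P.m := by
    rw [yy, pow_two]
    exact mul_le_mul_of_nonneg_left (mul_le_of_le_one_right P.p_pos.le (pp_le_one _)) (npos P).le
  exact h1.trans (h2.trans (mul_le_mul_of_nonneg_left (pp_anti _ hi) (npos P).le))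

theorem inv_n_le (k : ℕ) (hk : k ≤ 9999) : 1000 * (P.n : ℝ)⁻¹ ≤ (P.z ^ k)⁻¹ := by
  have z1 : 1 ≤ P.z := by linarith [P.z_ge]
  have h1 : 1000 * P.z ^ k ≤ P.n := by
    refine le_trans ?_ P.h2
    calc 1000 * P.z ^ k ≤ P.z * P.z ^ 9999 :=
          mul_le_mul P.z_ge (pow_le_pow_right₀ z1 hk) (by positivity) P.z_pos.le
      _ = P.z ^ 10000 := by rw [← pow_succ']
  have zp : 0 < P.z ^ k := pow_pos P.z_pos k
  rw [← div_eq_mul_inv, div_le_iff₀ (npos P), inv_mul_eq_div, le_div_iff₀ zp]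
  exact h1

theorem tt_le (hi : i ≤ P.m) : tt P.n i ≤ (P.z ^ 100)⁻¹ := by 
  refine le_trans ?_ (inv_n_le 100 (by norm_num))
  have h := one_le_np hi
  have hn := npos P
  rw [tt, ← div_eq_mul_inv, div_le_div_iff₀ (mul_pos (pow_pos hn 2) (pp_pos hi)) hn]
  nlinarith

theorem D_le_yy (hi : i ≤ P.m) : P.D ≤ yy P.n i := by 
  rw [D, P.hz, yy, yy]
  exact mul_le_mul_of_nonneg_left (pow_le_pow_left₀ P.p_pos.le (pp_anti _ hi) 2) (npos P).le

theorem yy_le_dd (hi : i ≤ P.m) : yy P.n i ≤ dd P.n i := by 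
  rw [yy, dd, pow_two]
  exact mul_le_mul_of_nonneg_left (mul_le_of_le_one_right (pp_pos hi).le (pp_le_one _))
    (npos P).le

theorem dd_le (i : ℕ) : dd P.n i ≤ P.n := by 
  exact mul_le_of_le_one_right (npos P).le (pp_le_one _)

theorem dd_succ_le (i : ℕ) : dd P.n (i + 1) ≤ dd P.n i := by 
  exact mul_le_mul_of_nonneg_left (pp_anti _ (Nat.le_succ i)) (npos P).le

theorem tt_half (hi : i ≤ P.m) : tt P.n i ≤ 1 / 2 := by
  refine (tt_le hi).trans ?_
  rw [one_div]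
  refine inv_anti₀ (by norm_num) (le_trans (by linarith [P.z_ge]) (le_self_pow₀ ?_ (by norm_num)))
  linarith [P.z_ge]

theorem log_succ (hi : i ≤ P.m) :
    Real.log (pp P.n (i + 1)) = Real.log (pp P.n i) + Real.log (1 - tt P.n i) := by
  rw [pp_succ hi, Real.log_mul (pp_pos hi).ne' (by linarith [tt_half hi])]

theorem sum_tt (hj : j ≤ P.m) : ∑ i ∈ range j, tt P.n i ≤ P.L := by 
  have key : ∀ j ≤ P.m, ∑ i ∈ range j, tt P.n i ≤ Real.log (pp P.n 0) - Real.log (pp P.n j) := by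
    intro j
    induction j with
    | zero => simp
    | succ j ih =>
      intro hj
      have hj' : j ≤ P.m := by omega
      rw [sum_range_succ, log_succ hj']
      have := Real.log_le_sub_one_of_pos (x := 1 - tt P.n j) (by linarith [tt_half hj'])
      linarith [ih hj']
  have h1 := Real.log_nonpos (pp_pos (Nat.zero_le P.m)).le (pp_le_one (P := P) 0)
  have h2 := Real.log_nonneg (one_le_np hj)
  rw [Real.log_mul (npos P).ne' (pp_pos hj).ne'] at h2
  have := key j hj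
  rw [L]
  linarith

theorem decay (hj : j ≤ P.m) {s : ℝ} (h0 : 0 ≤ s) (h1 : s ≤ 30 * P.δ) :
    Real.exp (-((1 - s) * ∑ i ∈ range j, tt P.n i)) ≤ (1 + P.δ') * pp P.n j := by 
  have key : ∀ j ≤ P.m, Real.log (pp P.n 0) - Real.log (pp P.n j) ≤
      (1 + 2 * (P.z ^ 100)⁻¹) * ∑ i ∈ range j, tt P.n i := by
    intro j
    induction j with
    | zero => simp
    | succ j ih =>
      intro hj
      have hj' : j ≤ P.m := by omega
      rw [sum_range_succ, log_succ hj']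
      have := log_ge (tt_pos hj').le (tt_half hj')
      have h2 := mul_le_mul_of_nonneg_right (tt_le hj') (tt_pos hj').le
      have := ih hj'
      nlinarith
  have hn := npos P
  have z1 : 1 ≤ P.z := by linarith [P.z_ge]
  have p0 : pp P.n 0 = 1 - (P.n : ℝ)⁻¹ := by
    simp only [pp]; push_cast; field_simp; ring
  have i0 : 0 ≤ (P.n : ℝ)⁻¹ := by positivity
  have i1 : (P.n : ℝ)⁻¹ ≤ 1 / 2 := by
    rw [one_div]; exact inv_anti₀ (by norm_num) (by linarith [n3R P])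
  have l0 : -(2 * (P.n : ℝ)⁻¹) ≤ Real.log (pp P.n 0) := by
    rw [p0]
    have := log_ge i0 i1
    nlinarith
  have S0 : 0 ≤ ∑ i ∈ range j, tt P.n i :=
    sum_nonneg fun i hi => (tt_pos (by have := mem_range.1 hi; omega)).le
  have SL := sum_tt hj
  have k1 := key j hj
  have d7 : 0 < P.δ' := inv_pos.2 (pow_pos P.z_pos 7)
  have dz : P.δ * P.z = P.δ' := by
    have := P.z_pos.ne'
    simp only [δ, δ']; field_simp
  have d8 : 0 < P.δ := inv_pos.2 (pow_pos P.z_pos 8)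
  have c1 : (P.z ^ 100)⁻¹ ≤ P.δ := inv_anti₀ (pow_pos P.z_pos 8) (pow_le_pow_right₀ z1 (by norm_num))
  have c2 : 1000 * (P.n : ℝ)⁻¹ ≤ P.δ' := inv_n_le 7 (by norm_num)
  have c3 : P.δ * (1000 * P.L) ≤ P.δ' := by
    rw [← dz]; exact mul_le_mul_of_nonneg_left P.L_le d8.le
  have c4 : P.δ' ≤ 1 := inv_le_one_of_one_le₀ (one_le_pow₀ z1)
  have c5 : (s + 2 * (P.z ^ 100)⁻¹) * ∑ i ∈ range j, tt P.n i ≤ (32 * P.δ) * P.L :=
    mul_le_mul (by linarith) SL S0 (by positivity)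
  have c6 : -((1 - s) * ∑ i ∈ range j, tt P.n i) ≤ Real.log (pp P.n j) + P.δ' / 2 := by
    nlinarith
  refine (Real.exp_le_exp.2 c6).trans ?_
  rw [Real.exp_add, Real.exp_log (pp_pos hj), mul_comm]
  refine mul_le_mul_of_nonneg_right ?_ (pp_pos hj).le
  refine (Real.exp_bound_div_one_sub_of_interval (by linarith) (by linarith)).trans ?_
  rw [div_le_iff₀ (by linarith)]
  nlinarith

variable {E : St P.n}

theorem yy_pos' (hi : i ≤ P.m) : 0 < yy P.n i := mul_pos (npos P) (pow_pos (pp_pos hi) 2)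

theorem Good.aa_le (h : P.Good i E) (hi : i ≤ P.m) {u v : Fin P.n} (huv : s(u, v) ∈ E) :
    |P.aa i E u v| ≤ P.δ := by 
  have hy := yy_pos' hi
  have : P.aa i E u v = (R30.cod E u v - yy P.n i) / yy P.n i := by
    rw [aa]; field_simp
  rw [this, abs_div, abs_of_pos hy, div_le_iff₀ hy]
  exact h.cod u v huv

theorem Good.sum_const (h : P.Good i E) (c : ℝ) :
    ∑ u, ∑ _v ∈ nb E u, c = (P.n : ℝ) ^ 2 * pp P.n i * c := by
  rw [← h.card, ← sum_deg_eq h.sub, sum_mul]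
  simp [R30.deg]

/-- `abar` is an average -/
theorem Good.abar_sub_le (h : P.Good i E) (hi : i ≤ P.m) {c B : ℝ}
    (hB : ∀ u v, s(u, v) ∈ E → |P.aa i E u v - c| ≤ B) : |P.abar i E - c| ≤ B := by 
  have hp : 0 < (P.n : ℝ) ^ 2 * pp P.n i := mul_pos (pow_pos (npos P) 2) (pp_pos hi)
  have e : P.abar i E - c =
      (∑ u, ∑ v ∈ nb E u, (P.aa i E u v - c)) / ((P.n : ℝ) ^ 2 * pp P.n i) := by
    simp only [sum_sub_distrib]
    rw [h.sum_const c, abar, sub_div, mul_div_cancel_left₀ _ hp.ne', div_eq_inv_mul]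
  rw [e, abs_div, abs_of_pos hp, div_le_iff₀ hp, mul_comm, ← h.sum_const B]
  refine (abs_sum_le_sum_abs _ _).trans (sum_le_sum fun u _ => ?_)
  exact (abs_sum_le_sum_abs _ _).trans (sum_le_sum fun v hv => hB u v (mem_nb.1 hv))

theorem Good.abar_le (h : P.Good i E) (hi : i ≤ P.m) : |P.abar i E| ≤ P.δ := by 
  have := h.abar_sub_le hi (c := 0) (B := P.δ) fun u v huv => by
    rw [sub_zero]; exact h.aa_le hi huv
  rwa [sub_zero] at this

theorem Good.Q (h : P.Good i E) (hi : i ≤ P.m) :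
    ((triangles E).card : ℝ) * tt P.n i = yy P.n i * (1 + P.abar i E) := by 
  have hp : 0 < (P.n : ℝ) ^ 2 * pp P.n i := mul_pos (pow_pos (npos P) 2) (pp_pos hi)
  have hy := yy_pos' hi
  have e : ∀ u v, R30.cod E u v = yy P.n i + yy P.n i * P.aa i E u v := by
    intro u v
    rw [aa]; field_simp; ring
  have h6 := six_Q h.sub
  simp only [e, sum_add_distrib, ← mul_sum] at h6
  rw [h.sum_const] at h6
  rw [tt, abar, mul_div_assoc', mul_comm _ (6 : ℝ), h6]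
  generalize (P.n : ℝ) ^ 2 * pp P.n i = c at hp
  field_simp

theorem Good.Q_ne (h : P.Good i E) (hi : i ≤ P.m) : (triangles E).card ≠ 0 := by 
  intro h0
  have hQ := h.Q hi
  rw [h0, Nat.cast_zero, zero_mul] at hQ
  have h1 := (abs_le.1 (h.abar_le hi)).1
  have h2 : P.δ < 1 := inv_lt_one_of_one_lt₀ (one_lt_pow₀ (by linarith [P.z_ge]) (by norm_num))
  have := mul_pos (yy_pos' hi) (show 0 < 1 + P.abar i E by linarith)
  linarith

theorem cod_zero {u v : Fin P.n} (h : u ≠ v) :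
    |cod (allEdges P.n) u v - yy P.n 0| = (P.n : ℝ)⁻¹ := by
  have hn := npos P
  have : cod (allEdges P.n) u v - yy P.n 0 = -(P.n : ℝ)⁻¹ := by
    rw [cod_all h]
    simp only [yy, pp]; push_cast; field_simp; ring
  rw [this, abs_neg, abs_of_pos (inv_pos.2 hn)]

theorem one_le_yy (hi : i ≤ P.m) : 1 ≤ yy P.n i :=
  le_trans (one_le_pow₀ (by linarith [P.z_ge])) (D_le_yy hi)

theorem good_zero : P.Good 0 (allEdges P.n) := by 
  have hn := npos P
  refine ⟨subset_rfl, ?_, fun u => ?_, fun u v huv => ?_⟩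
  · rw [card_all]
    simp only [pp]; push_cast; field_simp; ring
  · have : deg (allEdges P.n) u - dd P.n 0 = 0 := by
      rw [deg_all]
      simp only [dd, pp]; push_cast; field_simp; ring
    rw [this, abs_zero]
    exact mul_nonneg (inv_pos.2 (pow_pos P.z_pos 7)).le
      (mul_pos hn (pp_pos (Nat.zero_le _))).le
  · rw [cod_zero (ne_of_mem subset_rfl huv)]
    have c2 : 1000 * (P.n : ℝ)⁻¹ ≤ P.δ := inv_n_le 8 (by norm_num)
    have i0 : 0 ≤ (P.n : ℝ)⁻¹ := by positivity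
    have := le_mul_of_one_le_right (show 0 ≤ P.δ by linarith) (one_le_yy (Nat.zero_le P.m))
    linarith

theorem aa_zero {u v : Fin P.n} (h : u ≠ v) : |P.aa 0 (allEdges P.n) u v| ≤ P.η := by 
  have hy := yy_pos' (Nat.zero_le P.m)
  have hn := npos P
  have : P.aa 0 (allEdges P.n) u v = (cod (allEdges P.n) u v - yy P.n 0) / yy P.n 0 := by
    rw [aa]; field_simp
  rw [this, abs_div, abs_of_pos hy, div_le_iff₀ hy, cod_zero h]
  have c2 : 1000 * (P.n : ℝ)⁻¹ ≤ P.η := inv_n_le 11 (by norm_num)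
  have i0 : 0 ≤ (P.n : ℝ)⁻¹ := by positivity
  have := le_mul_of_one_le_right (show 0 ≤ P.η by linarith) (one_le_yy (Nat.zero_le P.m))
  linarith

end Par

namespace GridA

theorem ev_w : ∀ᶠ w : ℝ in Filter.atTop, 2 ≤ w ∧ (1000 * (12000 * Real.log w)) ^ 25000 ≤ w := by
  have h := (Real.isLittleO_pow_log_id_atTop (n := 25000)).const_mul_left ((1000 * 12000) ^ 25000)
  filter_upwards [Filter.eventually_ge_atTop (2 : ℝ), h.bound one_pos] with w h1 h2
  refine ⟨h1, ?_⟩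
  rw [one_mul, id, Real.norm_of_nonneg (show 0 ≤ w by linarith), ← mul_pow, mul_assoc] at h2
  exact (le_abs_self _).trans h2

theorem par_of (n : ℕ) (w : ℝ) (hw : w ^ 12000 = n) (h2 : 2 ≤ w)
    (h3 : (1000 * (12000 * Real.log w)) ^ 25000 ≤ w) : ∃ P : Par, P.n = n := by
  have w1 : 1 ≤ w := by linarith
  have w0 : 0 < w := by linarith
  have n4 : (4 : ℝ) ≤ n := by
    rw [← hw]
    calc (4 : ℝ) = 2 ^ 2 := by norm_num
      _ ≤ w ^ 2 := pow_le_pow_left₀ (by norm_num) h2 2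
      _ ≤ w ^ 12000 := pow_le_pow_right₀ w1 (by norm_num)
  have n0 : (0 : ℝ) < n := by linarith
  obtain ⟨X, hX⟩ : ∃ X, X = w ^ 18012 := ⟨_, rfl⟩
  have X1 : 2 * X ≤ (n : ℝ) ^ 2 := by
    rw [← hw, ← pow_mul, hX]
    calc 2 * w ^ 18012 ≤ w * w ^ 18012 := mul_le_mul_of_nonneg_right h2 (by positivity)
      _ = w ^ 18013 := by rw [← pow_succ']
      _ ≤ _ := pow_le_pow_right₀ w1 (by norm_num)
  have X2 : 6 ≤ X := by
    rw [hX]
    calc (6 : ℝ) ≤ 2 ^ 3 := by norm_num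
      _ ≤ w ^ 3 := pow_le_pow_left₀ (by norm_num) h2 3
      _ ≤ _ := pow_le_pow_right₀ w1 (by norm_num)
  have X3 : X ^ 2 = (n : ℝ) ^ 3 * w ^ 24 := by
    rw [← hw, hX, ← pow_mul, ← pow_mul, ← pow_add]
  have h0 : 0 ≤ ((n : ℝ) ^ 2 - n - X) / 6 := by nlinarith
  obtain ⟨m, hm⟩ : ∃ m, m = ⌊((n : ℝ) ^ 2 - n - X) / 6⌋₊ := ⟨_, rfl⟩
  have m1 : (m : ℝ) ≤ ((n : ℝ) ^ 2 - n - X) / 6 := hm ▸ Nat.floor_le h0
  have m2 : ((n : ℝ) ^ 2 - n - X) / 6 < m + 1 := hm ▸ Nat.lt_floor_add_one _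
  obtain ⟨T, hT⟩ : ∃ T : ℝ, T = (n : ℝ) ^ 2 - n - 6 * m := ⟨_, rfl⟩
  have T1 : X ≤ T := by linarith
  have T2 : T ≤ 2 * X := by linarith
  have hy : yy n m = T ^ 2 / (n : ℝ) ^ 3 := by
    simp only [yy, pp, ← hT]; field_simp
  have n3 : (0 : ℝ) < (n : ℝ) ^ 3 := by positivity
  have y1 : w ^ 24 ≤ yy n m := by
    rw [hy, le_div_iff₀ n3, mul_comm, ← X3]
    exact pow_le_pow_left₀ (by linarith) T1 2
  have y2 : yy n m ≤ 4 * w ^ 24 := by
    rw [hy, div_le_iff₀ n3]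
    have := pow_le_pow_left₀ (by linarith) T2 2
    nlinarith
  have y0 : 0 < yy n m := lt_of_lt_of_le (by positivity) y1
  obtain ⟨z, z0, hz⟩ : ∃ z : ℝ, 0 < z ∧ z ^ 24 = yy n m :=
    ⟨yy n m ^ ((24 : ℕ) : ℝ)⁻¹, Real.rpow_pos_of_pos y0 _,
      Real.rpow_inv_natCast_pow y0.le (by norm_num)⟩
  have wz : w ≤ z := le_of_pow_le_pow_left₀ (n := 24) (by norm_num) z0.le (hz ▸ y1)
  refine ⟨⟨n, m, z, ?_, z0, ?_, hz, ?_, ?_, ?_⟩, rfl⟩
  · have : (3 : ℝ) ≤ n := by linarith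
    exact_mod_cast this
  · rw [pp, ← hT]
    exact div_pos (by linarith) (by positivity)
  · rw [← hw]; exact pow_le_pow_left₀ w0.le wz _
  · calc z ^ 10000 ≤ z ^ (24 * 417) := pow_le_pow_right₀ (w1.trans wz) (by norm_num)
      _ = yy n m ^ 417 := by rw [pow_mul, hz]
      _ ≤ (w ^ 2 * w ^ 24) ^ 417 := by
          refine pow_le_pow_left₀ y0.le (y2.trans (mul_le_mul_of_nonneg_right ?_ (by positivity))) _
          nlinarith
      _ = w ^ (26 * 417) := by rw [← pow_add, ← pow_mul]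
      _ ≤ w ^ 12000 := pow_le_pow_right₀ w1 (by norm_num)
      _ = n := hw
  · rw [← hw, Real.log_pow]
    exact le_trans (by exact_mod_cast h3) wz

end GridA

theorem exists_par : ∀ᶠ n : ℕ in Filter.atTop, ∃ P : Par, P.n = n := by 
  have ht : Filter.Tendsto (fun n : ℕ => (n : ℝ) ^ ((12000 : ℕ) : ℝ)⁻¹) Filter.atTop Filter.atTop :=
    (tendsto_rpow_atTop (by positivity)).comp tendsto_natCast_atTop_atTop
  filter_upwards [ht.eventually ev_w] with n hn
  exact par_of n _ (Real.rpow_inv_natCast_pow (Nat.cast_nonneg n) (by norm_num)) hn.1 hn.2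

end Crest.Agent.R30
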