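import Crest.Agent.R30.StabAbs
import Crest.Agent.R30.Grid

/-!
# R30 Stab: the stability lemma on graphs (task R30-Stab)

PLAN (aux in `namespace StabB`).  Apply `stab_abs` with `X = Fin n → Fin n → ℝ`, `Y = Fin n → ℝ`,
`m i a u = (d i)⁻¹ ∑_{w ∈ nb u} a u w`, `ι b u v = b u + b v`, `avg b u = n⁻¹ ∑ b`,
`E i a = AA (G i) (y i) a - ι (m i a)`, `F i b = m i (ι b) - b - avg b`, i.e.
`F i b u = (deg u / d - 1) b u + (d⁻¹ ∑_{nb u} b - n⁻¹ ∑ b)`.  Seminorms: `(normSeminorm ℝ _).comp` of the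
linear maps "set to zero outside the edges of `G i`" into the sup normed space `X`, resp. into
`EuclideanSpace ℝ (Fin n × Fin n)`; on `Y` the sup norm, resp. `√(d i) •` the Euclidean norm.
Sup bounds: `cod ≤ 2 y`, `deg ≤ 2 d`.  `ℓ²` bounds with `e = 2 lam`: `E a u v = r u v + r v u` with
`r u v = y⁻¹ ∑_{cn u v} a u w - d⁻¹ ∑_{nb u} a u w` (`cn` is symmetric), `Reg.link`; Cauchy-Schwarz for `m`,
`avg`; `(b u + b v)² ≤ 2 (b u² + b v²)` for `ι`.  `N = n`.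
`stabP`: `k0 = 12020`, `13 L² (2 lam) ≤ z⁻¹`, `n ≤ z ^ 12000`, `3 L (200 L²) ^ (k0 + 1) ≤ (1000 L) ^ 25000`.
-/

set_option autoImplicit false

namespace Crest.Agent.R30

open Finset Crest.CombinatoricsR.TriangleRemoval

namespace StabB

noncomputable section

variable {n : ℕ}

abbrev XT (n : ℕ) := Fin n → Fin n → ℝ
abbrev YT (n : ℕ) := Fin n → ℝ

/-- set to zero outside the edges -/
def cut (E : St n) : XT n →ₗ[ℝ] XT n where
  toFun a u v := if s(u, v) ∈ E then a u v else 0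
  map_add' a b := by
    funext u v
    simp only [Pi.add_apply]
    split_ifs <;> simp
  map_smul' c a := by
    funext u v
    simp only [Pi.smul_apply, RingHom.id_apply]
    split_ifs <;> simp

def unc : XT n →ₗ[ℝ] EuclideanSpace ℝ (Fin n × Fin n) where
  toFun a := WithLp.toLp 2 fun q => a q.1 q.2
  map_add' _ _ := rfl
  map_smul' _ _ := rfl

def euc (c : ℝ) : YT n →ₗ[ℝ] EuclideanSpace ℝ (Fin n) where
  toFun b := WithLp.toLp 2 fun u => √c * b u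
  map_add' a b := by
    ext u
    simp [mul_add]
  map_smul' r a := by
    ext u
    simp only [Pi.smul_apply, smul_eq_mul, RingHom.id_apply, PiLp.smul_apply]
    ring

def ne (E : St n) : Seminorm ℝ (XT n) := (normSeminorm ℝ (XT n)).comp (cut E)

def ne2 (E : St n) : Seminorm ℝ (XT n) := (normSeminorm ℝ _).comp (unc.comp (cut E))

def nv : Seminorm ℝ (YT n) := normSeminorm ℝ (YT n)

def nv2 (c : ℝ) : Seminorm ℝ (YT n) := (normSeminorm ℝ _).comp (euc c)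

theorem ne_le {E : St n} {a : XT n} {c : ℝ} (hc : 0 ≤ c)
    (h : ∀ u v, s(u, v) ∈ E → |a u v| ≤ c) : ne E a ≤ c := by
  show ‖cut E a‖ ≤ c
  refine (pi_norm_le_iff_of_nonneg hc).2 fun u => (pi_norm_le_iff_of_nonneg hc).2 fun v => ?_
  show ‖if s(u, v) ∈ E then a u v else 0‖ ≤ c
  split_ifs with huv
  · exact h u v huv
  · simpa using hc

theorem le_ne {E : St n} (a : XT n) {u v : Fin n} (h : s(u, v) ∈ E) : |a u v| ≤ ne E a := by
  have := (norm_le_pi_norm (cut E a u) v).trans (norm_le_pi_norm (cut E a) u)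
  have e : cut E a u v = a u v := if_pos h
  rw [e] at this
  exact this

theorem nv_le {b : YT n} {c : ℝ} (hc : 0 ≤ c) (h : ∀ u, |b u| ≤ c) : nv b ≤ c :=
  (pi_norm_le_iff_of_nonneg hc).2 h

theorem le_nv (b : YT n) (u : Fin n) : |b u| ≤ nv b := norm_le_pi_norm b u

theorem ne2_eq (E : St n) (a : XT n) : ne2 E a = √(∑ u, ∑ v ∈ nb E u, a u v ^ 2) := by
  show ‖unc (cut E a)‖ = _
  rw [EuclideanSpace.norm_eq, Fintype.sum_prod_type]
  congr 1
  refine sum_congr rfl fun u _ => ?_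
  rw [nb, sum_filter]
  refine sum_congr rfl fun v _ => ?_
  show ‖if s(u, v) ∈ E then a u v else 0‖ ^ 2 = _
  split_ifs <;> simp

theorem nv2_eq {c : ℝ} (hc : 0 ≤ c) (b : YT n) : nv2 c b = √(c * ∑ u, b u ^ 2) := by
  show ‖euc c b‖ = _
  rw [EuclideanSpace.norm_eq, mul_sum]
  congr 1
  refine sum_congr rfl fun u _ => ?_
  show ‖√c * b u‖ ^ 2 = _
  rw [Real.norm_eq_abs, sq_abs, mul_pow, Real.sq_sqrt hc]

theorem sqrt_le {A B c : ℝ} (hc : 0 ≤ c) (h : A ≤ c ^ 2 * B) : √A ≤ c * √B := by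
  rw [← Real.sqrt_sq hc, ← Real.sqrt_mul (sq_nonneg c)]
  exact Real.sqrt_le_sqrt h

theorem sum_symm (E : St n) (f : Fin n → Fin n → ℝ) :
    ∑ u, ∑ v ∈ nb E u, f v u = ∑ u, ∑ v ∈ nb E u, f u v := by
  refine sum_comm' fun u v => ?_
  simp only [mem_univ, true_and, and_true, mem_nb, Sym2.eq_swap]

def mm (E : St n) (d : ℝ) : XT n →ₗ[ℝ] YT n where
  toFun a u := d⁻¹ * ∑ w ∈ nb E u, a u w
  map_add' a b := by
    funext u
    simp only [Pi.add_apply, sum_add_distrib, mul_add]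
  map_smul' c a := by
    funext u
    simp only [Pi.smul_apply, smul_eq_mul, RingHom.id_apply, ← mul_sum]
    ring

def io : YT n →ₗ[ℝ] XT n where
  toFun b u v := b u + b v
  map_add' a b := by
    funext u v
    simp only [Pi.add_apply]
    ring
  map_smul' c a := by
    funext u v
    simp only [Pi.smul_apply, smul_eq_mul, RingHom.id_apply]
    ring

def avg : YT n →ₗ[ℝ] YT n where
  toFun b _ := (n : ℝ)⁻¹ * ∑ w, b w
  map_add' a b := by
    funext u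
    simp only [Pi.add_apply, sum_add_distrib, mul_add]
  map_smul' c a := by
    funext u
    simp only [Pi.smul_apply, smul_eq_mul, RingHom.id_apply, ← mul_sum]
    ring

def AL (E : St n) (y : ℝ) : XT n →ₗ[ℝ] XT n where
  toFun a := AA E y a
  map_add' a b := by
    funext u v
    simp only [AA, Pi.add_apply, sum_add_distrib]
    ring
  map_smul' c a := by
    funext u v
    simp only [AA, Pi.smul_apply, smul_eq_mul, RingHom.id_apply, sum_add_distrib, ← mul_sum]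
    ring

def EL (E : St n) (d y : ℝ) : XT n →ₗ[ℝ] XT n := AL E y - io.comp (mm E d)

def FL (E : St n) (d : ℝ) : YT n →ₗ[ℝ] YT n := (mm E d).comp io - LinearMap.id - avg

theorem EL_apply (E : St n) (d y : ℝ) (a : XT n) (u v : Fin n) : EL E d y a u v =
    (y⁻¹ * ∑ w ∈ cn E u v, a u w - d⁻¹ * ∑ w ∈ nb E u, a u w) +
      (y⁻¹ * ∑ w ∈ cn E v u, a v w - d⁻¹ * ∑ w ∈ nb E v, a v w) := by
  have : cn E v u = cn E u v := inter_comm _ _
  show AA E y a u v - (d⁻¹ * ∑ w ∈ nb E u, a u w + d⁻¹ * ∑ w ∈ nb E v, a v w) = _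
  rw [this, AA, sum_add_distrib]
  ring

theorem FL_apply (E : St n) (d : ℝ) (b : YT n) (u : Fin n) : FL E d b u =
    (d⁻¹ * deg E u - 1) * b u + (d⁻¹ * ∑ w ∈ nb E u, b w - (n : ℝ)⁻¹ * ∑ w, b w) := by
  show d⁻¹ * ∑ w ∈ nb E u, (b u + b w) - b u - (n : ℝ)⁻¹ * ∑ w, b w = _
  rw [sum_add_distrib, sum_const, nsmul_eq_mul, deg]
  ring

theorem abs_av {s : Finset (Fin n)} {f : Fin n → ℝ} {c k N : ℝ} (hc : 0 < c) (hN : 0 ≤ N)
    (hs : (s.card : ℝ) ≤ k * c) (h : ∀ w ∈ s, |f w| ≤ N) : |c⁻¹ * ∑ w ∈ s, f w| ≤ k * N := by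
  rw [abs_mul, abs_of_pos (inv_pos.2 hc), inv_mul_le_iff₀ hc]
  refine (abs_sum_le_sum_abs _ _).trans ((sum_le_card_nsmul _ _ _ h).trans ?_)
  rw [nsmul_eq_mul]
  nlinarith [mul_le_mul_of_nonneg_right hs hN]

theorem abs_avg (b : YT n) (u : Fin n) : |(n : ℝ)⁻¹ * ∑ w, b w| ≤ nv b := by
  have hn : (0 : ℝ) < n := by exact_mod_cast Fin.pos u
  have := abs_av (s := univ) (f := b) (k := 1) hn (apply_nonneg nv b) (by simp)
    fun w _ => le_nv b w
  rwa [one_mul] at this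

variable {G : ℕ → St n} {d y : ℕ → ℝ} {j : ℕ} {lam : ℝ}

theorem deg_le (hd : ∀ i ≤ j, 1 ≤ d i ∧ d i ≤ n) (hlam : 0 ≤ lam ∧ lam ≤ 1)
    (reg : ∀ i < j, Reg (G i) (d i) (y i) lam) (degj : ∀ u, deg (G j) u ≤ 2 * d j) :
    ∀ i ≤ j, ∀ u, deg (G i) u ≤ 2 * d i := by
  intro i hi u
  rcases hi.eq_or_lt with rfl | hi'
  · exact degj u
  · have := (abs_le.1 ((reg i hi').deg u)).2
    have := mul_le_of_le_one_left (show 0 ≤ d i by linarith [(hd i hi).1]) hlam.2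
    linarith

theorem nb_sup (mono : ∀ i < j, G (i + 1) ⊆ G i)
    (hd : ∀ i ≤ j, 1 ≤ d i ∧ d i ≤ n) (hy : ∀ i < j, 0 < y i) (hlam : 0 ≤ lam ∧ lam ≤ 1)
    (reg : ∀ i < j, Reg (G i) (d i) (y i) lam) (degj : ∀ u, deg (G j) u ≤ 2 * d j) :
    NB (fun i => EL (G i) (d i) (y i)) (fun i => mm (G i) (d i)) (fun i => FL (G i) (d i)) avg io
      j 8 (fun i => ne (G i)) (fun _ => nv) := by
  have hdeg := deg_le hd hlam reg degj
  have dp : ∀ i ≤ j, 0 < d i := fun i hi => by linarith [(hd i hi).1]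
  have hm : ∀ i < j, ∀ (a : XT n) u, |(d i)⁻¹ * ∑ w ∈ nb (G i) u, a u w| ≤ 2 * ne (G i) a :=
    fun i hi a u => abs_av (dp i hi.le) (apply_nonneg _ _) (hdeg i hi.le u)
      fun w hw => le_ne a (mem_nb.1 hw)
  refine ⟨by norm_num, fun i hi a => ?_, fun _ _ _ => le_rfl, fun i hi a => ?_, fun i hi a => ?_,
    fun i hi b => ?_, fun i hi b => ?_, fun i hi b => ?_⟩
  · exact ne_le (apply_nonneg _ _) fun u v h => le_ne a (mono i hi h)
  · refine ne_le (by positivity) fun u v h => ?_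
    have h1 : |(y i)⁻¹ * ∑ w ∈ cn (G i) u v, a u w| ≤ 2 * ne (G i) a :=
      abs_av (hy i hi) (apply_nonneg _ _) ((reg i hi).cod u v h)
        fun w hw => le_ne a (mem_cn.1 hw).1
    have h2 : |(y i)⁻¹ * ∑ w ∈ cn (G i) v u, a v w| ≤ 2 * ne (G i) a :=
      abs_av (hy i hi) (apply_nonneg _ _) ((reg i hi).cod v u (Sym2.eq_swap ▸ h))
        fun w hw => le_ne a (mem_cn.1 hw).1
    have h3 := hm i hi a u
    have h4 := hm i hi a v
    rw [EL_apply]
    rw [abs_le] at h1 h2 h3 h4 ⊢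
    constructor <;> linarith [h1.1, h1.2, h2.1, h2.2, h3.1, h3.2, h4.1, h4.2]
  · refine nv_le (by positivity) fun u => (hm i hi a u).trans ?_
    linarith [apply_nonneg (ne (G i)) a]
  · refine nv_le (by positivity) fun u => ?_
    have h1 : |(d i)⁻¹ * ∑ w ∈ nb (G i) u, io b u w| ≤ 2 * (2 * nv b) :=
      abs_av (dp i hi.le) (by positivity) (hdeg i hi.le u) fun w _ =>
        (abs_add_le _ _).trans (by linarith [le_nv b u, le_nv b w])
    have h2 := le_nv b u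
    have h3 := abs_avg b u
    show |(d i)⁻¹ * ∑ w ∈ nb (G i) u, io b u w - b u - (n : ℝ)⁻¹ * ∑ w, b w| ≤ _
    have := apply_nonneg (nv (n := n)) b
    rw [abs_le] at h1 h2 h3 ⊢
    constructor <;> linarith [h1.1, h1.2, h2.1, h2.2, h3.1, h3.2]
  · exact nv_le (apply_nonneg _ _) fun u => abs_avg b u
  · refine ne_le (by positivity) fun u v _ => (abs_add_le _ _).trans ?_
    linarith [le_nv b u, le_nv b v, apply_nonneg (nv (n := n)) b]

theorem nb_two (mono : ∀ i < j, G (i + 1) ⊆ G i) (dmono : ∀ i < j, d (i + 1) ≤ d i)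
    (hd : ∀ i ≤ j, 1 ≤ d i ∧ d i ≤ n) (hlam : 0 ≤ lam ∧ lam ≤ 1)
    (reg : ∀ i < j, Reg (G i) (d i) (y i) lam) (degj : ∀ u, deg (G j) u ≤ 2 * d j) :
    NB (fun i => EL (G i) (d i) (y i)) (fun i => mm (G i) (d i)) (fun i => FL (G i) (d i)) avg io
      j (2 * lam) (fun i => ne2 (G i)) (fun i => nv2 (d i)) := by
  have hdeg := deg_le hd hlam reg degj
  have dp : ∀ i ≤ j, 0 < d i := fun i hi => by linarith [(hd i hi).1]
  have l0 := hlam.1
  refine ⟨by linarith, fun i hi a => ?_, fun i hi b => ?_, fun i hi a => ?_, fun i hi a => ?_,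
    fun i hi b => ?_, fun i hi b => ?_, fun i hi b => ?_⟩
  · rw [ne2_eq, ne2_eq]
    refine Real.sqrt_le_sqrt (sum_le_sum fun u _ => sum_le_sum_of_subset_of_nonneg ?_
      fun _ _ _ => sq_nonneg _)
    exact fun w hw => mem_nb.2 (mono i hi (mem_nb.1 hw))
  · rw [nv2_eq (dp i hi.le).le, nv2_eq (dp (i + 1) hi).le]
    exact Real.sqrt_le_sqrt (mul_le_mul_of_nonneg_right (dmono i hi)
      (sum_nonneg fun _ _ => sq_nonneg _))
  · rw [ne2_eq, ne2_eq]
    refine sqrt_le (by linarith) ?_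
    let r : XT n := fun u v =>
      (y i)⁻¹ * ∑ w ∈ cn (G i) u v, a u w - (d i)⁻¹ * ∑ w ∈ nb (G i) u, a u w
    have h1 : ∑ u, ∑ v ∈ nb (G i) u, r u v ^ 2 ≤ lam ^ 2 * ∑ u, ∑ v ∈ nb (G i) u, a u v ^ 2 := by
      rw [mul_sum]
      exact sum_le_sum fun u _ => (reg i hi).link u (a u)
    have h2 := sum_symm (G i) fun u v => r u v ^ 2
    have h3 : ∑ u, ∑ v ∈ nb (G i) u, EL (G i) (d i) (y i) a u v ^ 2 ≤
        ∑ u, ∑ v ∈ nb (G i) u, (2 * r u v ^ 2 + 2 * r v u ^ 2) := by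
      refine sum_le_sum fun u _ => sum_le_sum fun v _ => ?_
      rw [EL_apply]
      show (r u v + r v u) ^ 2 ≤ _
      nlinarith [sq_nonneg (r u v - r v u)]
    simp only [sum_add_distrib, ← mul_sum] at h3
    rw [h2] at h3
    nlinarith
  · rw [ne2_eq, nv2_eq (dp i hi.le).le]
    refine sqrt_le (by norm_num) ?_
    rw [mul_sum, mul_sum]
    refine sum_le_sum fun u _ => ?_
    show d i * ((d i)⁻¹ * ∑ w ∈ nb (G i) u, a u w) ^ 2 ≤ _
    have h1 := sq_sum_le_card_mul_sum_sq (s := nb (G i) u) (f := a u)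
    have h2 : ((nb (G i) u).card : ℝ) ≤ 2 * d i := hdeg i hi.le u
    have h3 : 0 ≤ ∑ w ∈ nb (G i) u, a u w ^ 2 := sum_nonneg fun _ _ => sq_nonneg _
    have h4 := dp i hi.le
    have e : d i * ((d i)⁻¹ * ∑ w ∈ nb (G i) u, a u w) ^ 2 =
        (∑ w ∈ nb (G i) u, a u w) ^ 2 / d i := by field_simp
    rw [e, div_le_iff₀ h4]
    nlinarith [mul_le_mul_of_nonneg_right h2 h3, mul_nonneg h3 h4.le]
  · rw [nv2_eq (dp i hi.le).le, nv2_eq (dp i hi.le).le]
    refine sqrt_le (by linarith) ?_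
    rw [mul_left_comm]
    refine mul_le_mul_of_nonneg_left ?_ (dp i hi.le).le
    have h1 := (reg i hi).glob b
    have h3 : ∑ u, FL (G i) (d i) b u ^ 2 ≤ ∑ u, (2 * (lam ^ 2 * b u ^ 2) +
        2 * ((d i)⁻¹ * ∑ w ∈ nb (G i) u, b w - (n : ℝ)⁻¹ * ∑ w, b w) ^ 2) := by
      refine sum_le_sum fun u _ => ?_
      rw [FL_apply]
      have h4 := dp i hi.le
      have h5 : |(d i)⁻¹ * deg (G i) u - 1| ≤ lam := by
        have e : (d i)⁻¹ * deg (G i) u - 1 = (deg (G i) u - d i) / d i := by field_simp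
        rw [e, abs_div, abs_of_pos h4, div_le_iff₀ h4]
        exact (reg i hi).deg u
      have h6 : ((d i)⁻¹ * deg (G i) u - 1) ^ 2 ≤ lam ^ 2 := sq_le_sq' (abs_le.1 h5).1 (abs_le.1 h5).2
      have h7 := mul_le_mul_of_nonneg_right h6 (sq_nonneg (b u))
      generalize (d i)⁻¹ * ∑ w ∈ nb (G i) u, b w - (n : ℝ)⁻¹ * ∑ w, b w = t
      generalize (d i)⁻¹ * deg (G i) u - 1 = c at h7
      nlinarith [sq_nonneg (c * b u - t)]
    simp only [sum_add_distrib, ← mul_sum] at h3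
    nlinarith
  · rw [nv2_eq (dp i hi.le).le, nv2_eq (dp i hi.le).le]
    refine Real.sqrt_le_sqrt (mul_le_mul_of_nonneg_left ?_ (dp i hi.le).le)
    show ∑ _u : Fin n, ((n : ℝ)⁻¹ * ∑ w, b w) ^ 2 ≤ _
    have hn : (0 : ℝ) < n := by linarith [(hd i hi.le).1, (hd i hi.le).2]
    have h1 := sq_sum_le_card_mul_sum_sq (s := univ) (f := b)
    rw [card_univ, Fintype.card_fin] at h1
    rw [sum_const, card_univ, Fintype.card_fin, nsmul_eq_mul]
    have e : (n : ℝ) * ((n : ℝ)⁻¹ * ∑ w, b w) ^ 2 = (∑ w, b w) ^ 2 / n := by field_simp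
    rw [e, div_le_iff₀ hn, mul_comm]
    exact h1
  · rw [ne2_eq, nv2_eq (dp i hi).le]
    refine sqrt_le (by norm_num) ?_
    have h2 := sum_symm (G i) fun u _ => b u ^ 2
    have h3 : ∑ u, ∑ v ∈ nb (G i) u, io b u v ^ 2 ≤
        ∑ u, ∑ v ∈ nb (G i) u, (2 * b u ^ 2 + 2 * b v ^ 2) := by
      refine sum_le_sum fun u _ => sum_le_sum fun v _ => ?_
      show (b u + b v) ^ 2 ≤ _
      nlinarith [sq_nonneg (b u - b v)]
    simp only [sum_add_distrib, ← mul_sum] at h3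
    rw [h2] at h3
    have h4 : ∑ u, ∑ _v ∈ nb (G i) u, b u ^ 2 ≤ 2 * d i * ∑ u, b u ^ 2 := by
      rw [mul_sum]
      refine sum_le_sum fun u _ => ?_
      rw [sum_const, nsmul_eq_mul]
      exact mul_le_mul_of_nonneg_right (hdeg i hi u) (sq_nonneg _)
    have h5 : 0 ≤ d i * ∑ u, b u ^ 2 := mul_nonneg (dp i hi).le (sum_nonneg fun _ _ => sq_nonneg _)
    nlinarith

theorem ce (E : St n) (a : XT n) : ne E a ≤ ne2 E a ∧ ne2 E a ≤ n * ne E a := by
  constructor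
  · refine ne_le (apply_nonneg _ _) fun u v h => ?_
    rw [ne2_eq]
    refine Real.abs_le_sqrt ?_
    refine le_trans ?_ (single_le_sum (f := fun u => ∑ v ∈ nb E u, a u v ^ 2)
      (fun _ _ => sum_nonneg fun _ _ => sq_nonneg _) (mem_univ u))
    exact single_le_sum (f := fun v => a u v ^ 2) (fun _ _ => sq_nonneg _) (mem_nb.2 h)
  · rw [ne2_eq]
    refine Real.sqrt_le_iff.2 ⟨by positivity, ?_⟩
    have : ∀ u, ∑ v ∈ nb E u, a u v ^ 2 ≤ n * ne E a ^ 2 := by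
      intro u
      refine (sum_le_card_nsmul _ _ (ne E a ^ 2) fun v hv => ?_).trans ?_
      · have := abs_le.1 (le_ne a (mem_nb.1 hv))
        exact sq_le_sq' this.1 this.2
      · rw [nsmul_eq_mul]
        refine mul_le_mul_of_nonneg_right ?_ (sq_nonneg _)
        have := card_le_univ (nb E u)
        rw [Fintype.card_fin] at this
        exact_mod_cast this
    refine (sum_le_sum fun u _ => this u).trans (le_of_eq ?_)
    rw [sum_const, card_univ, Fintype.card_fin, nsmul_eq_mul]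
    ring

theorem cv {c : ℝ} (h0 : 0 ≤ c) (h1 : c ≤ n) (b : YT n) : nv2 c b ≤ n * nv b := by
  rw [nv2_eq h0]
  refine Real.sqrt_le_iff.2 ⟨by positivity, ?_⟩
  have : ∑ u, b u ^ 2 ≤ n * nv b ^ 2 := by
    refine (sum_le_card_nsmul _ _ (nv b ^ 2) fun v _ => ?_).trans ?_
    · have := abs_le.1 (le_nv b v)
      exact sq_le_sq' this.1 this.2
    · rw [nsmul_eq_mul, card_univ, Fintype.card_fin]
  calc c * ∑ u, b u ^ 2 ≤ n * (n * nv b ^ 2) :=
        mul_le_mul h1 this (sum_nonneg fun _ _ => sq_nonneg _) (Nat.cast_nonneg _)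
    _ = _ := by ring

end

end StabB

open StabB in
theorem stab {n : ℕ} (G : ℕ → St n) (d y τ : ℕ → ℝ) (a : ℕ → Fin n → Fin n → ℝ) (j k0 : ℕ)
    {L lam η : ℝ} (mono : ∀ i < j, G (i + 1) ⊆ G i) (dmono : ∀ i < j, d (i + 1) ≤ d i)
    (hd : ∀ i ≤ j, 1 ≤ d i ∧ d i ≤ n) (hy : ∀ i < j, 0 < y i) (hlam : 0 ≤ lam ∧ lam ≤ 1)
    (reg : ∀ i < j, Reg (G i) (d i) (y i) lam) (degj : ∀ u, deg (G j) u ≤ 2 * d j)
    (hτ : ∀ i < j, 0 ≤ τ i ∧ τ i ≤ 1) (hL : 1 ≤ L) (hτL : ∑ i ∈ range j, τ i ≤ L)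
    (hη0 : 0 ≤ η) (hη1 : η ≤ 1)
    (hξ : ∀ i ≤ j, ∀ u v, s(u, v) ∈ G i →
      |a i u v + ∑ l ∈ range i, τ l * AA (G l) (y l) (a l) u v| ≤ η)
    (ha : ∀ i < j, ∀ u v, s(u, v) ∈ G i → |a i u v| ≤ 1)
    (small : (13 * L ^ 2 * (2 * lam)) ^ k0 * (n * (20 * L)) ≤ η) :
    ∀ i ≤ j, ∀ u v, s(u, v) ∈ G i → |a i u v| ≤ (200 * L ^ 2) ^ (k0 + 1) * η := by 
  have key := stab_abs (N := n) (nb_sup mono hd hy hlam reg degj)
    (nb_two mono dmono hd hlam reg degj) (fun i _ b => by simp [FL]) (fun i _ a => ce _ a)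
    (fun i hi b => cv (by linarith [(hd i hi).1]) (hd i hi).2 b) (Nat.cast_nonneg n) hτ hL hτL
    (a := a) hη0 hη1 (fun i hi => ne_le hη0 fun u v h => by
      have := hξ i hi u v h
      convert this using 3
      simp only [Pi.add_apply, Finset.sum_apply, Pi.smul_apply, smul_eq_mul, EL, LinearMap.sub_apply,
        LinearMap.comp_apply, sub_add_cancel]
      rfl)
    (fun i hi => ne_le zero_le_one (ha i hi)) k0 small
  exact fun i hi u v h => (le_ne _ h).trans (key i hi)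

theorem stabP (P : Par) (G : ℕ → St P.n) (d y τ : ℕ → ℝ) (a : ℕ → Fin P.n → Fin P.n → ℝ) (j : ℕ)
    {η : ℝ} (mono : ∀ i < j, G (i + 1) ⊆ G i) (dmono : ∀ i < j, d (i + 1) ≤ d i)
    (hd : ∀ i ≤ j, 1 ≤ d i ∧ d i ≤ P.n) (hy : ∀ i < j, 0 < y i)
    (reg : ∀ i < j, Reg (G i) (d i) (y i) P.lam) (degj : ∀ u, deg (G j) u ≤ 2 * d j)
    (hτ : ∀ i < j, 0 ≤ τ i ∧ τ i ≤ 1) (hτL : ∑ i ∈ range j, τ i ≤ P.L)
    (hη0 : (P.z ^ 10)⁻¹ ≤ η) (hη1 : η ≤ 1)
    (hξ : ∀ i ≤ j, ∀ u v, s(u, v) ∈ G i →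
      |a i u v + ∑ l ∈ range i, τ l * AA (G l) (y l) (a l) u v| ≤ η)
    (ha : ∀ i < j, ∀ u v, s(u, v) ∈ G i → |a i u v| ≤ 1) :
    ∀ i ≤ j, ∀ u v, s(u, v) ∈ G i → 3 * P.L * |a i u v| ≤ P.z * η := by 
  have z1 : 1 ≤ P.z := by linarith [P.z_ge]
  have z0 := P.z_pos
  have L1 := P.L_ge
  have η0 : 0 ≤ η := le_trans (by positivity) hη0
  have hLz : (1000 * P.L) ^ 2 ≤ P.z :=
    le_trans (pow_le_pow_right₀ (by linarith) (by norm_num)) P.L_pow
  have q0 : 0 ≤ 13 * P.L ^ 2 * (2 * P.lam) := by rw [Par.lam]; positivity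
  have q1 : 13 * P.L ^ 2 * (2 * P.lam) ≤ P.z⁻¹ := by
    have e : P.z⁻¹ = P.z * P.lam := by rw [Par.lam]; field_simp
    have l0 : 0 ≤ P.lam := by rw [Par.lam]; positivity
    rw [e, ← mul_assoc]
    exact mul_le_mul_of_nonneg_right (by nlinarith) l0
  have small : (13 * P.L ^ 2 * (2 * P.lam)) ^ 12020 * (P.n * (20 * P.L)) ≤ η := by
    refine le_trans ?_ hη0
    have h1 : (P.n : ℝ) * (20 * P.L) ≤ P.z ^ 12010 := by
      calc (P.n : ℝ) * (20 * P.L) ≤ P.z ^ 12000 * P.z :=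
            mul_le_mul P.h1 (by linarith [P.L_le]) (by linarith) (by positivity)
        _ = P.z ^ 12001 := (pow_succ _ _).symm
        _ ≤ _ := pow_le_pow_right₀ z1 (by norm_num)
    calc _ ≤ P.z⁻¹ ^ 12020 * P.z ^ 12010 :=
          mul_le_mul (pow_le_pow_left₀ q0 q1 _) h1 (by positivity) (by positivity)
      _ = (P.z ^ 10)⁻¹ := by
          rw [inv_pow, show 12020 = 10 + 12010 from rfl, pow_add, mul_inv, mul_assoc,
            inv_mul_cancel₀ (pow_pos z0 _).ne', mul_one]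
  have key := stab G d y τ a j 12020 mono dmono hd hy
    ⟨inv_nonneg.2 (sq_nonneg _), inv_le_one_of_one_le₀ (one_le_pow₀ z1)⟩ reg degj hτ L1 hτL η0 hη1
    hξ ha small
  intro i hi u v h
  have h2 : 3 * P.L * (200 * P.L ^ 2) ^ (12020 + 1) ≤ P.z := by
    refine le_trans ?_ P.L_pow
    calc 3 * P.L * (200 * P.L ^ 2) ^ (12020 + 1)
        ≤ (1000 * P.L) * ((1000 * P.L) ^ 2) ^ (12020 + 1) :=
          mul_le_mul (by linarith) (pow_le_pow_left₀ (by positivity) (by nlinarith) _)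
            (by positivity) (by positivity)
      _ = (1000 * P.L) ^ (2 * (12020 + 1) + 1) := by rw [← pow_mul, ← pow_succ']
      _ ≤ _ := pow_le_pow_right₀ (by linarith) (by norm_num)
  calc 3 * P.L * |a i u v| ≤ 3 * P.L * ((200 * P.L ^ 2) ^ (12020 + 1) * η) :=
        mul_le_mul_of_nonneg_left (key i hi u v h) (by linarith)
    _ = 3 * P.L * (200 * P.L ^ 2) ^ (12020 + 1) * η := (mul_assoc _ _ _).symm
    _ ≤ _ := mul_le_mul_of_nonneg_right h2 η0

end Crest.Agent.R30
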