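import Crest.Agent.R30.Drift
import Crest.Agent.R30.Stab
import Crest.Agent.R30.Spec

/-!
# R30 Boot: the bootstrap of phase 1 (task R30-Boot)

PLAN (aux in `namespace BootA`).  Strong induction on `j`; `good_zero`; assume `GoodTo x j`, `j ≥ 1`.
`sub`, `card`: from `Good (j-1)`, `Good.Q_ne`, `card_step`.  Degrees: for `i ≤ j`,
`deg (x i) u / dd i - 1 = Md x i u + ∑_{l<i} (error of drift_deg)`, so it is `≤ η + 10 δ L ≤ δ'`.
Codegrees: for `i ≤ j` and `s(u,v) ∈ x i` (hence in `x l` for `l ≤ i`), telescoping `drift_cod` gives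
`a i = a 0 + Mc x i + ∑_{l<i} τ l (-AA (a l) + 2 ā l + err l)`, `|err| ≤ z⁻¹⁵`.  Let `c 0 = 0`,
`c (l+1) = c l + 2 τ l (ā l - c l)` (so `|c l| ≤ δ` for `l ≤ j`) and `ã l u v = a l u v - c l`.  As
`AA (a l) = AA (ã l) + 2 c l (1 + a l u v)`, we get
`ã i + ∑ τ AA ã = a 0 + Mc + ∑ τ (err - 2 c a)`, of size `≤ 2 η + L (z⁻¹⁵ + 2 δ²) ≤ z⁻¹⁰`.  `stabP`
(`Reg` from `reg_of_good` and `NoFail`) gives `3 L |ã i| ≤ z⁻⁹`; `|c j| ≤ ∑ 2 τ |ā - c| ≤ 2 L sup |ã|`
(`Good.abar_sub_le`), so `|a j| ≤ (1 + 2 L) sup |ã| ≤ z⁻⁹ ≤ δ`.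
-/

set_option autoImplicit false

namespace Crest.Agent.R30

open Finset Crest.CombinatoricsR.TriangleRemoval

namespace BootA

variable {P : Par}

theorem y_pos {i : ℕ} (hi : i ≤ P.m) : 0 < yy P.n i := by
  have := P.z_pos
  exact lt_of_lt_of_le (by unfold Par.D; positivity) (Par.D_le_yy hi)

theorem one_le_d {i : ℕ} (hi : i ≤ P.m) : 1 ≤ dd P.n i := by
  have := P.z_ge
  exact (one_le_pow₀ (by linarith)).trans ((Par.D_le_yy hi).trans (Par.yy_le_dd hi))

/-- `w = z⁻¹` -/
theorem num (P : Par) : ∃ w : ℝ, 0 < w ∧ w ≤ 1 / 1000 ∧ P.L * w ≤ 1 / 1000 ∧ P.z * w = 1 ∧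
    ∀ k : ℕ, (P.z ^ k)⁻¹ = w ^ k := by
  have h := P.z_ge
  have h0 := P.z_pos
  refine ⟨P.z⁻¹, by positivity, ?_, ?_, mul_inv_cancel₀ h0.ne', fun k => (inv_pow _ _).symm⟩
  · rw [one_div]; exact inv_anti₀ (by norm_num) h
  · rw [mul_inv_le_iff₀ h0]; linarith [P.L_le]

theorem num_deg (P : Par) : P.η + 10 * P.L * P.δ ≤ P.δ' ∧ P.δ' ≤ 1 := by
  obtain ⟨w, h0, h1, h2, -, h⟩ := num P
  unfold Par.η Par.δ Par.δ'
  rw [h, h, h]
  have h7 : 0 < w ^ 7 := by positivity
  have h4 : w ^ 4 ≤ 1 / 2 := (pow_le_of_le_one h0.le (by linarith) (by norm_num)).trans (by linarith)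
  refine ⟨?_, pow_le_one₀ h0.le (by linarith)⟩
  have e1 : w ^ 11 = w ^ 7 * w ^ 4 := by ring
  have e2 : 10 * P.L * w ^ 8 = w ^ 7 * (10 * (P.L * w)) := by ring
  rw [e1, e2]
  nlinarith

theorem num_cod (P : Par) : 2 * P.η + P.L * ((P.z ^ 15)⁻¹ + 2 * P.δ ^ 2) ≤ (P.z ^ 10)⁻¹ ∧
    (P.z ^ 10)⁻¹ ≤ 1 ∧ P.z * (P.z ^ 10)⁻¹ ≤ P.δ ∧ 0 < P.δ ∧ P.δ ≤ 1 / 2 ∧
      (P.z ^ 100)⁻¹ ≤ 1 / 2 := by
  obtain ⟨w, h0, h1, h2, h3, h⟩ := num P
  unfold Par.η Par.δ
  rw [h, h, h, h, h]
  have hw : w ≤ 1 := by linarith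
  have h10 : 0 < w ^ 10 := by positivity
  have h4 : w ^ 4 ≤ 1 := pow_le_one₀ h0.le hw
  have h5 : w ^ 5 ≤ 1 := pow_le_one₀ h0.le hw
  have hp : ∀ k : ℕ, k ≠ 0 → w ^ k ≤ 1 / 2 := fun k hk =>
    (pow_le_of_le_one h0.le hw hk).trans (by linarith)
  refine ⟨?_, pow_le_one₀ h0.le hw, ?_, by positivity, hp _ (by norm_num), hp _ (by norm_num)⟩
  · have e : 2 * w ^ 11 + P.L * (w ^ 15 + 2 * (w ^ 8) ^ 2) =
        w ^ 10 * (2 * w + (P.L * w) * (w ^ 4 + 2 * w ^ 5)) := by ring
    rw [e]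
    refine mul_le_of_le_one_right h10.le ?_
    have : (P.L * w) * (w ^ 4 + 2 * w ^ 5) ≤ 1 / 1000 * 3 :=
      mul_le_mul h2 (by linarith) (by positivity) (by norm_num)
    linarith
  · have e : P.z * w ^ 10 = (P.z * w) * w * w ^ 8 := by ring
    rw [e, h3, one_mul]
    exact mul_le_of_le_one_left (by positivity) hw

theorem deg_bound {x : ℕ → St P.n} (hx : Valid P.m x) (hf : P.NoFail x) {j : ℕ} (hj : j ≤ P.m)
    (hg : P.GoodTo x j) (u : Fin P.n) : |deg (x j) u - dd P.n j| ≤ P.δ' * dd P.n j := by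
  have hn : (3 : ℝ) ≤ P.n := by exact_mod_cast P.n3
  have h0 : deg (x 0) u / dd P.n 0 = 1 := by
    rw [hx.1, deg_all, div_eq_one_iff_eq (by linarith [one_le_d (P := P) (Nat.zero_le _)])]
    unfold dd pp
    field_simp
    ring
  have h1 : deg (x j) u / dd P.n j - 1 = P.Md x j u + ∑ l ∈ range j,
      ((dd P.n (l + 1))⁻¹ * stepAvg (x l) (fun E' => deg E' u) - deg (x l) u / dd P.n l) := by
    rw [← h0, ← sum_range_sub (fun l => deg (x l) u / dd P.n l), Par.Md, ← sum_add_distrib]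
    exact sum_congr rfl fun l _ => by ring
  have h2 : |∑ l ∈ range j,
      ((dd P.n (l + 1))⁻¹ * stepAvg (x l) (fun E' => deg E' u) - deg (x l) u / dd P.n l)| ≤
      10 * P.L * P.δ := by
    refine (abs_sum_le_sum_abs _ _).trans ((sum_le_sum fun l hl =>
      drift_deg (hg l (mem_range.1 hl)) (by have := mem_range.1 hl; omega) u).trans ?_)
    rw [← sum_mul, ← mul_sum]
    have := Par.sum_tt hj
    have := (num_cod P).2.2.2.1
    gcongr
  have h3 : |deg (x j) u / dd P.n j - 1| ≤ P.δ' := by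
    rw [h1]
    exact (abs_add_le _ _).trans ((add_le_add ((hf j hj hg).2.1 u) h2).trans (num_deg P).1)
  have hd : 0 < dd P.n j := by linarith [one_le_d hj]
  have e : deg (x j) u - dd P.n j = (deg (x j) u / dd P.n j - 1) * dd P.n j := by field_simp
  rw [e, abs_mul, abs_of_pos hd]
  exact mul_le_mul_of_nonneg_right h3 hd.le

/-- the centre -/
noncomputable def cc (P : Par) (x : ℕ → St P.n) : ℕ → ℝ
  | 0 => 0
  | l + 1 => cc P x l + 2 * tt P.n l * (P.abar l (x l) - cc P x l)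

theorem cc_le {x : ℕ → St P.n} {j : ℕ} (hj : j ≤ P.m) (hg : P.GoodTo x j) :
    ∀ l ≤ j, |cc P x l| ≤ P.δ := by
  obtain ⟨-, -, -, k1, k2, k3⟩ := num_cod P
  intro l
  induction l with
  | zero => intro _; simpa [cc] using k1.le
  | succ l ih =>
    intro hl
    have h1 := abs_le.1 (ih (by omega))
    have h2 := abs_le.1 ((hg l (by omega)).abar_le (by omega))
    have h3 := Par.tt_pos (P := P) (i := l) (by omega)
    have h4 := (Par.tt_le (P := P) (i := l) (by omega)).trans k3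
    rw [cc, abs_le]
    constructor <;> nlinarith

theorem AA_shift {l : ℕ} (hl : l ≤ P.m) (E : St P.n) (c : ℝ) (u v : Fin P.n) :
    AA E (yy P.n l) (fun u v => P.aa l E u v - c) u v =
      AA E (yy P.n l) (P.aa l E) u v - 2 * c * (1 + P.aa l E u v) := by
  have hy := (y_pos hl).ne'
  have e : ∑ w ∈ cn E u v, (P.aa l E u w - c + (P.aa l E v w - c)) =
      ∑ w ∈ cn E u v, (P.aa l E u w + P.aa l E v w) - cod E u v * (2 * c) := by
    rw [cod, ← nsmul_eq_mul, ← sum_const, ← sum_sub_distrib]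
    exact sum_congr rfl fun w _ => by ring
  have e2 : 1 + P.aa l E u v = (yy P.n l)⁻¹ * cod E u v := by unfold Par.aa; ring
  unfold AA
  rw [e, e2]
  ring

theorem cod_bound {x : ℕ → St P.n} (hx : Valid P.m x) (hf : P.NoFail x) {j : ℕ} (hj : j ≤ P.m)
    (hg : P.GoodTo x j) {u v : Fin P.n} (huv : s(u, v) ∈ x j) : |P.aa j (x j) u v| ≤ P.δ := by
  obtain ⟨n1, n2, n3, k1, k2, k3⟩ := num_cod P
  have hc := cc_le hj hg
  have hL := P.L_ge
  have hgi : ∀ i ≤ j, P.GoodTo x i := fun i hi l hl => hg l (by omega)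
  have key := stabP P x (dd P.n) (yy P.n) (tt P.n) (fun l u v => P.aa l (x l) u v - cc P x l) j
    (η := (P.z ^ 10)⁻¹) (fun i hi => (hx.2 i (by omega)).subset) (fun i _ => Par.dd_succ_le i)
    (fun i hi => ⟨one_le_d (by omega), Par.dd_le i⟩) (fun i hi => y_pos (by omega))
    (fun i hi => reg_of_good P (by omega) (hg i hi) (hf i (by omega) (hgi i hi.le)).2.2)
    (fun u => by
      have h1 := (abs_le.1 (deg_bound hx hf hj hg u)).2
      have h2 := (num_deg P).2
      have h3 := one_le_d hj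
      nlinarith)
    (fun i hi => ⟨(Par.tt_pos (by omega)).le,
      ((Par.tt_le (by omega)).trans k3).trans (by norm_num)⟩)
    (Par.sum_tt hj) le_rfl n2
    (fun i hi u v huv => by
      let err : ℕ → ℝ := fun l => (yy P.n (l + 1))⁻¹ * stepAvg (x l) (fun E' => cod E' u v) - 1 -
        (P.aa l (x l) u v - tt P.n l * (AA (x l) (yy P.n l) (P.aa l (x l)) u v - 2 * P.abar l (x l)))
      have e : P.aa i (x i) u v - cc P x i + ∑ l ∈ range i, tt P.n l *
          AA (x l) (yy P.n l) (fun u v => P.aa l (x l) u v - cc P x l) u v =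
          P.aa 0 (x 0) u v + P.Mc x i u v +
            ∑ l ∈ range i, (err l - 2 * tt P.n l * (cc P x l * P.aa l (x l) u v)) := by
        have e0 : P.aa i (x i) u v - cc P x i = P.aa 0 (x 0) u v + ∑ l ∈ range i,
            ((P.aa (l + 1) (x (l + 1)) u v - cc P x (l + 1)) - (P.aa l (x l) u v - cc P x l)) := by
          rw [sum_range_sub (fun l => P.aa l (x l) u v - cc P x l)]
          simp [cc]
        rw [e0, Par.Mc, add_assoc, add_assoc, ← sum_add_distrib, ← sum_add_distrib]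
        congr 1
        refine sum_congr rfl fun l hl => ?_
        rw [AA_shift (by have := mem_range.1 hl; omega), cc]
        have : P.aa (l + 1) (x (l + 1)) u v = (yy P.n (l + 1))⁻¹ * cod (x (l + 1)) u v - 1 := by
          unfold Par.aa; ring
        rw [this]
        simp only [err]
        ring
      have h0 : |P.aa 0 (x 0) u v| ≤ P.η := by
        have h := hx.anti (Nat.zero_le i) (by omega) huv
        rw [hx.1] at h ⊢
        exact Par.aa_zero (ne_of_mem (Subset.refl _) h)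
      have h1 := (hf i (by omega) (hgi i hi)).1 u v huv
      have h2 : |∑ l ∈ range i, (err l - 2 * tt P.n l * (cc P x l * P.aa l (x l) u v))| ≤
          P.L * ((P.z ^ 15)⁻¹ + 2 * P.δ ^ 2) := by
        refine (abs_sum_le_sum_abs _ _).trans ((sum_le_sum (g := fun l =>
          tt P.n l * ((P.z ^ 15)⁻¹ + 2 * P.δ ^ 2)) fun l hl => ?_).trans ?_)
        · have hl' := mem_range.1 hl
          have hm : s(u, v) ∈ x l := hx.anti hl'.le (by omega) huv
          have a1 := drift_cod (hg l (by omega)) (by omega) hm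
          have a2 := (hg l (by omega)).aa_le (by omega) hm
          have a3 := hc l (by omega)
          have a4 := Par.tt_pos (P := P) (i := l) (by omega)
          have a5 : |cc P x l * P.aa l (x l) u v| ≤ P.δ ^ 2 := by
            rw [abs_mul, sq]; exact mul_le_mul a3 a2 (abs_nonneg _) k1.le
          refine (abs_sub _ _).trans ?_
          rw [abs_mul, abs_of_pos (by linarith : 0 < 2 * tt P.n l)]
          nlinarith
        · rw [← sum_mul]
          have := P.z_pos
          exact mul_le_mul_of_nonneg_right (Par.sum_tt (by omega)) (by positivity)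
      rw [e]
      refine (abs_add_three _ _ _).trans ?_
      linarith)
    (fun i hi u v huv => by
      have a2 := (hg i hi).aa_le (by omega) huv
      have a3 := hc i hi.le
      refine (abs_sub _ _).trans ?_
      linarith)
  set B := P.δ / (3 * P.L) with hB
  have hB0 : 0 < B := by positivity
  have key' : ∀ i ≤ j, ∀ u v, s(u, v) ∈ x i → |P.aa i (x i) u v - cc P x i| ≤ B := by
    intro i hi u v huv
    rw [hB, le_div_iff₀ (by positivity), mul_comm]
    exact (key i hi u v huv).trans n3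
  have hcj : ∀ i ≤ j, |cc P x i| ≤ 2 * B * ∑ l ∈ range i, tt P.n l := by
    intro i
    induction i with
    | zero => intro _; simp [cc]
    | succ i ih =>
      intro hi
      have a1 := (hg i (by omega)).abar_sub_le (by omega) (key' i (by omega))
      have a4 := Par.tt_pos (P := P) (i := i) (by omega)
      rw [cc, sum_range_succ]
      refine (abs_add_le _ _).trans ?_
      rw [abs_mul, abs_of_pos (by linarith : 0 < 2 * tt P.n i)]
      nlinarith [ih (by omega)]
  have h1 := key' j le_rfl u v huv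
  have h2 := hcj j le_rfl
  have h3 := mul_le_mul_of_nonneg_left (Par.sum_tt hj) hB0.le
  have h4 : B * P.L = P.δ / 3 := by rw [hB]; field_simp
  have h5 : B ≤ B * P.L := le_mul_of_one_le_right hB0.le hL
  have h6 := abs_add_le (P.aa j (x j) u v - cc P x j) (cc P x j)
  rw [sub_add_cancel] at h6
  linarith

end BootA
open BootA

theorem boot (P : Par) {x : ℕ → St P.n} (hx : Valid P.m x) (hf : P.NoFail x) :
    ∀ j ≤ P.m, P.Good j (x j) := by
  intro j
  induction j using Nat.strong_induction_on with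
  | _ j ih =>
  intro hj
  have hg : P.GoodTo x j := fun i hi => ih i hi (by omega)
  rcases j with _ | k
  · rw [hx.1]; exact Par.good_zero
  have hk := hg k (by omega)
  have hs := hx.2 k (by omega)
  refine ⟨hs.subset.trans hk.sub, ?_, deg_bound hx hf hj hg, fun u v huv => ?_⟩
  · rcases hs with ⟨h, -⟩ | ⟨t, ht, e⟩
    · exact absurd h (hk.Q_ne (by omega))
    · have h1 : ((x (k + 1)).card : ℝ) + 3 = (x k).card := by
        rw [e]; exact_mod_cast card_step hk.sub ht
      have h2 := hk.card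
      have hn : (3 : ℝ) ≤ P.n := by exact_mod_cast P.n3
      have h3 : (P.n : ℝ) ^ 2 * pp P.n (k + 1) = (P.n : ℝ) ^ 2 * pp P.n k - 6 := by
        unfold pp
        field_simp
        push_cast
        ring
      linarith
  · have h1 := cod_bound hx hf hj hg huv
    have hy := y_pos hj
    have e : cod (x (k + 1)) u v - yy P.n (k + 1) =
        P.aa (k + 1) (x (k + 1)) u v * yy P.n (k + 1) := by
      unfold Par.aa; field_simp
    rw [e, abs_mul, abs_of_pos hy]
    exact mul_le_mul_of_nonneg_right h1 hy.le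

end Crest.Agent.R30
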