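import Crest.Agent.R30.Tree
import Crest.Agent.R30.Stab

/-!
# R30 Cav: analysis of the cavity recursion (task R30-Cav)

PLAN (aux in `namespace CavA`).  `H = triangles G`, `R j = RR (chH H edT) M j`, `D = P.D = yy n m`.
`h 0 = 0`, `h (j+1) = h j + τ j`, `τ j = (D / M) exp (-2 h j)`.  With `x j = exp (2 h j)`:
`x j + 2D/M ≤ x (j+1) ≤ x j + 2D/M + (2D/M)²` (`exp t ≤ 1 + t + t²`), `M ≥ n ≥ D²`, so
`2 D ≤ x M ≤ 2 D + 5 ≤ 3 D`, `h M ≤ L`.  Let `Pg j g = ∏_{T ∈ H, g ∈ edT T} (1 - R j (g, T))`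
(`= ∏_{c ∈ rootS {g}}`), `a j u v = -log (Pg j s(u,v)) - h j`, `ϱ = 4 L / D`.  Induction on `j ≤ M`:
`|a i u v| ≤ z⁻⁶` on edges and `R i c ≤ 4 h i / D` for `i ≤ j`, `c ∈ Inc`.  For `T = {u, v, w}`, `c = (s(u,v), T)`:
`r := ∏_{c' ∈ chH c} (1 - R i c') = Pg s(u,w) Pg s(v,w) / ((1 - R (s(u,w), T)) (1 - R (s(v,w), T)))
 = exp (-2 h - a u w - a v w) (1 + O(ϱ)) ≤ 4 exp (-2h)`, `R (i+1) c = R i c + r / M`, and (`sum_tri`)
`a (i+1) u v - a i u v = ∑_{w ∈ cn u v} -log (1 - (r/M) / (1 - R)) - τ = τ (-AA a + (cod / D - 1) + O(z⁻¹²))`.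
So the hypothesis `hξ` of `stabP` (constant `G`, `d = dd n m`, `y = D`) holds with `η = z⁻⁷`, whence
`|a j u v| ≤ z⁻⁶`.  Conclusion: `Pg M = exp (-h M - a)`, `ρ j = 5 exp (-2 h j)`,
`(θ M)⁻¹ ∑ ρ = 80 h M`, `exp (80 h M) = (x M) ^ 40`.  Isolate the real-number estimates as lemmas.
-/

set_option autoImplicit false

namespace Crest.Agent.R30

open Finset Crest.CombinatoricsR.TriangleRemoval

namespace CavA

/-- the reference trajectory -/
noncomputable def hh (b : ℝ) : ℕ → ℝ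
  | 0 => 0
  | j + 1 => hh b j + b * Real.exp (-2 * hh b j)

theorem hh_eq (b : ℝ) (j : ℕ) : hh b j = ∑ i ∈ range j, b * Real.exp (-2 * hh b i) := by
  induction j with
  | zero => rfl
  | succ j ih => rw [sum_range_succ, ← ih]; rfl

theorem hh_nonneg {b : ℝ} (hb : 0 ≤ b) (j : ℕ) : 0 ≤ hh b j := by
  rw [hh_eq]
  exact sum_nonneg fun i _ => by positivity

theorem hh_mono {b : ℝ} (hb : 0 ≤ b) {i j : ℕ} (h : i ≤ j) : hh b i ≤ hh b j := by
  rw [hh_eq, hh_eq b j]
  exact sum_le_sum_of_subset_of_nonneg (range_mono h) fun i _ _ => by positivity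

theorem hh_exp {b : ℝ} (hb : 0 ≤ b) (hb1 : 2 * b ≤ 1) (j : ℕ) :
    1 + j * (2 * b) ≤ Real.exp (2 * hh b j) ∧
      Real.exp (2 * hh b j) ≤ 1 + j * (2 * b + (2 * b) ^ 2) := by
  induction j with
  | zero => simp [hh]
  | succ j ih =>
    set x := Real.exp (2 * hh b j) with hx
    have hx1 : 1 ≤ x := Real.one_le_exp (by have := hh_nonneg hb j; linarith)
    have hx0 : 0 < x := by linarith
    have e1 : Real.exp (-2 * hh b j) = x⁻¹ := by
      rw [hx, ← Real.exp_neg]; congr 1; ring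
    have e2 : Real.exp (2 * hh b (j + 1)) = x * Real.exp (2 * b * x⁻¹) := by
      rw [hh, e1, hx, ← Real.exp_add]; congr 1; ring
    have hi0 : 0 ≤ x⁻¹ := by positivity
    have hi1 : x⁻¹ ≤ 1 := inv_le_one_of_one_le₀ hx1
    have ht0 : 0 ≤ 2 * b * x⁻¹ := by positivity
    have ht1 : 2 * b * x⁻¹ ≤ 2 * b := mul_le_of_le_one_right (by linarith) hi1
    have h1 := Real.add_one_le_exp (2 * b * x⁻¹)
    have h2 := (abs_le.1 (Real.abs_exp_sub_one_sub_id_le
      (x := 2 * b * x⁻¹) (by rw [abs_of_nonneg ht0]; linarith))).2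
    have e3 : x * (2 * b * x⁻¹) = 2 * b := by field_simp
    have e4 : x * (2 * b * x⁻¹) ^ 2 ≤ (2 * b) ^ 2 := by
      rw [sq, ← mul_assoc, e3, sq]
      exact mul_le_mul_of_nonneg_left ht1 (by linarith)
    rw [e2]
    push_cast
    constructor
    · nlinarith [mul_le_mul_of_nonneg_left h1 hx0.le, ih.1]
    · nlinarith [mul_le_mul_of_nonneg_left h2 hx0.le, ih.2]

theorem inv_le {R ε : ℝ} (h0 : 0 ≤ R) (h1 : R ≤ ε) (hε : ε ≤ 1 / 100) :
    1 ≤ (1 - R)⁻¹ ∧ (1 - R)⁻¹ ≤ 1 + 11 / 10 * ε := by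
  have hp : 0 < 1 - R := by linarith
  constructor
  · exact one_le_inv₀ hp |>.2 (by linarith)
  · rw [inv_le_iff_one_le_mul₀ hp]
    nlinarith

set_option maxHeartbeats 1000000 in
/-- the real number estimate behind one step of the cavity recursion -/
theorem real_step {E m s R0 R1 R2 ε : ℝ} (hE0 : 0 < E) (hE1 : E ≤ 1) (hm0 : 0 ≤ m)
    (hm : m ≤ ε ^ 2) (hε0 : 0 ≤ ε) (hε : ε ≤ 1 / 100) (hs : |s| ≤ 2 * ε) (h0 : 0 ≤ R0 ∧ R0 ≤ ε ^ 2)
    (h1 : 0 ≤ R1 ∧ R1 ≤ ε ^ 2) (h2 : 0 ≤ R2 ∧ R2 ≤ ε ^ 2) {r : ℝ}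
    (hr : r = E * Real.exp (-s) * (1 - R1)⁻¹ * (1 - R2)⁻¹) :
    r ≤ 2 * E ∧ |Real.log (1 - R0) - Real.log (1 - (R0 + m * r)) - m * E * (1 - s)| ≤
      20 * ε ^ 2 * (m * E) := by
  have hε2 : ε ^ 2 ≤ 1 / 10000 := by nlinarith
  have hε2' : 0 ≤ ε ^ 2 := by positivity
  obtain ⟨a0, b0⟩ := inv_le h0.1 h0.2 (by linarith)
  obtain ⟨a1, b1⟩ := inv_le h1.1 h1.2 (by linarith)
  obtain ⟨a2, b2⟩ := inv_le h2.1 h2.2 (by linarith)
  have hs1 := abs_le.1 hs
  have he := abs_le.1 (Real.abs_exp_sub_one_sub_id_le (x := -s) (by rw [abs_neg]; linarith))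
  have hs2 : (-s) ^ 2 ≤ 4 * ε ^ 2 := by
    rw [neg_sq, ← sq_abs]
    nlinarith [abs_nonneg s]
  have he0 : 0 < Real.exp (-s) := Real.exp_pos _
  have he1 : Real.exp (-s) ≤ 11 / 10 := by linarith [he.2]
  set k2 := (1 - R1)⁻¹ * (1 - R2)⁻¹ with hk2
  have hk21 : 1 ≤ k2 := one_le_mul_of_one_le_of_one_le a1 a2
  have hk22 : k2 ≤ 1 + 23 / 10 * ε ^ 2 := by
    have := mul_le_mul b1 b2 (by linarith) (by linarith)
    nlinarith
  set k := k2 * (1 - R0)⁻¹ with hk
  have hk1 : 1 ≤ k := one_le_mul_of_one_le_of_one_le hk21 a0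
  have hk3 : k ≤ 1 + 4 * ε ^ 2 := by
    have := mul_le_mul hk22 b0 (by linarith) (by linarith)
    nlinarith
  have hr' : r = E * (Real.exp (-s) * k2) := by rw [hr, hk2]; ring
  constructor
  · rw [hr']
    have h3 := mul_le_mul he1 hk22 (by linarith) (by norm_num)
    have h4 : Real.exp (-s) * k2 ≤ 2 := by linarith
    have h5 := mul_le_mul_of_nonneg_left h4 hE0.le
    linarith
  set u := Real.exp (-s) * k with hu
  have hu0 : 0 ≤ u := by positivity
  have hu2 : u ≤ 2 := by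
    have := mul_le_mul he1 hk3 (by linarith) (by norm_num)
    linarith
  have hu1 : |u - (1 - s)| ≤ 12 * ε ^ 2 := by
    have h3 : 0 ≤ Real.exp (-s) * (k - 1) := mul_nonneg he0.le (by linarith)
    have h4 : Real.exp (-s) * (k - 1) ≤ 11 / 10 * (4 * ε ^ 2) :=
      mul_le_mul he1 (by linarith) (by linarith) (by norm_num)
    rw [abs_le]
    constructor <;> linarith [he.1, he.2]
  have hp0 : 0 < 1 - R0 := by linarith [h0.2]
  set x := m * E * u with hx
  have hmE : 0 ≤ m * E := by positivity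
  have hmE1 : m * E ≤ ε ^ 2 := (mul_le_of_le_one_right hm0 hE1).trans hm
  have hx0 : 0 ≤ x := by positivity
  have hx1 : x ≤ 2 * ε ^ 2 := by
    have := mul_le_mul hmE1 hu2 hu0 hε2'
    linarith
  have e1 : 1 - (R0 + m * r) = (1 - R0) * (1 - x) := by
    rw [hx, hu, hk, hr']
    field_simp
    ring
  have hp1 : 0 < 1 - x := by linarith
  rw [e1, Real.log_mul hp0.ne' hp1.ne']
  have l1 : Real.log (1 - x) ≤ -x := by linarith [Real.log_le_sub_one_of_pos hp1]
  have l2 : -x - 2 * x ^ 2 ≤ Real.log (1 - x) := by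
    refine le_trans ?_ (Real.one_sub_inv_le_log_of_pos hp1)
    have : (1 - x)⁻¹ ≤ 1 + x + 2 * x ^ 2 := by
      rw [inv_le_iff_one_le_mul₀ hp1]
      nlinarith [mul_nonneg hx0 hx0]
    linarith
  have l3 : 2 * x ^ 2 ≤ 8 * ε ^ 2 * (m * E) := by
    have h3 : x ≤ m * E * 2 := mul_le_mul_of_nonneg_left hu2 hmE
    have h4 := mul_le_mul hx1 h3 hx0 (by positivity)
    linarith
  have l4 : |x - m * E * (1 - s)| ≤ 12 * ε ^ 2 * (m * E) := by
    rw [hx, ← mul_sub, abs_mul, abs_of_nonneg hmE, mul_comm]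
    exact mul_le_mul_of_nonneg_right hu1 hmE
  have l5 := abs_le.1 l4
  rw [abs_le]
  have l6 := sq_nonneg x
  have l7 : 0 ≤ ε ^ 2 * (m * E) := by positivity
  constructor <;> linarith [l5.1, l5.2]

variable {n : ℕ} {G : St n}

theorem prod_root (f : Sym2 (Fin n) × Finset (Fin n) → ℝ) (g : Sym2 (Fin n)) :
    ∏ c ∈ rootS (triangles G) edT {g}, f c =
      ∏ T ∈ (triangles G).filter (fun T => g ∈ edT T), f (g, T) := by
  rw [prod_finset_product (rootS (triangles G) edT {g}) {g}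
    (fun g => (triangles G).filter fun T => g ∈ edT T), prod_singleton]
  intro c
  simp only [rootS, Inc, mem_filter, mem_univ, true_and, mem_singleton]
  tauto

theorem third {T : Finset (Fin n)} (hT : T.card = 3) {u v : Fin n} (h : s(u, v) ∈ edT T) :
    ∃ w, w ≠ u ∧ w ≠ v ∧ T = {u, v, w} := by
  obtain ⟨hu, hv, huv⟩ := mem_edT.1 h
  have h1 : ((T.erase u).erase v).card = 1 := by
    rw [card_erase_of_mem (mem_erase.2 ⟨huv.symm, hv⟩), card_erase_of_mem hu, hT]
  obtain ⟨w, hw⟩ := card_eq_one.1 h1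
  have hw1 : w ∈ (T.erase u).erase v := hw ▸ mem_singleton_self w
  simp only [mem_erase] at hw1
  refine ⟨w, hw1.2.1, hw1.1, ?_⟩
  ext x
  simp only [mem_insert, mem_singleton]
  constructor
  · intro hx
    by_cases h2 : x = u
    · exact Or.inl h2
    by_cases h3 : x = v
    · exact Or.inr (Or.inl h3)
    have : x ∈ (T.erase u).erase v := mem_erase.2 ⟨h3, mem_erase.2 ⟨h2, hx⟩⟩
    rw [hw] at this
    exact Or.inr (Or.inr (mem_singleton.1 this))
  · rintro (rfl | rfl | rfl)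
    · exact hu
    · exact hv
    · exact hw1.2.2

theorem erase_edT {u v w : Fin n} (huv : u ≠ v) (hu : w ≠ u) (hv : w ≠ v) :
    (edT {u, v, w}).erase s(u, v) = {s(u, w), s(v, w)} := by
  ext g
  induction g using Sym2.ind with
  | _ a b =>
    simp only [mem_erase, mem_edT, mem_insert, mem_singleton, ne_eq, Sym2.eq_iff]
    constructor
    · rintro ⟨h, rfl | rfl | rfl, rfl | rfl | rfl, h'⟩ <;> simp_all
    · rintro ((⟨rfl, rfl⟩ | ⟨rfl, rfl⟩) | (⟨rfl, rfl⟩ | ⟨rfl, rfl⟩)) <;> simp_all [eq_comm]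

theorem prod_ch (f : Sym2 (Fin n) × Finset (Fin n) → ℝ) {u v w : Fin n} (huv : u ≠ v) (hu : w ≠ u)
    (hv : w ≠ v) :
    ∏ c ∈ chH (triangles G) edT (s(u, v), {u, v, w}), f c =
      (∏ T ∈ ((triangles G).filter (fun T => s(u, w) ∈ edT T)).erase {u, v, w}, f (s(u, w), T)) *
      ∏ T ∈ ((triangles G).filter (fun T => s(v, w) ∈ edT T)).erase {u, v, w}, f (s(v, w), T) := by
  rw [prod_finset_product (chH (triangles G) edT (s(u, v), {u, v, w}))
    ((edT {u, v, w}).erase s(u, v))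
    (fun g => ((triangles G).filter fun T => g ∈ edT T).erase {u, v, w}), erase_edT huv hu hv,
    prod_pair]
  · simp only [ne_eq, Sym2.eq_iff]
    rintro (⟨h, -⟩ | ⟨h, -⟩)
    · exact huv h
    · exact hu h.symm
  · intro c
    simp only [chH, Inc, mem_filter, mem_univ, true_and, mem_erase]
    tauto

theorem tri_mem (hG : G ⊆ allEdges n) {u v w : Fin n} (huv : s(u, v) ∈ G) (hw : w ∈ cn G u v) :
    ({u, v, w} : Finset (Fin n)) ∈ triangles G := by
  obtain ⟨h1, h2⟩ := mem_cn.1 hw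
  have n1 := ne_of_mem hG huv
  have n2 := ne_of_mem hG h1
  have n3 := ne_of_mem hG h2
  refine mem_tri.2 ⟨card_eq_three.2 ⟨u, v, w, n1, n2, n3, rfl⟩, fun g hg => ?_⟩
  induction g using Sym2.ind with
  | _ a b =>
    simp only [mem_edT, mem_insert, mem_singleton] at hg
    obtain ⟨rfl | rfl | rfl, rfl | rfl | rfl, h'⟩ := hg <;>
      first | exact absurd rfl h' | assumption | (rw [Sym2.eq_swap]; assumption)

theorem inc_form {c : Sym2 (Fin n) × Finset (Fin n)} (hc : c ∈ Inc (triangles G) edT) :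
    ∃ u v w, s(u, v) ∈ G ∧ w ∈ cn G u v ∧ c = (s(u, v), {u, v, w}) := by
  obtain ⟨g, T⟩ := c
  simp only [Inc, mem_filter, mem_univ, true_and] at hc
  induction g using Sym2.ind with
  | _ u v =>
    obtain ⟨h3, hT⟩ := mem_tri.1 hc.1
    obtain ⟨w, hu, hv, rfl⟩ := third h3 hc.2
    refine ⟨u, v, w, hT hc.2, mem_cn.2 ⟨hT ?_, hT ?_⟩, rfl⟩
    · exact mem_edT.2 ⟨by simp, by simp, hu.symm⟩
    · exact mem_edT.2 ⟨by simp, by simp, hv.symm⟩

/-- survival probability of an edge on the tree -/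
noncomputable def Pg (G : St n) (M j : ℕ) (g : Sym2 (Fin n)) : ℝ :=
  ∏ T ∈ (triangles G).filter (fun T => g ∈ edT T), (1 - RR (chH (triangles G) edT) M j (g, T))

/-- relative error -/
noncomputable def aa (G : St n) (M : ℕ) (b : ℝ) (j : ℕ) (u v : Fin n) : ℝ :=
  -Real.log (Pg G M j s(u, v)) - hh b j

theorem mem_inc {g : Sym2 (Fin n)} {T : Finset (Fin n)} :
    (g, T) ∈ Inc (triangles G) edT ↔ T ∈ (triangles G).filter (fun T => g ∈ edT T) := by
  simp [Inc]

/-- one step -/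
theorem step (hG : G ⊆ allEdges n) {M j : ℕ} (hj : j ≤ M) {b ε : ℝ} (hb : 0 ≤ b)
    (hm : (M : ℝ)⁻¹ ≤ ε ^ 2) (hε0 : 0 ≤ ε) (hε : ε ≤ 1 / 100)
    (ha : ∀ u v, s(u, v) ∈ G → |aa G M b j u v| ≤ ε)
    (hR : ∀ c ∈ Inc (triangles G) edT, RR (chH (triangles G) edT) M j c ≤ ε ^ 2)
    {u v w : Fin n} (huv : s(u, v) ∈ G) (hw : w ∈ cn G u v) :
    ∏ c' ∈ chH (triangles G) edT (s(u, v), {u, v, w}), (1 - RR (chH (triangles G) edT) M j c') ≤
      2 * Real.exp (-2 * hh b j) ∧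
    |Real.log (1 - RR (chH (triangles G) edT) M j (s(u, v), {u, v, w})) -
      Real.log (1 - RR (chH (triangles G) edT) M (j + 1) (s(u, v), {u, v, w})) -
      (M : ℝ)⁻¹ * Real.exp (-2 * hh b j) * (1 - (aa G M b j u w + aa G M b j v w))| ≤
      20 * ε ^ 2 * ((M : ℝ)⁻¹ * Real.exp (-2 * hh b j)) := by
  obtain ⟨h1, h2⟩ := mem_cn.1 hw
  have n1 := ne_of_mem hG huv
  have n2 := ne_of_mem hG h1
  have n3 := ne_of_mem hG h2
  have hT := tri_mem hG huv hw
  have hε2 : ε ^ 2 < 1 := by nlinarith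
  have hRR : ∀ c ∈ Inc (triangles G) edT,
      0 ≤ RR (chH (triangles G) edT) M j c ∧ RR (chH (triangles G) edT) M j c ≤ ε ^ 2 :=
    fun c hc => ⟨(RR_mem _ hj c).1, hR c hc⟩
  have m0 : ({u, v, w} : Finset (Fin n)) ∈ (triangles G).filter (fun T => s(u, v) ∈ edT T) :=
    mem_filter.2 ⟨hT, mem_edT.2 ⟨by simp, by simp, n1⟩⟩
  have m1 : ({u, v, w} : Finset (Fin n)) ∈ (triangles G).filter (fun T => s(u, w) ∈ edT T) :=
    mem_filter.2 ⟨hT, mem_edT.2 ⟨by simp, by simp, n2⟩⟩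
  have m2 : ({u, v, w} : Finset (Fin n)) ∈ (triangles G).filter (fun T => s(v, w) ∈ edT T) :=
    mem_filter.2 ⟨hT, mem_edT.2 ⟨by simp, by simp, n3⟩⟩
  have hP : ∀ x y, Pg G M j s(x, y) = Real.exp (-(aa G M b j x y + hh b j)) := by
    intro x y
    have : 0 < Pg G M j s(x, y) := prod_pos fun T hT => by
      have := (hRR _ (mem_inc.2 hT)).2
      linarith
    rw [aa, sub_add_cancel, neg_neg, Real.exp_log this]
  have herase : ∀ g, ({u, v, w} : Finset (Fin n)) ∈ (triangles G).filter (fun T => g ∈ edT T) →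
      ∏ T ∈ ((triangles G).filter (fun T => g ∈ edT T)).erase {u, v, w},
        (1 - RR (chH (triangles G) edT) M j (g, T)) =
      Pg G M j g * (1 - RR (chH (triangles G) edT) M j (g, {u, v, w}))⁻¹ := by
    intro g hg
    have h3 : 0 < 1 - RR (chH (triangles G) edT) M j (g, {u, v, w}) := by
      have := (hRR _ (mem_inc.2 hg)).2
      linarith
    rw [Pg, ← prod_erase_mul _ _ hg, mul_inv_cancel_right₀ h3.ne']
  refine real_step (Real.exp_pos _) (Real.exp_le_one_iff.2 (by have := hh_nonneg hb j; linarith))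
    (by positivity) hm hε0 hε ((abs_add_le _ _).trans (by linarith [ha u w h1, ha v w h2]))
    (hRR _ (mem_inc.2 m0)) (hRR _ (mem_inc.2 m1)) (hRR _ (mem_inc.2 m2)) ?_
  rw [prod_ch _ n1 n2.symm n3.symm, herase _ m1, herase _ m2, hP, hP, ← Real.exp_add]
  rw [show -2 * hh b j + -(aa G M b j u w + aa G M b j v w) =
    -(aa G M b j u w + hh b j) + -(aa G M b j v w + hh b j) by ring, Real.exp_add]
  ring

theorem incr (hG : G ⊆ allEdges n) {M j : ℕ} (hj : j ≤ M) {D δ ε : ℝ} (hD : 0 < D)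
    (hm : (M : ℝ)⁻¹ ≤ ε ^ 2) (hε0 : 0 ≤ ε) (hε : ε ≤ 1 / 100) (hδ : δ ≤ 1)
    (ha : ∀ u v, s(u, v) ∈ G → |aa G M (D / M) j u v| ≤ ε)
    (hR : ∀ c ∈ Inc (triangles G) edT, RR (chH (triangles G) edT) M j c ≤ ε ^ 2)
    (hR' : ∀ c ∈ Inc (triangles G) edT, RR (chH (triangles G) edT) M (j + 1) c ≤ ε ^ 2)
    {u v : Fin n} (huv : s(u, v) ∈ G) (hc : |cod G u v - D| ≤ δ * D) :
    |aa G M (D / M) (j + 1) u v - aa G M (D / M) j u v +
      D / M * Real.exp (-2 * hh (D / M) j) * AA G D (aa G M (D / M) j) u v| ≤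
      D / M * Real.exp (-2 * hh (D / M) j) * (δ + 40 * ε ^ 2) := by
  have hε2 : ε ^ 2 < 1 := by nlinarith
  have hb : 0 ≤ D / M := by positivity
  have hlog : ∀ i, (∀ c ∈ Inc (triangles G) edT, RR (chH (triangles G) edT) M i c ≤ ε ^ 2) →
      Real.log (Pg G M i s(u, v)) =
        ∑ w ∈ cn G u v, Real.log (1 - RR (chH (triangles G) edT) M i (s(u, v), {u, v, w})) := by
    intro i hi
    rw [Pg, Real.log_prod (fun T hT => by have := hi _ (mem_inc.2 hT); linarith),
      sum_tri hG huv fun T => Real.log (1 - RR (chH (triangles G) edT) M i (s(u, v), T))]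
  set E := Real.exp (-2 * hh (D / M) j) with hE
  have hE0 : 0 < E := Real.exp_pos _
  have hmE : 0 ≤ (M : ℝ)⁻¹ * E := by positivity
  have e1 : aa G M (D / M) (j + 1) u v - aa G M (D / M) j u v +
      D / M * E * AA G D (aa G M (D / M) j) u v =
      ∑ w ∈ cn G u v, (Real.log (1 - RR (chH (triangles G) edT) M j (s(u, v), {u, v, w})) -
        Real.log (1 - RR (chH (triangles G) edT) M (j + 1) (s(u, v), {u, v, w})) -
        (M : ℝ)⁻¹ * E * (1 - (aa G M (D / M) j u w + aa G M (D / M) j v w))) +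
        (M : ℝ)⁻¹ * E * (cod G u v - D) := by
    rw [sum_sub_distrib, sum_sub_distrib, ← hlog j hR, ← hlog (j + 1) hR', ← mul_sum,
      sum_sub_distrib, sum_const, nsmul_eq_mul, mul_one, AA]
    have e2 : aa G M (D / M) (j + 1) u v - aa G M (D / M) j u v =
        Real.log (Pg G M j s(u, v)) - Real.log (Pg G M (j + 1) s(u, v)) - D / M * E := by
      simp only [aa, hh]
      ring
    rw [e2, cod]
    field_simp
    ring
  rw [e1]
  refine (abs_add_le _ _).trans ?_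
  have h1 := (abs_sum_le_sum_abs _ _).trans (sum_le_sum fun w hw =>
    (step hG hj hb hm hε0 hε ha hR huv hw).2)
  rw [sum_const, nsmul_eq_mul] at h1
  have h2 : |(M : ℝ)⁻¹ * E * (cod G u v - D)| ≤ (M : ℝ)⁻¹ * E * (δ * D) := by
    rw [abs_mul, abs_of_nonneg hmE]
    exact mul_le_mul_of_nonneg_left hc hmE
  have h3 : ((cn G u v).card : ℝ) ≤ 2 * D := by
    have := (abs_le.1 hc).2
    unfold cod at this
    nlinarith
  have h4 := mul_le_mul_of_nonneg_right h3 (show 0 ≤ 20 * ε ^ 2 * ((M : ℝ)⁻¹ * E) by positivity)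
  have e3 : D / M * E * (δ + 40 * ε ^ 2) =
      2 * D * (20 * ε ^ 2 * ((M : ℝ)⁻¹ * E)) + (M : ℝ)⁻¹ * E * (δ * D) := by
    rw [div_eq_mul_inv]; ring
  rw [e3]
  linarith

end CavA

set_option maxHeartbeats 1000000 in
open CavA in
theorem cav (P : Par) {G : St P.n} (hG : P.Good P.m G)
    (reg : Reg G (dd P.n P.m) (yy P.n P.m) P.lam) {M : ℕ} (hM : P.n ≤ M) :
    (∀ e ∈ G, |(∏ c ∈ rootS (triangles G) edT {e}, (1 - RR (chH (triangles G) edT) M M c)) *
        √(2 * P.D) - 1| ≤ (P.z ^ 5)⁻¹) ∧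
      ∃ ρ : ℕ → ℝ, (∀ j, 0 ≤ ρ j) ∧
        (∀ c ∈ Inc (triangles G) edT, ∀ c' ∈ chH (triangles G) edT c, ∀ j < M,
          ∏ c'' ∈ (chH (triangles G) edT c).erase c', (1 - RR (chH (triangles G) edT) M j c'') ≤
            ρ j) ∧
        Real.exp ((P.θ * M)⁻¹ * ∑ j ∈ range M, ρ j) ≤ (3 * P.D) ^ 40 := by
  have hz := P.z_ge
  have hz0 : 0 < P.z := by linarith
  have hz1 : 1 ≤ P.z := by linarith
  have hL := P.L_ge
  have hLz := P.L_le
  have hDy : yy P.n P.m = P.D := P.hz.symm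
  have hD0 : 0 < P.D := pow_pos hz0 _
  have hzn : ∀ k ≤ 10000, P.z ^ k ≤ M := fun k hk =>
    (pow_le_pow_right₀ hz1 hk).trans (P.h2.trans (by exact_mod_cast hM))
  have hM0 : (0 : ℝ) < M := (pow_pos hz0 0).trans_le (hzn 0 (by norm_num))
  have hDD : P.D ^ 2 ≤ M := by rw [Par.D, ← pow_mul]; exact hzn _ (by norm_num)
  have hD5 : 1000 ≤ P.D := hz.trans (le_self_pow₀ hz1 (by norm_num))
  set b := P.D / M with hb
  have hb0 : 0 ≤ b := by positivity
  have hb1 : 2 * b ≤ 1 := by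
    rw [hb, ← mul_div_assoc, div_le_one hM0]
    nlinarith
  set ε := (P.z ^ 6)⁻¹ with hε
  have hε0 : 0 ≤ ε := by positivity
  have hε1 : ε ≤ 1 / 100 := by
    rw [hε, one_div]
    exact inv_anti₀ (by norm_num) (le_trans (by linarith) (le_self_pow₀ hz1 (by norm_num)))
  have hε2 : ε ^ 2 = (P.z ^ 12)⁻¹ := by rw [hε, inv_pow, ← pow_mul]
  have hm : (M : ℝ)⁻¹ ≤ ε ^ 2 := by
    rw [hε2]
    exact inv_anti₀ (by positivity) (hzn _ (by norm_num))
  have hx := hh_exp hb0 hb1 M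
  have hx1 : 2 * P.D ≤ Real.exp (2 * hh b M) := by
    have : (M : ℝ) * (2 * b) = 2 * P.D := by rw [hb]; field_simp
    linarith [hx.1]
  have hx2 : Real.exp (2 * hh b M) ≤ 2 * P.D + 5 := by
    have e1 : (M : ℝ) * (2 * b + (2 * b) ^ 2) = 2 * P.D + 4 * (P.D ^ 2 / M) := by
      rw [hb]; field_simp; ring
    have e2 : P.D ^ 2 / M ≤ 1 := (div_le_one hM0).2 hDD
    linarith [hx.2]
  have hhL : ∀ i ≤ M, hh b i ≤ P.L := by
    intro i hi
    refine (hh_mono hb0 hi).trans ?_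
    have h1 : P.D ≤ P.n := by
      rw [Par.D]; exact (pow_le_pow_right₀ hz1 (by norm_num)).trans P.h2
    have h2 : Real.exp (2 * hh b M) ≤ Real.exp (2 * P.L) := by
      rw [two_mul P.L, Real.exp_add, P.exp_L]
      nlinarith
    linarith [Real.exp_le_exp.1 h2]
  have hϱ : ∀ i ≤ M, 4 * hh b i / P.D ≤ ε ^ 2 := by
    intro i hi
    rw [hε2, div_le_iff₀ hD0, Par.D, show P.z ^ 24 = P.z ^ 12 * P.z ^ 12 by ring, ← mul_assoc,
      inv_mul_cancel₀ (by positivity), one_mul]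
    have := le_self_pow₀ hz1 (show 12 ≠ 0 by norm_num)
    linarith [hhL i hi]
  have hδ1 : P.δ ≤ 1 := inv_le_one_of_one_le₀ (one_le_pow₀ hz1)
  have hcod : ∀ u v, s(u, v) ∈ G → |cod G u v - P.D| ≤ P.δ * P.D := fun u v h => hDy ▸ hG.cod u v h
  have inv : ∀ j ≤ M, ∀ i ≤ j, (∀ u v, s(u, v) ∈ G → |aa G M b i u v| ≤ ε) ∧
      ∀ c ∈ Inc (triangles G) edT, RR (chH (triangles G) edT) M i c ≤ 4 * hh b i / P.D := by
    intro j
    induction j with
    | zero =>
      intro _ i hi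
      obtain rfl := Nat.le_zero.1 hi
      refine ⟨fun u v _ => ?_, fun c _ => ?_⟩
      · simpa [aa, Pg, RR, hh] using hε0
      · simp [RR, hh]
    | succ j ih =>
      intro hj
      have ih := ih (by omega)
      have hRj : ∀ i ≤ j + 1, ∀ c ∈ Inc (triangles G) edT,
          RR (chH (triangles G) edT) M i c ≤ 4 * hh b i / P.D := by
        intro i hi c hc
        rcases Nat.lt_or_ge i (j + 1) with h | h
        · exact (ih i (by omega)).2 c hc
        obtain rfl : i = j + 1 := by omega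
        obtain ⟨u, v, w, huv, hw, rfl⟩ := inc_form hc
        have h1 := (step hG.sub (show j ≤ M by omega) hb0 hm hε0 hε1 (ih j le_rfl).1
          (fun c hc => ((ih j le_rfl).2 c hc).trans (hϱ j (by omega))) huv hw).1
        have h2 := (ih j le_rfl).2 _ hc
        have h3 := mul_le_mul_of_nonneg_left h1 (inv_pos.2 hM0).le
        have e : 4 * hh b (j + 1) / P.D =
            4 * hh b j / P.D + (M : ℝ)⁻¹ * (4 * Real.exp (-2 * hh b j)) := by
          rw [hh, hb]; field_simp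
        have h4 : 0 ≤ (M : ℝ)⁻¹ * Real.exp (-2 * hh b j) := by positivity
        rw [e, RR]
        linarith
      have hτ : ∀ i, 0 ≤ b * Real.exp (-2 * hh b i) ∧ b * Real.exp (-2 * hh b i) ≤ 1 := by
        intro i
        have : Real.exp (-2 * hh b i) ≤ 1 :=
          Real.exp_le_one_iff.2 (by have := hh_nonneg hb0 i; linarith)
        exact ⟨by positivity, mul_le_one₀ (by linarith) (Real.exp_pos _).le this⟩
      have hξ : ∀ i ≤ j + 1, ∀ u v, s(u, v) ∈ G → |aa G M b i u v +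
          ∑ l ∈ range i, b * Real.exp (-2 * hh b l) * AA G P.D (aa G M b l) u v| ≤
          hh b i * (P.δ + 40 * ε ^ 2) := by
        intro i hi u v huv
        induction i with
        | zero => simp [aa, Pg, RR, hh]
        | succ i ihi =>
          have h1 := ihi (by omega)
          have h2 := incr hG.sub (show i ≤ M by omega) hD0 hm hε0 hε1 hδ1 (ih i (by omega)).1
            (fun c hc => (hRj i (by omega) c hc).trans (hϱ i (by omega)))
            (fun c hc => (hRj (i + 1) hi c hc).trans (hϱ (i + 1) (by omega))) huv (hcod u v huv)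
          rw [← hb] at h2
          rw [sum_range_succ, hh, add_mul]
          refine le_trans (le_of_eq ?_) ((abs_add_le _ _).trans (add_le_add h1 h2))
          congr 1
          ring
      have hη : P.L * (P.δ + 40 * ε ^ 2) ≤ (P.z ^ 7)⁻¹ := by
        have h1 : 40 * ε ^ 2 ≤ P.δ := by
          rw [hε2, Par.δ, ← div_eq_mul_inv, div_le_iff₀ (by positivity),
            show P.z ^ 12 = P.z ^ 8 * P.z ^ 4 by ring, ← mul_assoc, inv_mul_cancel₀ (by positivity),
            one_mul]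
          exact le_trans (by linarith) (le_self_pow₀ hz1 (by norm_num))
        have h2 : (P.z ^ 7)⁻¹ = P.z * P.δ := by rw [Par.δ]; field_simp
        have h3 : 0 ≤ P.δ := by unfold Par.δ; positivity
        rw [h2]
        nlinarith
      have hst := stabP P (fun _ => G) (fun _ => dd P.n P.m) (fun _ => P.D)
        (fun i => b * Real.exp (-2 * hh b i)) (aa G M b) (j + 1) (η := (P.z ^ 7)⁻¹)
        (fun _ _ => Subset.rfl) (fun _ _ => le_rfl)
        (fun _ _ => ⟨by linarith [Par.D_le_yy (P := P) le_rfl, Par.yy_le_dd (P := P) le_rfl],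
          Par.dd_le _⟩)
        (fun _ _ => hD0) (fun _ _ => hDy ▸ reg)
        (fun u => by
          have h1 := (abs_le.1 (hG.deg u)).2
          have h2 : P.δ' ≤ 1 := inv_le_one_of_one_le₀ (one_le_pow₀ hz1)
          have h3 : 0 ≤ dd P.n P.m := by
            linarith [Par.D_le_yy (P := P) le_rfl, Par.yy_le_dd (P := P) le_rfl]
          nlinarith)
        (fun i _ => hτ i) (by rw [← hh_eq]; exact hhL _ hj)
        (inv_anti₀ (by positivity) (pow_le_pow_right₀ hz1 (by norm_num)))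
        (inv_le_one_of_one_le₀ (one_le_pow₀ hz1))
        (fun i hi u v huv => (hξ i hi u v huv).trans ((mul_le_mul_of_nonneg_right
          (hhL i (by omega)) (by unfold Par.δ; positivity)).trans hη))
        (fun i hi u v huv => ((ih i (by omega)).1 u v huv).trans (by linarith))
      intro i hi
      refine ⟨fun u v huv => ?_, hRj i hi⟩
      have h1 := hst i hi u v huv
      have h2 : P.z * (P.z ^ 7)⁻¹ = ε := by rw [hε]; field_simp
      nlinarith [abs_nonneg (aa G M b i u v)]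
  have inv' := inv M le_rfl
  have hRε : ∀ i ≤ M, ∀ c ∈ Inc (triangles G) edT, RR (chH (triangles G) edT) M i c ≤ ε ^ 2 :=
    fun i hi c hc => ((inv' i hi).2 c hc).trans (hϱ i hi)
  have hε3 : ε ^ 2 ≤ 1 / 10000 := by nlinarith
  refine ⟨fun e he => ?_, fun j => 5 * Real.exp (-2 * hh b j), fun j => by positivity,
    fun c hc c' hc' j hj => ?_, ?_⟩
  · induction e using Sym2.ind with
    | _ u v =>
      rw [prod_root]
      change |Pg G M M s(u, v) * _ - 1| ≤ _
      have hP : 0 < Pg G M M s(u, v) := prod_pos fun T hT => by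
        have := hRε M le_rfl _ (mem_inc.2 hT)
        linarith
      have ha := abs_le.1 ((inv' M le_rfl).1 u v he)
      set a := aa G M b M u v with ha'
      have e1 : Pg G M M s(u, v) = Real.exp (-a) * (Real.exp (hh b M))⁻¹ := by
        rw [← Real.exp_neg, ← Real.exp_add, ha', aa, neg_sub, sub_neg_eq_add,
          add_neg_cancel_comm, Real.exp_log hP]
      set X := Real.exp (hh b M) with hX
      have hX0 : 0 < X := Real.exp_pos _
      have eX : Real.exp (2 * hh b M) = X ^ 2 := by rw [hX, ← Real.exp_nat_mul]; norm_num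
      rw [eX] at hx1 hx2
      set t := √(2 * P.D) with ht
      have ht2 : t ^ 2 = 2 * P.D := Real.sq_sqrt (by linarith)
      have ht0 : 0 < t := Real.sqrt_pos.2 (by linarith)
      have h1 : t ≤ X := by
        by_contra h
        nlinarith
      have hεD : 5 ≤ ε * P.D := by
        rw [hε, Par.D, show P.z ^ 24 = P.z ^ 6 * P.z ^ 18 by ring, ← mul_assoc,
          inv_mul_cancel₀ (by positivity), one_mul]
        exact le_trans (by linarith) (le_self_pow₀ hz1 (by norm_num))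
      have h2 : (1 - ε) * X ≤ t := by
        by_contra h
        push Not at h
        have h3 : t ^ 2 < ((1 - ε) * X) ^ 2 := by nlinarith
        have h4 : (1 - ε) ^ 2 ≤ 1 - ε := by nlinarith
        have h5 : ((1 - ε) * X) ^ 2 ≤ (1 - ε) * (2 * P.D + 5) := by
          rw [mul_pow]
          exact mul_le_mul h4 hx2 (by positivity) (by linarith)
        nlinarith
      have h3 : t * X⁻¹ ≤ 1 := by rw [← div_eq_mul_inv, div_le_one hX0]; exact h1
      have h4 : 1 - ε ≤ t * X⁻¹ := by rw [← div_eq_mul_inv, le_div_iff₀ hX0]; exact h2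
      have h5 := abs_le.1 (Real.abs_exp_sub_one_le (x := -a) (by
        rw [abs_neg, abs_le]; constructor <;> linarith [ha.1, ha.2]))
      have h6 : |-a| ≤ ε := by rw [abs_neg, abs_le]; exact ha
      have h7 : (P.z ^ 5)⁻¹ = P.z * ε := by rw [hε]; field_simp
      rw [e1, h7, mul_assoc, mul_comm X⁻¹, abs_le]
      have h8 := Real.exp_pos (-a)
      have h9 := mul_le_mul_of_nonneg_left h3 h8.le
      have h10 := mul_le_mul_of_nonneg_left h4 h8.le
      have h11 : (1 - 2 * ε) * (1 - ε) ≤ Real.exp (-a) * (1 - ε) :=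
        mul_le_mul_of_nonneg_right (by linarith [h5.1]) (by linarith)
      have h12 := mul_le_mul_of_nonneg_right hz hε0
      have h13 := sq_nonneg ε
      constructor <;> linarith [h5.1, h5.2]
  · obtain ⟨u, v, w, huv, hw, rfl⟩ := inc_form hc
    have h1 := (step hG.sub hj.le hb0 hm hε0 hε1 (inv' j hj.le).1 (hRε j hj.le) huv hw).1
    rw [← prod_erase_mul _ _ hc'] at h1
    have h2 := hRε j hj.le c' (mem_filter.1 hc').1
    have h3 : 0 ≤ ∏ c'' ∈ (chH (triangles G) edT (s(u, v), {u, v, w})).erase c',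
        (1 - RR (chH (triangles G) edT) M j c'') :=
      prod_nonneg fun c'' _ => by linarith [(RR_mem (chH (triangles G) edT) hj.le c'').2]
    have h4 := Real.exp_pos (-2 * hh b j)
    nlinarith
  · have e1 : (P.θ * M)⁻¹ * ∑ j ∈ range M, 5 * Real.exp (-2 * hh b j) = (40 : ℕ) * (2 * hh b M) := by
      rw [hh_eq b M, ← mul_sum, ← mul_sum, hb, Par.θ, Par.D]
      field_simp
      push_cast
      ring
    rw [e1, Real.exp_nat_mul]
    exact pow_le_pow_left₀ (Real.exp_pos _).le (by linarith) _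

end Crest.Agent.R30
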