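import Crest.Agent.R30.Coll

/-!
# R30 ColSum: summing the collision bound over the roots (task R30-ColSum)

PLAN (aux in `namespace ColSumA`).  Every `c' ∈ Inc` has at most `2 Δ` children and at most `2 Δ` parents
(`c = (f, T)`, `T ∋ c'.1`, `f ∈ ed T \ c'.1`).  Write `Xs = Xs θ (K+1) ≥ Xs θ K` (`VV_mono`), `ret c = VV K c c.2 - 1
≤ θ ∑_{c' ∈ chH c} VV K c' c.2`.
* `∑_{c ∈ Inc} ret c ≤ 2 θ Xs`: for `c = (f, T)`, `c' = (g, T')` use `VV K c' T ≤ XX (g, T) c'` (`ind_le_VV`);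
  at most `2` values of `f` for given `(g, T)`.
* `∑_c Loc (chH c) ≤ 2Δ · 2 ∑ ret + 2Δ Xs + 2 θ⁻¹ Xs`: pairs `c₁ ≠ c₂ ∈ chH c` with the same point; for pairs
  with different points, `c = (f, T)`, `c₂ = (g, T₂)`: `c₁ ∈ chH (g, T)`, `θ ∑_{c₁ ∈ chH (g,T)} VV K c₁ ≤ VV (K+1) (g,T)`.
* `∑_c Col k (chH c) ≤ 2 ∑_c Loc (chH c)` by induction on `k` (`2 Δ θ ≤ 1/4`).
So `Σ₁ = ∑_c 2 ret c + Xs + θ ∑_c Col (chH c) ≤ 7 Xs`.  For two roots, `Col (rootS {e, f}) ≤ Col (rootS {e}) +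
Col (rootS {f}) +` cross terms `XX c c'` with `{c.1, c'.1} = {e, f}`, whose total is
`≤ 2 ∑_T (∑_{c ∈ Inc} VV c T)² ≤ 2 · 16 |H|` (`∑_{c ∈ Inc} Nw a c T ≤ 3 (2Δ)^a ind (T ∈ H)`, counting parents).
`Xs_trunc`: `∑_T Nw a c T ≤ (2Δ)^a`, expand `XX` as a double sum over `a, b`.
-/

set_option autoImplicit false

namespace Crest.Agent.R30

open Finset Crest.CombinatoricsR.TriangleRemoval

variable {X J : Type} [Fintype X] [DecidableEq X] [Fintype J] [DecidableEq J]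
  (H : Finset J) (ed : J → Finset X) {θ Δ : ℝ}

namespace ColSumA

lemma sum_comp_le {α β : Type} [DecidableEq β] (A : Finset α) (B : Finset β) (φ : α → β)
    (F : β → ℝ) (m : ℝ) (hF : ∀ b ∈ B, 0 ≤ F b) (hφ : ∀ a ∈ A, φ a ∈ B)
    (hm : ∀ b ∈ B, ((A.filter fun a => φ a = b).card : ℝ) ≤ m) :
    ∑ a ∈ A, F (φ a) ≤ m * ∑ b ∈ B, F b := by
  rw [← sum_fiberwise_of_maps_to hφ, mul_sum]
  refine sum_le_sum fun b hb => ?_
  rw [sum_congr rfl (g := fun _ => F b) (fun a ha => by rw [(mem_filter.1 ha).2]), sum_const,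
    nsmul_eq_mul]
  exact mul_le_mul_of_nonneg_right (hm b hb) (hF b hb)

/-- other incidences at the same point -/
def sm (c : X × J) : Finset (X × J) := ((Inc H ed).filter fun c' => c'.1 = c.1).erase c

lemma mem_Inc {c : X × J} : c ∈ Inc H ed ↔ c.2 ∈ H ∧ c.1 ∈ ed c.2 := by simp [Inc]

lemma mem_chH {c c' : X × J} :
    c' ∈ chH H ed c ↔ c' ∈ Inc H ed ∧ c'.1 ∈ ed c.2 ∧ c'.1 ≠ c.1 ∧ c'.2 ≠ c.2 := by
  simp only [chH, mem_filter]

lemma mem_sm {c c' : X × J} : c' ∈ sm H ed c ↔ c' ≠ c ∧ c' ∈ Inc H ed ∧ c'.1 = c.1 := by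
  simp only [sm, mem_erase, mem_filter]

lemma mem_rootS {A : Finset X} {c : X × J} : c ∈ rootS H ed A ↔ c ∈ Inc H ed ∧ c.1 ∈ A := by
  simp only [rootS, mem_filter]

omit [Fintype X] [Fintype J] [DecidableEq J] in
lemma card_erase_le (h3 : ∀ T ∈ H, (ed T).card ≤ 3) {T : J} (hT : T ∈ H) {g : X}
    (hg : g ∈ ed T) : (((ed T).erase g).card : ℝ) ≤ 2 := by
  have h := h3 T hT
  rw [card_erase_of_mem hg]
  have : (ed T).card - 1 ≤ 2 := by omega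
  exact_mod_cast this

lemma card_chH (h3 : ∀ T ∈ H, (ed T).card ≤ 3)
    (hΔ : ∀ g, ((H.filter fun T => g ∈ ed T).card : ℝ) ≤ Δ) (h1 : 1 ≤ Δ) {c : X × J}
    (hc : c ∈ Inc H ed) : ((chH H ed c).card : ℝ) ≤ 2 * Δ := by
  obtain ⟨hT, hg⟩ := (mem_Inc H ed).1 hc
  have h := sum_comp_le (chH H ed c) ((ed c.2).erase c.1) Prod.fst (fun _ => (1 : ℝ)) Δ
    (fun _ _ => zero_le_one)
    (fun a ha => by
      obtain ⟨_, h2, h3, _⟩ := (mem_chH H ed).1 ha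
      exact mem_erase.2 ⟨h3, h2⟩)
    (fun b _ => by
      refine le_trans ?_ (hΔ b)
      refine Nat.cast_le.2 (card_le_card_of_injOn Prod.snd ?_ ?_)
      · intro a ha
        obtain ⟨ha1, ha2⟩ := mem_filter.1 ha
        obtain ⟨h4, h5⟩ := (mem_Inc H ed).1 ((mem_chH H ed).1 ha1).1
        exact mem_filter.2 ⟨h4, ha2 ▸ h5⟩
      · intro a ha a' ha' e
        exact Prod.ext ((mem_filter.1 ha).2.trans (mem_filter.1 ha').2.symm) e)
  simp only [sum_const, nsmul_eq_mul, mul_one] at h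
  have h2 := card_erase_le H ed h3 hT hg
  nlinarith

lemma card_par (h3 : ∀ T ∈ H, (ed T).card ≤ 3)
    (hΔ : ∀ g, ((H.filter fun T => g ∈ ed T).card : ℝ) ≤ Δ) (c' : X × J) :
    (((Inc H ed).filter fun c => c' ∈ chH H ed c).card : ℝ) ≤ 2 * Δ := by
  have h := sum_comp_le ((Inc H ed).filter fun c => c' ∈ chH H ed c)
    (H.filter fun T => c'.1 ∈ ed T) Prod.snd (fun _ => (1 : ℝ)) 2
    (fun _ _ => zero_le_one)
    (fun a ha => by
      obtain ⟨ha1, ha2⟩ := mem_filter.1 ha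
      exact mem_filter.2 ⟨((mem_Inc H ed).1 ha1).1, ((mem_chH H ed).1 ha2).2.1⟩)
    (fun b hb => by
      obtain ⟨hb1, hb2⟩ := mem_filter.1 hb
      refine le_trans ?_ (card_erase_le H ed h3 hb1 hb2)
      refine Nat.cast_le.2 (card_le_card_of_injOn Prod.fst ?_ ?_)
      · intro a ha
        obtain ⟨ha1, ha2⟩ := mem_filter.1 ha
        obtain ⟨ha3, ha4⟩ := mem_filter.1 ha1
        exact mem_erase.2 ⟨((mem_chH H ed).1 ha4).2.2.1.symm, ha2 ▸ ((mem_Inc H ed).1 ha3).2⟩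
      · intro a ha a' ha' e
        exact Prod.ext e ((mem_filter.1 ha).2.trans (mem_filter.1 ha').2.symm))
  simp only [sum_const, nsmul_eq_mul, mul_one] at h
  have h2 := hΔ c'.1
  linarith

lemma sum_par (h3 : ∀ T ∈ H, (ed T).card ≤ 3)
    (hΔ : ∀ g, ((H.filter fun T => g ∈ ed T).card : ℝ) ≤ Δ) (F : X × J → ℝ)
    (hF : ∀ c ∈ Inc H ed, 0 ≤ F c) :
    ∑ c ∈ Inc H ed, ∑ c' ∈ chH H ed c, F c' ≤ 2 * Δ * ∑ c' ∈ Inc H ed, F c' := by
  rw [sum_comm' (t' := Inc H ed) (s' := fun c' => (Inc H ed).filter fun c => c' ∈ chH H ed c)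
    (h := by
      intro c c'
      simp only [mem_filter]
      exact ⟨fun h => ⟨⟨h.1, h.2⟩, ((mem_chH H ed).1 h.2).1⟩, fun h => ⟨h.1.1, h.1.2⟩⟩), mul_sum]
  refine sum_le_sum fun c' hc' => ?_
  rw [sum_const, nsmul_eq_mul]
  exact mul_le_mul_of_nonneg_right (card_par H ed h3 hΔ c') (hF c' hc')

lemma sum_flip (h3 : ∀ T ∈ H, (ed T).card ≤ 3) (G : X × J → X × J → ℝ)
    (hG : ∀ c c', 0 ≤ G c c') :
    ∑ c ∈ Inc H ed, ∑ c' ∈ chH H ed c, G (c'.1, c.2) c' ≤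
      2 * ∑ d ∈ Inc H ed, ∑ c' ∈ sm H ed d, G d c' := by
  rw [← sum_finset_product' (univ.filter fun p : (X × J) × (X × J) =>
      p.1 ∈ Inc H ed ∧ p.2 ∈ chH H ed p.1) (Inc H ed) (chH H ed) (by simp)
      (f := fun c c' => G (c'.1, c.2) c'),
    ← sum_finset_product' (univ.filter fun p : (X × J) × (X × J) =>
      p.1 ∈ Inc H ed ∧ p.2 ∈ sm H ed p.1) (Inc H ed) (sm H ed) (by simp) (f := G)]
  refine sum_comp_le _ _ (fun p : (X × J) × (X × J) => ((p.2.1, p.1.2), p.2))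
    (fun p => G p.1 p.2) 2 (fun b _ => hG _ _) ?_ ?_
  · intro a ha
    obtain ⟨ha1, ha2⟩ := (mem_filter.1 ha).2
    obtain ⟨h4, h5, h6, h7⟩ := (mem_chH H ed).1 ha2
    refine mem_filter.2 ⟨mem_univ _, (mem_Inc H ed).2 ⟨((mem_Inc H ed).1 ha1).1, h5⟩,
      (mem_sm H ed).2 ⟨fun e => h7 ?_, h4, rfl⟩⟩
    exact (Prod.ext_iff.1 e).2
  · intro b hb
    obtain ⟨hb1, hb2⟩ := (mem_filter.1 hb).2
    obtain ⟨hb3, hb4⟩ := (mem_Inc H ed).1 hb1
    refine le_trans ?_ (card_erase_le H ed h3 hb3 hb4)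
    refine Nat.cast_le.2 (card_le_card_of_injOn (fun p => p.1.1) ?_ ?_)
    · intro a ha
      obtain ⟨ha1, ha2⟩ := mem_filter.1 ha
      obtain ⟨ha3, ha4⟩ := (mem_filter.1 ha1).2
      subst ha2
      exact mem_erase.2 ⟨((mem_chH H ed).1 ha4).2.2.1.symm, ((mem_Inc H ed).1 ha3).2⟩
    · intro a ha a' ha' e
      have e1 := (mem_filter.1 ha).2.trans (mem_filter.1 ha').2.symm
      have e2 : a.2 = a'.2 := (Prod.ext_iff.1 e1).2
      have e3 : a.1.2 = a'.1.2 := (Prod.ext_iff.1 (Prod.ext_iff.1 e1).1).2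
      exact Prod.ext (Prod.ext e e3) e2

/-- abbreviations -/
noncomputable abbrev V (θ : ℝ) (K : ℕ) (c : X × J) (T : J) : ℝ := VV (chH H ed) Prod.snd θ K c T

noncomputable abbrev W (θ : ℝ) (K : ℕ) (c c' : X × J) : ℝ := XX (chH H ed) Prod.snd θ K c c'

lemma V_nonneg (hθ : 0 ≤ θ) (K : ℕ) (c : X × J) (T : J) : 0 ≤ V H ed θ K c T :=
  le_trans (ind_nonneg _) (ind_le_VV _ _ hθ K c T)

lemma V_zero (c : X × J) (T : J) : V H ed θ 0 c T = ind (c.2 = T) := by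
  simp [V, VV, Nw]

lemma V_succ (K : ℕ) (c : X × J) (T : J) :
    V H ed θ (K + 1) c T = ind (c.2 = T) + θ * ∑ c' ∈ chH H ed c, V H ed θ K c' T :=
  VV_succ _ _ θ K c T

lemma one_le_V (hθ : 0 ≤ θ) (K : ℕ) (c : X × J) : 1 ≤ V H ed θ K c c.2 := by
  have := ind_le_VV (chH H ed) Prod.snd hθ K c c.2
  rwa [ind_pos rfl] at this

lemma W_nonneg (hθ : 0 ≤ θ) (K : ℕ) (c c' : X × J) : 0 ≤ W H ed θ K c c' :=
  sum_nonneg fun T _ => mul_nonneg (V_nonneg H ed hθ K c T) (V_nonneg H ed hθ K c' T)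

lemma W_mono (hθ : 0 ≤ θ) {K K' : ℕ} (h : K ≤ K') (c c' : X × J) :
    W H ed θ K c c' ≤ W H ed θ K' c c' :=
  sum_le_sum fun T _ => mul_le_mul (VV_mono _ _ hθ h c T) (VV_mono _ _ hθ h c' T)
    (V_nonneg H ed hθ K c' T) (V_nonneg H ed hθ K' c T)

lemma Xs_eq (K : ℕ) : Xs H ed θ K = ∑ c ∈ Inc H ed, ∑ c' ∈ sm H ed c, W H ed θ K c c' := rfl

lemma Xs_nonneg' (hθ : 0 ≤ θ) (K : ℕ) : 0 ≤ Xs H ed θ K :=
  sum_nonneg fun _ _ => sum_nonneg fun _ _ => W_nonneg H ed hθ K _ _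

lemma Xs_mono (hθ : 0 ≤ θ) {K K' : ℕ} (h : K ≤ K') : Xs H ed θ K ≤ Xs H ed θ K' :=
  sum_le_sum fun _ _ => sum_le_sum fun _ _ => W_mono H ed hθ h _ _

lemma ret_le (hθ : 0 ≤ θ) (K : ℕ) (c : X × J) :
    V H ed θ K c c.2 - 1 ≤ θ * ∑ c' ∈ chH H ed c, W H ed θ K (c'.1, c.2) c' := by
  have h1 : V H ed θ K c c.2 ≤ V H ed θ (K + 1) c c.2 := VV_mono _ _ hθ (Nat.le_succ K) c c.2
  rw [V_succ, ind_pos rfl] at h1
  have h2 : ∑ c' ∈ chH H ed c, V H ed θ K c' c.2 ≤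
      ∑ c' ∈ chH H ed c, W H ed θ K (c'.1, c.2) c' := by
    refine sum_le_sum fun c' _ => ?_
    have h3 := single_le_sum (f := fun T => V H ed θ K (c'.1, c.2) T * V H ed θ K c' T)
      (fun T _ => mul_nonneg (V_nonneg H ed hθ K _ T) (V_nonneg H ed hθ K _ T)) (mem_univ c.2)
    have h4 := one_le_V H ed hθ K (c'.1, c.2)
    have h5 := V_nonneg H ed hθ K c' c.2
    refine le_trans ?_ h3
    simp only at h4 ⊢
    nlinarith
  have := mul_le_mul_of_nonneg_left h2 hθ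
  linarith

lemma sum_ret (h3 : ∀ T ∈ H, (ed T).card ≤ 3) (hθ : 0 ≤ θ) (K : ℕ) :
    ∑ c ∈ Inc H ed, (V H ed θ K c c.2 - 1) ≤ 2 * θ * Xs H ed θ K := by
  refine le_trans (sum_le_sum fun c _ => ret_le H ed hθ K c) ?_
  rw [← mul_sum, Xs_eq]
  have := mul_le_mul_of_nonneg_left
    (sum_flip H ed h3 (W H ed θ K) (W_nonneg H ed hθ K)) hθ
  linarith

lemma Loc_nonneg (hθ : 0 ≤ θ) (K : ℕ) (S : Finset (X × J)) :
    0 ≤ Loc (chH H ed) Prod.snd θ K S :=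
  add_nonneg (sum_nonneg fun c _ => by have := one_le_V H ed hθ K c; simp only [V] at this; linarith)
    (sum_nonneg fun _ _ => sum_nonneg fun _ _ => W_nonneg H ed hθ K _ _)

lemma Col_nonneg (hθ : 0 ≤ θ) (K k : ℕ) (S : Finset (X × J)) :
    0 ≤ Col (chH H ed) Prod.snd θ K k S := by
  induction k generalizing S with
  | zero => exact le_rfl
  | succ k ih =>
    exact add_nonneg (Loc_nonneg H ed hθ K S) (mul_nonneg hθ (sum_nonneg fun c _ => ih _))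

lemma W_comm (K : ℕ) (c c' : X × J) : W H ed θ K c c' = W H ed θ K c' c :=
  sum_congr rfl fun _ _ => mul_comm _ _

lemma sum_ch_W (hθ : 0 ≤ θ) (K : ℕ) (d c : X × J) :
    θ * ∑ c' ∈ chH H ed d, W H ed θ K c c' ≤ W H ed θ (K + 1) d c := by
  simp only [W, XX]
  rw [sum_comm, mul_sum]
  refine sum_le_sum fun T _ => ?_
  rw [← mul_sum, mul_left_comm, mul_comm]
  refine mul_le_mul ?_ (VV_mono _ _ hθ (Nat.le_succ K) c T) (V_nonneg H ed hθ K c T)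
    (V_nonneg H ed hθ _ d T)
  rw [VV_succ]
  exact le_add_of_nonneg_left (ind_nonneg _)

lemma pair_le (hθ : 0 ≤ θ) (K : ℕ) {c c₁ : X × J} :
    θ * ∑ c₂ ∈ (chH H ed c).erase c₁, W H ed θ K c₁ c₂ ≤
      θ * ∑ c₂ ∈ sm H ed c₁, W H ed θ K c₁ c₂ + W H ed θ (K + 1) (c₁.1, c.2) c₁ := by
  have h1 : (chH H ed c).erase c₁ ⊆ sm H ed c₁ ∪ chH H ed (c₁.1, c.2) := by
    intro c₂ h
    obtain ⟨h2, h3⟩ := mem_erase.1 h
    obtain ⟨h4, h5, _, h7⟩ := (mem_chH H ed).1 h3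
    by_cases e : c₂.1 = c₁.1
    · exact mem_union_left _ ((mem_sm H ed).2 ⟨h2, h4, e⟩)
    · exact mem_union_right _ ((mem_chH H ed).2 ⟨h4, h5, e, h7⟩)
  have h2 : ∑ c₂ ∈ (chH H ed c).erase c₁, W H ed θ K c₁ c₂ ≤
      ∑ c₂ ∈ sm H ed c₁, W H ed θ K c₁ c₂ + ∑ c₂ ∈ chH H ed (c₁.1, c.2), W H ed θ K c₁ c₂ := by
    refine le_trans (sum_le_sum_of_subset_of_nonneg h1 fun _ _ _ => W_nonneg H ed hθ K _ _) ?_
    rw [← sum_union_inter]
    exact le_add_of_nonneg_right (sum_nonneg fun _ _ => W_nonneg H ed hθ K _ _)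
  have h3 := mul_le_mul_of_nonneg_left h2 hθ
  have h4 := sum_ch_W H ed hθ K (c₁.1, c.2) c₁
  linarith

lemma sum_Loc (h3 : ∀ T ∈ H, (ed T).card ≤ 3)
    (hΔ : ∀ g, ((H.filter fun T => g ∈ ed T).card : ℝ) ≤ Δ) (h1 : 1 ≤ Δ) (hθ : 0 < θ)
    (hθΔ : θ * (2 * Δ) ≤ 1 / 4) (K : ℕ) :
    θ * ∑ c ∈ Inc H ed, Loc (chH H ed) Prod.snd θ K (chH H ed c) ≤ 3 * Xs H ed θ (K + 1) := by
  have hX := Xs_nonneg' H ed hθ.le K
  have hX' := Xs_mono H ed hθ.le (Nat.le_succ K)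
  have hθ8 : θ ≤ 1 / 8 := by nlinarith
  have a1 : ∑ c ∈ Inc H ed, ∑ c' ∈ chH H ed c, 2 * (V H ed θ K c' c'.2 - 1) ≤ Xs H ed θ K := by
    refine le_trans (sum_par H ed h3 hΔ (fun c' => 2 * (V H ed θ K c' c'.2 - 1))
      fun c _ => by have := one_le_V H ed hθ.le K c; linarith) ?_
    rw [← mul_sum]
    have := sum_ret H ed h3 hθ.le K
    have h2 : 2 * Δ * (2 * ∑ c ∈ Inc H ed, (V H ed θ K c c.2 - 1)) ≤
        2 * Δ * (2 * (2 * θ * Xs H ed θ K)) :=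
      mul_le_mul_of_nonneg_left (by linarith) (by linarith)
    nlinarith
  have a2 : ∑ c ∈ Inc H ed, ∑ c₁ ∈ chH H ed c, ∑ c₂ ∈ sm H ed c₁, W H ed θ K c₁ c₂ ≤
      2 * Δ * Xs H ed θ K :=
    sum_par H ed h3 hΔ (fun c₁ => ∑ c₂ ∈ sm H ed c₁, W H ed θ K c₁ c₂)
      fun _ _ => sum_nonneg fun _ _ => W_nonneg H ed hθ.le K _ _
  have a3 : ∑ c ∈ Inc H ed, ∑ c₁ ∈ chH H ed c, W H ed θ (K + 1) (c₁.1, c.2) c₁ ≤
      2 * Xs H ed θ (K + 1) := sum_flip H ed h3 (W H ed θ (K + 1)) (W_nonneg H ed hθ.le _)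
  have a4 : θ * ∑ c ∈ Inc H ed, ∑ c₁ ∈ chH H ed c, ∑ c₂ ∈ (chH H ed c).erase c₁,
      W H ed θ K c₁ c₂ ≤ θ * ∑ c ∈ Inc H ed, ∑ c₁ ∈ chH H ed c, ∑ c₂ ∈ sm H ed c₁,
        W H ed θ K c₁ c₂ + ∑ c ∈ Inc H ed, ∑ c₁ ∈ chH H ed c, W H ed θ (K + 1) (c₁.1, c.2) c₁ := by
    rw [mul_sum, mul_sum, ← sum_add_distrib]
    refine sum_le_sum fun c _ => ?_
    rw [mul_sum, mul_sum, ← sum_add_distrib]
    exact sum_le_sum fun c₁ _ => pair_le H ed hθ.le K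
  have a5 := mul_le_mul_of_nonneg_left a1 hθ.le
  have a6 := mul_le_mul_of_nonneg_left a2 hθ.le
  simp only [Loc, sum_add_distrib, mul_add]
  simp only [V, W] at a4 a5 a6 a3
  nlinarith

lemma sum_Col (h3 : ∀ T ∈ H, (ed T).card ≤ 3)
    (hΔ : ∀ g, ((H.filter fun T => g ∈ ed T).card : ℝ) ≤ Δ) (h1 : 1 ≤ Δ) (hθ : 0 < θ)
    (hθΔ : θ * (2 * Δ) ≤ 1 / 4) (K k : ℕ) :
    θ * ∑ c ∈ Inc H ed, Col (chH H ed) Prod.snd θ K k (chH H ed c) ≤ 4 * Xs H ed θ (K + 1) := by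
  have hX := Xs_nonneg' H ed hθ.le (K + 1)
  induction k with
  | zero => simp only [Col, sum_const_zero, mul_zero]; linarith
  | succ k ih =>
    simp only [Col, sum_add_distrib, mul_add, ← mul_sum]
    have a1 := sum_Loc H ed h3 hΔ h1 hθ hθΔ K
    have a2 := sum_par H ed h3 hΔ (fun c => Col (chH H ed) Prod.snd θ K k (chH H ed c))
      fun _ _ => Col_nonneg H ed hθ.le K k _
    have a3 := mul_le_mul_of_nonneg_left (mul_le_mul_of_nonneg_left a2 hθ.le) hθ.le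
    have a4 : θ * (2 * Δ) * (θ * ∑ c ∈ Inc H ed, Col (chH H ed) Prod.snd θ K k (chH H ed c)) ≤
        1 / 4 * (4 * Xs H ed θ (K + 1)) :=
      mul_le_mul hθΔ ih (mul_nonneg hθ.le (sum_nonneg fun _ _ => Col_nonneg H ed hθ.le K k _))
        (by norm_num)
    nlinarith

lemma sum_root (A0 : Finset X) (F : X × J → ℝ) (hF : ∀ c, 0 ≤ F c) :
    ∑ e ∈ A0, ∑ c ∈ rootS H ed {e}, F c ≤ ∑ c ∈ Inc H ed, F c := by
  rw [sum_comm' (t' := rootS H ed A0) (s' := fun c => {c.1}) (h := by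
    intro e c
    simp only [mem_rootS, mem_singleton]
    constructor
    · rintro ⟨h1, h2, h3⟩
      exact ⟨h3.symm, h2, h3 ▸ h1⟩
    · rintro ⟨h1, h2, h3⟩
      exact ⟨h1 ▸ h3, h2, h1.symm⟩)]
  simp only [sum_singleton]
  exact sum_le_sum_of_subset_of_nonneg (filter_subset _ _) fun _ _ _ => hF _

/-- contribution of one root -/
noncomputable def F1 (θ : ℝ) (K k : ℕ) (c : X × J) : ℝ :=
  2 * (V H ed θ K c c.2 - 1) + ∑ c' ∈ sm H ed c, W H ed θ K c c' +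
    θ * Col (chH H ed) Prod.snd θ K k (chH H ed c)

lemma F1_nonneg (hθ : 0 ≤ θ) (K k : ℕ) (c : X × J) : 0 ≤ F1 H ed θ K k c := by
  have h1 := one_le_V H ed hθ K c
  have h2 : 0 ≤ ∑ c' ∈ sm H ed c, W H ed θ K c c' :=
    sum_nonneg fun _ _ => W_nonneg H ed hθ K _ _
  have h3 := mul_nonneg hθ (Col_nonneg H ed hθ K k (chH H ed c))
  unfold F1
  linarith

lemma sum_F1 (h3 : ∀ T ∈ H, (ed T).card ≤ 3)
    (hΔ : ∀ g, ((H.filter fun T => g ∈ ed T).card : ℝ) ≤ Δ) (h1 : 1 ≤ Δ) (hθ : 0 < θ)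
    (hθΔ : θ * (2 * Δ) ≤ 1 / 4) (K k : ℕ) :
    ∑ c ∈ Inc H ed, F1 H ed θ K k c ≤ 10 * Xs H ed θ (K + 1) := by
  have hX := Xs_nonneg' H ed hθ.le K
  have hX' := Xs_mono H ed hθ.le (Nat.le_succ K)
  have hθ8 : θ ≤ 1 / 8 := by nlinarith
  have a1 := sum_ret H ed h3 hθ.le K
  have a2 := sum_Col H ed h3 hΔ h1 hθ hθΔ K k
  simp only [F1, sum_add_distrib, ← mul_sum]
  rw [← Xs_eq]
  nlinarith

lemma Col_le (hθ : 0 ≤ θ) (K k : ℕ) (S : Finset (X × J)) (hS : S ⊆ Inc H ed) :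
    Col (chH H ed) Prod.snd θ K (k + 1) S ≤
      ∑ c ∈ S, (F1 H ed θ K k c + ∑ c' ∈ S.filter fun c' => c'.1 ≠ c.1, W H ed θ K c c') := by
  have : ∀ c ∈ S, ∑ c' ∈ S.erase c, W H ed θ K c c' ≤ ∑ c' ∈ sm H ed c, W H ed θ K c c' +
      ∑ c' ∈ S.filter fun c' => c'.1 ≠ c.1, W H ed θ K c c' := by
    intro c _
    have h1 : S.erase c ⊆ sm H ed c ∪ S.filter fun c' => c'.1 ≠ c.1 := by
      intro c' h
      obtain ⟨h2, h3⟩ := mem_erase.1 h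
      by_cases e : c'.1 = c.1
      · exact mem_union_left _ ((mem_sm H ed).2 ⟨h2, hS h3, e⟩)
      · exact mem_union_right _ (mem_filter.2 ⟨h3, e⟩)
    refine le_trans (sum_le_sum_of_subset_of_nonneg h1 fun _ _ _ => W_nonneg H ed hθ K _ _) ?_
    rw [← sum_union_inter]
    exact le_add_of_nonneg_right (sum_nonneg fun _ _ => W_nonneg H ed hθ K _ _)
  have h2 := sum_le_sum this
  simp only [Col, Loc, F1, sum_add_distrib, ← mul_sum] at h2 ⊢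
  linarith

lemma sum_V_le (h3 : ∀ T ∈ H, (ed T).card ≤ 3)
    (hΔ : ∀ g, ((H.filter fun T => g ∈ ed T).card : ℝ) ≤ Δ) (hθ : 0 < θ)
    (hθΔ : θ * (2 * Δ) ≤ 1 / 4) (K : ℕ) (T : J) :
    ∑ c ∈ Inc H ed, V H ed θ K c T ≤ 4 * ind (T ∈ H) := by
  have h0 : ∑ c ∈ Inc H ed, ind (c.2 = T) ≤ 3 * ind (T ∈ H) := by
    rw [sum_ind]
    by_cases hT : T ∈ H
    · rw [ind_pos hT, mul_one]
      have : ((Inc H ed).filter fun c => c.2 = T).card ≤ (ed T).card := by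
        refine card_le_card_of_injOn Prod.fst ?_ ?_
        · intro a ha
          obtain ⟨ha1, ha2⟩ := mem_filter.1 ha
          exact ha2 ▸ ((mem_Inc H ed).1 ha1).2
        · intro a ha a' ha' e
          exact Prod.ext e ((mem_filter.1 ha).2.trans (mem_filter.1 ha').2.symm)
      exact_mod_cast this.trans (h3 T hT)
    · rw [ind_neg hT, mul_zero, filter_eq_empty_iff.2 fun c hc (e : c.2 = T) =>
        hT (e ▸ ((mem_Inc H ed).1 hc).1)]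
      simp
  have hi := ind_nonneg (T ∈ H)
  induction K with
  | zero =>
    simp only [V_zero]
    linarith
  | succ K ih =>
    simp only [V_succ, sum_add_distrib, ← mul_sum]
    have a2 := mul_le_mul_of_nonneg_left (sum_par H ed h3 hΔ (fun c => V H ed θ K c T)
      fun _ _ => V_nonneg H ed hθ.le K _ T) hθ.le
    have a4 : θ * (2 * Δ) * ∑ c ∈ Inc H ed, V H ed θ K c T ≤ 1 / 4 * (4 * ind (T ∈ H)) :=
      mul_le_mul hθΔ ih (sum_nonneg fun _ _ => V_nonneg H ed hθ.le K _ T) (by norm_num)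
    nlinarith

lemma sum_W_le (h3 : ∀ T ∈ H, (ed T).card ≤ 3)
    (hΔ : ∀ g, ((H.filter fun T => g ∈ ed T).card : ℝ) ≤ Δ) (hθ : 0 < θ)
    (hθΔ : θ * (2 * Δ) ≤ 1 / 4) (K : ℕ) :
    ∑ c ∈ Inc H ed, ∑ c' ∈ Inc H ed, W H ed θ K c c' ≤ 16 * H.card := by
  have e : ∑ c ∈ Inc H ed, ∑ c' ∈ Inc H ed, W H ed θ K c c' =
      ∑ T, (∑ c ∈ Inc H ed, V H ed θ K c T) * ∑ c ∈ Inc H ed, V H ed θ K c T := by
    simp only [W, XX, sum_mul_sum]
    rw [sum_comm (s := univ)]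
    exact sum_congr rfl fun c _ => sum_comm
  have e2 : (16 : ℝ) * H.card = ∑ T, 16 * ind (T ∈ H) := by
    rw [← mul_sum, sum_ind]
    simp
  rw [e, e2]
  refine sum_le_sum fun T _ => ?_
  have h1 := sum_V_le H ed h3 hΔ hθ hθΔ K T
  have h2 : 0 ≤ ∑ c ∈ Inc H ed, V H ed θ K c T := sum_nonneg fun _ _ => V_nonneg H ed hθ.le K _ T
  have h4 := ind_le_one (T ∈ H)
  have h5 := ind_nonneg (T ∈ H)
  nlinarith

lemma sum_V_T (h3 : ∀ T ∈ H, (ed T).card ≤ 3)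
    (hΔ : ∀ g, ((H.filter fun T => g ∈ ed T).card : ℝ) ≤ Δ) (h1 : 1 ≤ Δ) (hθ : 0 < θ)
    (hθΔ : θ * (2 * Δ) ≤ 1 / 4) (K : ℕ) :
    ∀ c ∈ Inc H ed, ∑ T, V H ed θ K c T ≤ 4 / 3 := by
  have h0 : ∀ c : X × J, ∑ T, ind (c.2 = T) = 1 := by
    intro c
    simp [ind_eq_ite]
  induction K with
  | zero =>
    intro c _
    simp only [V_zero, h0]
    norm_num
  | succ K ih =>
    intro c hc
    simp only [V_succ, sum_add_distrib, ← mul_sum, h0]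
    rw [sum_comm]
    have a1 : ∑ c' ∈ chH H ed c, ∑ T, V H ed θ K c' T ≤ (chH H ed c).card * (4 / 3 : ℝ) := by
      rw [← nsmul_eq_mul]
      exact sum_le_card_nsmul _ _ _ fun c' hc' => ih c' ((mem_chH H ed).1 hc').1
    have a2 := card_chH H ed h3 hΔ h1 hc
    have a3 := mul_le_mul_of_nonneg_left a1 hθ.le
    nlinarith

lemma sum_V_sub (h3 : ∀ T ∈ H, (ed T).card ≤ 3)
    (hΔ : ∀ g, ((H.filter fun T => g ∈ ed T).card : ℝ) ≤ Δ) (h1 : 1 ≤ Δ) (hθ : 0 < θ)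
    (hθΔ : θ * (2 * Δ) ≤ 1 / 4) (j R : ℕ) :
    ∀ c ∈ Inc H ed, ∑ T, (V H ed θ (j + R) c T - V H ed θ R c T) ≤ 1 / 3 * (1 / 4) ^ R := by
  induction R with
  | zero =>
    intro c hc
    have h0 : ∑ T, ind (c.2 = T) = 1 := by simp [ind_eq_ite]
    have := sum_V_T H ed h3 hΔ h1 hθ hθΔ j c hc
    simp only [V_zero, sum_sub_distrib, h0, add_zero, pow_zero]
    linarith
  | succ R ih =>
    intro c hc
    have e : ∀ T, V H ed θ (j + (R + 1)) c T - V H ed θ (R + 1) c T =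
        θ * ∑ c' ∈ chH H ed c, (V H ed θ (j + R) c' T - V H ed θ R c' T) := by
      intro T
      rw [← add_assoc, V_succ, V_succ, sum_sub_distrib]
      ring
    simp only [e, ← mul_sum]
    rw [sum_comm]
    have a1 : ∑ c' ∈ chH H ed c, ∑ T, (V H ed θ (j + R) c' T - V H ed θ R c' T) ≤
        (chH H ed c).card * (1 / 3 * (1 / 4 : ℝ) ^ R) := by
      rw [← nsmul_eq_mul]
      exact sum_le_card_nsmul _ _ _ fun c' hc' => ih c' ((mem_chH H ed).1 hc').1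
    have a2 := card_chH H ed h3 hΔ h1 hc
    have a3 := mul_le_mul_of_nonneg_left a1 hθ.le
    have a4 : (0 : ℝ) ≤ 1 / 3 * (1 / 4) ^ R := by positivity
    have a5 : θ * (chH H ed c).card ≤ 1 / 4 :=
      le_trans (mul_le_mul_of_nonneg_left a2 hθ.le) hθΔ
    have a6 := mul_le_mul_of_nonneg_right a5 a4
    rw [pow_succ]
    nlinarith

omit [Fintype X] [DecidableEq X] [DecidableEq J] in
lemma sum_mul_le (f g : J → ℝ) (hf : ∀ T, 0 ≤ f T) (hg : ∀ T, 0 ≤ g T) :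
    ∑ T, f T * g T ≤ (∑ T, f T) * ∑ T, g T := by
  rw [sum_mul]
  exact sum_le_sum fun T _ => mul_le_mul_of_nonneg_left
    (single_le_sum (fun T _ => hg T) (mem_univ T)) (hf T)

lemma W_trunc (h3 : ∀ T ∈ H, (ed T).card ≤ 3)
    (hΔ : ∀ g, ((H.filter fun T => g ∈ ed T).card : ℝ) ≤ Δ) (h1 : 1 ≤ Δ) (hθ : 0 < θ)
    (hθΔ : θ * (2 * Δ) ≤ 1 / 4) (j R : ℕ) {c c' : X × J} (hc : c ∈ Inc H ed)
    (hc' : c' ∈ Inc H ed) : W H ed θ (j + R) c c' ≤ W H ed θ R c c' + (1 / 4) ^ R := by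
  have e : W H ed θ (j + R) c c' = W H ed θ R c c' +
      (∑ T, (V H ed θ (j + R) c T - V H ed θ R c T) * V H ed θ (j + R) c' T +
        ∑ T, (V H ed θ (j + R) c' T - V H ed θ R c' T) * V H ed θ R c T) := by
    simp only [W, XX, ← sum_add_distrib]
    exact sum_congr rfl fun T _ => by ring
  have hs : ∀ d T, 0 ≤ V H ed θ (j + R) d T - V H ed θ R d T := fun d T =>
    sub_nonneg.2 (VV_mono _ _ hθ.le (Nat.le_add_left R j) d T)
  have a4 : (0 : ℝ) ≤ 1 / 3 * (1 / 4) ^ R := by positivity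
  have a1 := le_trans (sum_mul_le _ _ (hs c) (V_nonneg H ed hθ.le (j + R) c'))
    (mul_le_mul (sum_V_sub H ed h3 hΔ h1 hθ hθΔ j R c hc) (sum_V_T H ed h3 hΔ h1 hθ hθΔ _ c' hc')
      (sum_nonneg fun T _ => V_nonneg H ed hθ.le _ c' T) a4)
  have a2 := le_trans (sum_mul_le _ _ (hs c') (V_nonneg H ed hθ.le R c))
    (mul_le_mul (sum_V_sub H ed h3 hΔ h1 hθ hθΔ j R c' hc') (sum_V_T H ed h3 hΔ h1 hθ hθΔ _ c hc)
      (sum_nonneg fun T _ => V_nonneg H ed hθ.le _ c T) a4)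
  rw [e]
  linarith

lemma card_sm (hΔ : ∀ g, ((H.filter fun T => g ∈ ed T).card : ℝ) ≤ Δ) (c : X × J) :
    ((sm H ed c).card : ℝ) ≤ Δ := by
  refine le_trans ?_ (hΔ c.1)
  refine Nat.cast_le.2 (card_le_card_of_injOn Prod.snd ?_ ?_)
  · intro a ha
    obtain ⟨_, ha1, ha2⟩ := (mem_sm H ed).1 ha
    obtain ⟨h4, h5⟩ := (mem_Inc H ed).1 ha1
    exact mem_filter.2 ⟨h4, ha2 ▸ h5⟩
  · intro a ha a' ha' e
    exact Prod.ext (((mem_sm H ed).1 ha).2.2.trans ((mem_sm H ed).1 ha').2.2.symm) e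

lemma card_Inc (h3 : ∀ T ∈ H, (ed T).card ≤ 3) : ((Inc H ed).card : ℝ) ≤ 3 * H.card := by
  have h := sum_comp_le (Inc H ed) H Prod.snd (fun _ => (1 : ℝ)) 3 (fun _ _ => zero_le_one)
    (fun a ha => ((mem_Inc H ed).1 ha).1)
    (fun b hb => by
      have : ((Inc H ed).filter fun c => c.2 = b).card ≤ (ed b).card := by
        refine card_le_card_of_injOn Prod.fst ?_ ?_
        · intro a ha
          obtain ⟨ha1, ha2⟩ := mem_filter.1 ha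
          exact ha2 ▸ ((mem_Inc H ed).1 ha1).2
        · intro a ha a' ha' e
          exact Prod.ext e ((mem_filter.1 ha).2.trans (mem_filter.1 ha').2.symm)
      exact_mod_cast this.trans (h3 b hb))
  simpa using h

lemma Col_two_le (hθ : 0 ≤ θ) (K k : ℕ) {e f : X} (hef : f ≠ e) :
    Col (chH H ed) Prod.snd θ K (k + 1) (rootS H ed {e, f}) ≤
      ∑ c ∈ rootS H ed {e}, F1 H ed θ K k c + ∑ c ∈ rootS H ed {f}, F1 H ed θ K k c +
        2 * ∑ c ∈ rootS H ed {e}, ∑ c' ∈ rootS H ed {f}, W H ed θ K c c' := by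
  refine le_trans (Col_le H ed hθ K k _ (filter_subset _ _)) ?_
  have e1 : rootS H ed {e, f} = rootS H ed {e} ∪ rootS H ed {f} := by
    ext c
    simp only [mem_rootS, mem_union, mem_insert, mem_singleton]
    tauto
  have e2 : Disjoint (rootS H ed {e}) (rootS H ed {f}) := by
    rw [disjoint_left]
    intro c h1 h2
    exact hef ((mem_singleton.1 ((mem_rootS H ed).1 h2).2).symm.trans
      (mem_singleton.1 ((mem_rootS H ed).1 h1).2))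
  have e3 : ∀ c ∈ rootS H ed {e}, ((rootS H ed {e, f}).filter fun c' => c'.1 ≠ c.1) =
      rootS H ed {f} := by
    intro c hc
    have hc1 := mem_singleton.1 ((mem_rootS H ed).1 hc).2
    ext c'
    simp only [mem_filter, mem_rootS, mem_insert, mem_singleton, hc1]
    constructor
    · rintro ⟨⟨h1, h2 | h2⟩, h3⟩
      · exact absurd h2 h3
      · exact ⟨h1, h2⟩
    · rintro ⟨h1, h2⟩
      exact ⟨⟨h1, Or.inr h2⟩, h2 ▸ hef⟩
  have e4 : ∀ c ∈ rootS H ed {f}, ((rootS H ed {e, f}).filter fun c' => c'.1 ≠ c.1) =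
      rootS H ed {e} := by
    intro c hc
    have hc1 := mem_singleton.1 ((mem_rootS H ed).1 hc).2
    ext c'
    simp only [mem_filter, mem_rootS, mem_insert, mem_singleton, hc1]
    constructor
    · rintro ⟨⟨h1, h2 | h2⟩, h3⟩
      · exact ⟨h1, h2⟩
      · exact absurd h2 h3
    · rintro ⟨h1, h2⟩
      exact ⟨⟨h1, Or.inl h2⟩, h2 ▸ hef.symm⟩
  have e5 : ∑ c ∈ rootS H ed {f}, ∑ c' ∈ rootS H ed {e}, W H ed θ K c c' =
      ∑ c ∈ rootS H ed {e}, ∑ c' ∈ rootS H ed {f}, W H ed θ K c c' := by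
    rw [sum_comm]
    exact sum_congr rfl fun c _ => sum_congr rfl fun c' _ => W_comm H ed K _ _
  conv_lhs => enter [1]; rw [e1]
  rw [sum_union e2, sum_congr rfl fun c hc => by rw [e3 c hc],
    sum_congr (s₁ := rootS H ed {f}) rfl fun c hc => by rw [e4 c hc], sum_add_distrib,
    sum_add_distrib, e5]
  linarith

end ColSumA

open ColSumA

theorem Xs_nonneg (hθ : 0 ≤ θ) (K : ℕ) : 0 ≤ Xs H ed θ K := Xs_nonneg' H ed hθ K

theorem col_one (h3 : ∀ T ∈ H, (ed T).card ≤ 3)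
    (hΔ : ∀ g, ((H.filter fun T => g ∈ ed T).card : ℝ) ≤ Δ) (h1 : 1 ≤ Δ) (hθ : 0 < θ)
    (hθΔ : θ * (2 * Δ) ≤ 1 / 4) (K k : ℕ) (A0 : Finset X) :
    ∑ e ∈ A0, Col (chH H ed) Prod.snd θ K k (rootS H ed {e}) ≤ 10 * Xs H ed θ (K + 1) := by
  cases k with
  | zero =>
    have := Xs_nonneg' H ed hθ.le (K + 1)
    simp only [Col, sum_const_zero]
    linarith
  | succ k =>
    refine le_trans ?_ (sum_F1 H ed h3 hΔ h1 hθ hθΔ K k)
    refine le_trans (sum_le_sum fun e _ => ?_) (sum_root H ed A0 _ (F1_nonneg H ed hθ.le K k))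
    refine le_trans (Col_le H ed hθ.le K k _ (filter_subset _ _)) (sum_le_sum fun c hc => ?_)
    rw [filter_eq_empty_iff.2, sum_empty, add_zero]
    intro c' hc' h
    exact h ((mem_singleton.1 ((mem_rootS H ed).1 hc').2).trans
      (mem_singleton.1 ((mem_rootS H ed).1 hc).2).symm)

theorem col_two (h3 : ∀ T ∈ H, (ed T).card ≤ 3)
    (hΔ : ∀ g, ((H.filter fun T => g ∈ ed T).card : ℝ) ≤ Δ) (h1 : 1 ≤ Δ) (hθ : 0 < θ)
    (hθΔ : θ * (2 * Δ) ≤ 1 / 4) (K k : ℕ) (A0 : Finset X) :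
    ∑ e ∈ A0, ∑ f ∈ A0.erase e, Col (chH H ed) Prod.snd θ K k (rootS H ed {e, f}) ≤
      20 * A0.card * Xs H ed θ (K + 1) + 32 * H.card := by
  cases k with
  | zero =>
    have := Xs_nonneg' H ed hθ.le (K + 1)
    simp only [Col, sum_const_zero]
    positivity
  | succ k =>
    have a1 : ∑ e ∈ A0, ∑ c ∈ rootS H ed {e}, F1 H ed θ K k c ≤ 10 * Xs H ed θ (K + 1) :=
      le_trans (sum_root H ed A0 _ (F1_nonneg H ed hθ.le K k)) (sum_F1 H ed h3 hΔ h1 hθ hθΔ K k)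
    have a2 : ∑ e ∈ A0, ∑ f ∈ A0, ∑ c ∈ rootS H ed {e}, ∑ c' ∈ rootS H ed {f}, W H ed θ K c c' ≤
        16 * H.card := by
      refine le_trans ?_ (sum_W_le H ed h3 hΔ hθ hθΔ K)
      refine le_trans (sum_le_sum fun e _ => ?_) (sum_root H ed A0 _
        fun c => sum_nonneg fun c' _ => W_nonneg H ed hθ.le K c c')
      rw [sum_comm]
      exact sum_le_sum fun c _ => sum_root H ed A0 _ fun c' => W_nonneg H ed hθ.le K c c'
    have a3 : ∑ e ∈ A0, ∑ f ∈ A0.erase e,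
        Col (chH H ed) Prod.snd θ K (k + 1) (rootS H ed {e, f}) ≤
        ∑ e ∈ A0, ∑ f ∈ A0, (∑ c ∈ rootS H ed {e}, F1 H ed θ K k c +
          ∑ c ∈ rootS H ed {f}, F1 H ed θ K k c +
          2 * ∑ c ∈ rootS H ed {e}, ∑ c' ∈ rootS H ed {f}, W H ed θ K c c') := by
      refine sum_le_sum fun e _ => ?_
      refine le_trans (sum_le_sum fun f hf => Col_two_le H ed hθ.le K k (mem_erase.1 hf).1) ?_
      refine sum_le_sum_of_subset_of_nonneg (erase_subset _ _) fun f _ _ => ?_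
      exact add_nonneg (add_nonneg (sum_nonneg fun c _ => F1_nonneg H ed hθ.le K k c)
        (sum_nonneg fun c _ => F1_nonneg H ed hθ.le K k c)) (mul_nonneg zero_le_two
          (sum_nonneg fun c _ => sum_nonneg fun c' _ => W_nonneg H ed hθ.le K c c'))
    simp only [sum_add_distrib, sum_const, nsmul_eq_mul, ← mul_sum] at a3
    have a4 := mul_le_mul_of_nonneg_left a1 (Nat.cast_nonneg (α := ℝ) A0.card)
    linarith

theorem Xs_trunc (h3 : ∀ T ∈ H, (ed T).card ≤ 3)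
    (hΔ : ∀ g, ((H.filter fun T => g ∈ ed T).card : ℝ) ≤ Δ) (h1 : 1 ≤ Δ) (hθ : 0 < θ)
    (hθΔ : θ * (2 * Δ) ≤ 1 / 4) (K R : ℕ) :
    Xs H ed θ K ≤ Xs H ed θ R + 3 * H.card * Δ * (1 / 4) ^ R := by
  refine le_trans (Xs_mono H ed hθ.le (Nat.le_add_right K R)) ?_
  have a4 : (0 : ℝ) ≤ (1 / 4) ^ R := by positivity
  have a1 : Xs H ed θ (K + R) ≤ ∑ c ∈ Inc H ed,
      (∑ c' ∈ sm H ed c, W H ed θ R c c' + Δ * (1 / 4) ^ R) := by
    rw [Xs_eq]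
    refine sum_le_sum fun c hc => ?_
    refine le_trans (sum_le_sum fun c' hc' => W_trunc H ed h3 hΔ h1 hθ hθΔ K R hc
      ((mem_sm H ed).1 hc').2.1) ?_
    rw [sum_add_distrib, sum_const, nsmul_eq_mul]
    exact add_le_add le_rfl (mul_le_mul_of_nonneg_right (card_sm H ed hΔ c) a4)
  rw [sum_add_distrib, ← Xs_eq, sum_const, nsmul_eq_mul] at a1
  have a2 := mul_le_mul_of_nonneg_right (card_Inc H ed h3) (mul_nonneg (by linarith : 0 ≤ Δ) a4)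
  linarith

end Crest.Agent.R30
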