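import Crest.Agent.R30.Tree

/-!
# R30 Coll: probability of a collision in the tree (task R30-Coll)

PLAN (aux in `namespace CollA`).  Let `nT k S u w T = ∑ i, ind (Qd k S u w i ∧ labN i = T)` and
`col = ∑ T, nT (nT - 1)`; `ind (¬ InjOn) ≤ col` (each term is `≥ 0`).  Recursion:
`nT (k+1) S u w T = ∑_{c ∈ S} b c`, `b c = ind (lab c = T) + ind (Opened c) * nT k (chi c) (hd w c) (sh w c) T`.
Let `φ u = exp ((θ M)⁻¹ ∑_{j<u} ρ j)`, so that `M⁻¹ ∑_{j<u} ρ j φ j ≤ θ φ u` and `1 ≤ φ u ≤ φ M ≤ θ Γ`.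
`VV (K+1) c T = ind (lab c = T) + θ ∑_{c' ∈ chi c} VV K c' T`, `VV` is monotone in `K`.
(1) for `c₀ ∈ I`, `u ≤ k ≤ M`: `av (nT (k+1) (chi c₀) u · T) ≤ φ u ∑_{c ∈ chi c₀} VV k c T` (`av_opened`).
(2) `∑_T nT (nT - 1) = ∑_c ∑_T b c (b c - 1) + ∑_{c ≠ c'} ∑_T b c b c'`, with
`∑_T b c (b c - 1) = ind (Opened c) (col below c + 2 nT below c at T = lab c)`; in the cross terms bound
`ind (Opened c) ≤ ind (hd w c < u)`, use `av_split`, each factor has average `≤ Γ VV c T`.
This gives `av (col k (chi c₀) u) ≤ φ u Γ² Col θ M k (chi c₀)` by induction and, for the root (bound the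
sibling product by `1`, `RR_mem`), `≤ Γ³ Col θ M M S`.
-/

set_option autoImplicit false

namespace Crest.Agent.R30

open Finset Crest.CombinatoricsR.TriangleRemoval

variable {C J : Type} [Fintype C] [DecidableEq C] [Fintype J] [DecidableEq J] {M : ℕ}
  (chi : C → Finset C) (lab : C → J)

omit [Fintype C] [DecidableEq C] [Fintype J] [DecidableEq J] in
theorem Nw_nonneg (a : ℕ) (c : C) (T : J) : 0 ≤ Nw chi lab a c T := by
  induction a generalizing c with
  | zero => exact ind_nonneg _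
  | succ a ih => exact sum_nonneg fun c' _ => ih c'

omit [Fintype C] [DecidableEq C] [Fintype J] [DecidableEq J] in
theorem VV_succ (θ : ℝ) (K : ℕ) (c : C) (T : J) :
    VV chi lab θ (K + 1) c T = ind (lab c = T) + θ * ∑ c' ∈ chi c, VV chi lab θ K c' T := by
  rw [VV, sum_range_succ', add_comm, pow_zero, one_mul]
  congr 1
  simp only [VV, Nw, mul_sum]
  rw [sum_comm]
  refine sum_congr rfl fun c' _ => sum_congr rfl fun a _ => ?_
  ring

omit [Fintype C] [DecidableEq C] [Fintype J] [DecidableEq J] in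
theorem VV_mono {θ : ℝ} (hθ : 0 ≤ θ) {K K' : ℕ} (h : K ≤ K') (c : C) (T : J) :
    VV chi lab θ K c T ≤ VV chi lab θ K' c T :=
  sum_le_sum_of_subset_of_nonneg (range_subset_range.2 (by omega)) fun a _ _ =>
    mul_nonneg (pow_nonneg hθ a) (Nw_nonneg chi lab a c T)

omit [Fintype C] [DecidableEq C] [Fintype J] [DecidableEq J] in
theorem ind_le_VV {θ : ℝ} (hθ : 0 ≤ θ) (K : ℕ) (c : C) (T : J) :
    ind (lab c = T) ≤ VV chi lab θ K c T := by
  refine le_trans (le_of_eq ?_) (VV_mono chi lab hθ (Nat.zero_le K) c T)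
  simp [VV, Nw]

namespace CollA

omit [Fintype C] [DecidableEq C] [Fintype J] [DecidableEq J] in
theorem VV_nonneg {θ : ℝ} (hθ : 0 ≤ θ) (K : ℕ) (c : C) (T : J) : 0 ≤ VV chi lab θ K c T :=
  (ind_nonneg _).trans (ind_le_VV chi lab hθ K c T)

omit [Fintype C] [DecidableEq C] [DecidableEq J] in
theorem XX_nonneg {θ : ℝ} (hθ : 0 ≤ θ) (K : ℕ) (c c' : C) : 0 ≤ XX chi lab θ K c c' :=
  sum_nonneg fun T _ => mul_nonneg (VV_nonneg chi lab hθ K c T) (VV_nonneg chi lab hθ K c' T)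

omit [Fintype C] [DecidableEq C] [Fintype J] [DecidableEq J] in
theorem VV_self {θ : ℝ} (hθ : 0 ≤ θ) (K : ℕ) (c : C) : 0 ≤ VV chi lab θ K c (lab c) - 1 := by
  have := ind_le_VV chi lab hθ K c (lab c)
  rw [ind_pos rfl] at this
  linarith

omit [Fintype C] [DecidableEq J] in
theorem Col_nonneg {θ : ℝ} (hθ : 0 ≤ θ) (K k : ℕ) (S : Finset C) : 0 ≤ Col chi lab θ K k S := by
  induction k generalizing S with
  | zero => exact le_rfl
  | succ k ih =>
    refine add_nonneg (add_nonneg (sum_nonneg fun c _ => ?_)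
      (sum_nonneg fun c _ => sum_nonneg fun c' _ => XX_nonneg chi lab hθ K c c'))
      (mul_nonneg hθ (sum_nonneg fun c _ => ih _))
    linarith [VV_self chi lab hθ K c]

/-- number of explored nodes with label `T` -/
noncomputable def nT (k : ℕ) (S : Finset C) (u : ℕ) (w : Nd C k → Fin M) (T : J) : ℝ :=
  ∑ i, ind (Qd chi k S u w i ∧ labN lab k i = T)

/-- number of collisions -/
noncomputable def col (k : ℕ) (S : Finset C) (u : ℕ) (w : Nd C k → Fin M) : ℝ :=
  ∑ T, nT chi lab k S u w T * (nT chi lab k S u w T - 1)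

omit [DecidableEq C] [Fintype J] [DecidableEq J] in
theorem nT_nonneg (k : ℕ) (S : Finset C) (u : ℕ) (w : Nd C k → Fin M) (T : J) :
    0 ≤ nT chi lab k S u w T := sum_nonneg fun _ _ => ind_nonneg _

omit [DecidableEq C] [Fintype J] [DecidableEq J] in
theorem nT_zero (S : Finset C) (u : ℕ) (w : Nd C 0 → Fin M) (T : J) : nT chi lab 0 S u w T = 0 :=
  sum_eq_zero fun i _ => i.elim

omit [DecidableEq C] in
theorem sum_Nd (k : ℕ) (f : Nd C (k + 1) → ℝ) :
    ∑ i, f i = ∑ c, (f (c, none) + ∑ i, f (c, some i)) := by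
  refine (Fintype.sum_prod_type (α₁ := C) (α₂ := Option (Nd C k)) f).trans ?_
  exact sum_congr rfl fun c _ => Fintype.sum_option _

omit [Fintype J] [DecidableEq J] in
theorem nT_succ (k : ℕ) (S : Finset C) (u : ℕ) (w : Nd C (k + 1) → Fin M) (T : J) :
    nT chi lab (k + 1) S u w T = ∑ c ∈ S, (ind (lab c = T) +
      ind (Opened chi k S u w c) * nT chi lab k (chi c) (hd w c) (sh w c) T) := by
  rw [nT, sum_Nd, ← univ_inter S, ← sum_ite_mem, univ_inter]
  refine sum_congr rfl fun c _ => ?_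
  by_cases hc : c ∈ S
  · rw [if_pos hc, nT, mul_sum]
    congr 1
    · exact ind_congr ⟨fun h => h.2, fun h => ⟨hc, h⟩⟩
    · refine sum_congr rfl fun i _ => ?_
      rw [← ind_and]
      exact ind_congr and_assoc
  · rw [if_neg hc, ind_neg fun h => hc h.1, zero_add]
    exact sum_eq_zero fun i _ => ind_neg fun h => hc h.1.1.1

omit [DecidableEq C] in
theorem ind_le_col (k : ℕ) (S : Finset C) (u : ℕ) (w : Nd C k → Fin M) :
    ind (¬ Set.InjOn (labN lab k) {i | Qd chi k S u w i}) ≤ col chi lab k S u w := by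
  classical
  have h1 : ∀ T, nT chi lab k S u w T =
      ((univ.filter fun i => Qd chi k S u w i ∧ labN lab k i = T).card : ℝ) := fun T =>
    sum_ind _ _
  have h2 : ∀ n : ℕ, (0 : ℝ) ≤ n * (n - 1) := by
    intro n
    rcases Nat.eq_zero_or_pos n with rfl | hn
    · simp
    · have : (1 : ℝ) ≤ n := by exact_mod_cast hn
      nlinarith
  have h3 : ∀ T, 0 ≤ nT chi lab k S u w T * (nT chi lab k S u w T - 1) := fun T => by
    rw [h1]; exact h2 _
  by_cases h : Set.InjOn (labN lab k) {i | Qd chi k S u w i}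
  · rw [ind_neg (not_not.2 h)]
    exact sum_nonneg fun T _ => h3 T
  · rw [ind_pos h]
    simp only [Set.InjOn, not_forall] at h
    obtain ⟨i, hi, i', hi', e, hne⟩ := h
    refine le_trans ?_ (single_le_sum (fun T _ => h3 T) (mem_univ (labN lab k i)))
    rw [h1]
    have h4 : 1 < (univ.filter fun j => Qd chi k S u w j ∧ labN lab k j = labN lab k i).card :=
      one_lt_card.2 ⟨i, mem_filter.2 ⟨mem_univ _, hi, rfl⟩, i',
        mem_filter.2 ⟨mem_univ _, hi', e.symm⟩, hne⟩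
    have h5 : (2 : ℝ) ≤ (univ.filter fun j =>
      Qd chi k S u w j ∧ labN lab k j = labN lab k i).card := by exact_mod_cast h4
    nlinarith

theorem col_succ_le (k : ℕ) (S : Finset C) (u : ℕ) (w : Nd C (k + 1) → Fin M) :
    col chi lab (k + 1) S u w ≤
      ∑ c ∈ S, ind (Opened chi k S u w c) * (col chi lab k (chi c) (hd w c) (sh w c) +
        2 * nT chi lab k (chi c) (hd w c) (sh w c) (lab c)) +
      ∑ c ∈ S, ∑ c' ∈ S.erase c, ∑ T,
        (ind (lab c = T) + ind (hd w c < u) * nT chi lab k (chi c) (hd w c) (sh w c) T) *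
        (ind (lab c' = T) + ind (hd w c' < u) * nT chi lab k (chi c') (hd w c') (sh w c') T) := by
  have h1 : ∀ b : C → ℝ, (∑ c ∈ S, b c) * (∑ c ∈ S, b c - 1) =
      ∑ c ∈ S, b c * (b c - 1) + ∑ c ∈ S, ∑ c' ∈ S.erase c, b c * b c' := by
    intro b
    rw [sum_mul, ← sum_add_distrib]
    refine sum_congr rfl fun c hc => ?_
    rw [← add_sum_erase S b hc, ← mul_sum]
    ring
  simp only [col, nT_succ, h1]
  rw [sum_add_distrib, sum_comm]
  refine add_le_add (le_of_eq (sum_congr rfl fun c _ => ?_)) ?_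
  · by_cases ho : Opened chi k S u w c
    · simp only [ind_pos ho, one_mul]
      have h2 : 2 * nT chi lab k (chi c) (hd w c) (sh w c) (lab c) =
          ∑ T, 2 * (ind (lab c = T) * nT chi lab k (chi c) (hd w c) (sh w c) T) := by
        rw [sum_eq_single (lab c), ind_pos rfl, one_mul]
        · intro T _ hT
          rw [ind_neg (Ne.symm hT), zero_mul, mul_zero]
        · intro h
          exact (h (mem_univ _)).elim
      rw [h2, ← sum_add_distrib]
      refine sum_congr rfl fun T _ => ?_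
      by_cases hT : lab c = T
      · rw [ind_pos hT]; ring
      · rw [ind_neg hT]; ring
    · simp only [ind_neg ho, zero_mul, add_zero]
      refine sum_eq_zero fun T _ => ?_
      by_cases hT : lab c = T
      · rw [ind_pos hT]; ring
      · rw [ind_neg hT]; ring
  · rw [sum_comm]
    refine sum_le_sum fun c _ => ?_
    rw [sum_comm]
    refine sum_le_sum fun c' _ => sum_le_sum fun T _ => ?_
    have h3 : ∀ c, 0 ≤ ind (lab c = T) +
        ind (Opened chi k S u w c) * nT chi lab k (chi c) (hd w c) (sh w c) T := fun c =>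
      add_nonneg (ind_nonneg _) (mul_nonneg (ind_nonneg _) (nT_nonneg _ _ _ _ _ _ _))
    have h4 : ∀ c, ind (lab c = T) +
        ind (Opened chi k S u w c) * nT chi lab k (chi c) (hd w c) (sh w c) T ≤
        ind (lab c = T) + ind (hd w c < u) * nT chi lab k (chi c) (hd w c) (sh w c) T := fun c =>
      add_le_add le_rfl (mul_le_mul_of_nonneg_right (ind_mono fun h => h.2.1)
        (nT_nonneg _ _ _ _ _ _ _))
    exact mul_le_mul (h4 c) (h4 c') (h3 c') ((h3 c).trans (h4 c))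

theorem av_pair (hM : 0 < M) (k : ℕ) {c c' : C} (h : c' ≠ c)
    (f g : ℕ → (Nd C k → Fin M) → ℝ) :
    av (fun w : Nd C (k + 1) → Fin M => f (hd w c) (sh w c) * g (hd w c') (sh w c')) =
      ((M : ℝ)⁻¹ * ∑ j ∈ range M, av (f j)) * ((M : ℝ)⁻¹ * ∑ j ∈ range M, av (g j)) := by
  have hp : ∀ F : C → ℝ, (∀ x, x ≠ c → x ≠ c' → F x = 1) → ∏ x, F x = F c * F c' := by
    intro F hF
    rw [← prod_pair h.symm]
    refine (prod_subset (subset_univ _) fun x _ hx => hF x ?_ ?_).symm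
    · rintro rfl; simp at hx
    · rintro rfl; simp at hx
  have := av_split (M := M) k (fun x j w => if x = c then f j w else if x = c' then g j w else 1)
  rw [hp _ (fun x h1 h2 => by simp only [if_neg h1, if_neg h2]; exact TreeA.fac_one hM k)] at this
  simp only [if_true, if_neg h] at this
  rw [← this]
  congr 1
  funext w
  rw [hp _ (fun x h1 h2 => by simp only [if_neg h1, if_neg h2])]
  simp only [if_true, if_neg h]

theorem opened_le (hM : 0 < M) (k : ℕ) (S : Finset C) {u : ℕ} (hk : u ≤ k + 1) (hu : u ≤ M)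
    {c : C} (hc : c ∈ S) (Y : ℕ → (Nd C k → Fin M) → ℝ) {φ : ℕ → ℝ} {B K : ℝ} (hB : 0 ≤ B)
    (hY : ∀ j < u, av (Y j) ≤ φ j * B)
    (hK : (M : ℝ)⁻¹ * ∑ j ∈ range u, (∏ c' ∈ S.erase c, (1 - RR chi M j c')) * φ j ≤ K) :
    av (fun w : Nd C (k + 1) → Fin M => ind (Opened chi k S u w c) * Y (hd w c) (sh w c)) ≤
      K * B := by
  rw [av_opened chi hM k S hk hu hc]
  refine le_trans ?_ (mul_le_mul_of_nonneg_right hK hB)
  rw [mul_assoc, sum_mul]
  refine mul_le_mul_of_nonneg_left (sum_le_sum fun j hj => ?_) (inv_nonneg.2 (Nat.cast_nonneg _))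
  rw [mul_assoc]
  have hj' := mem_range.1 hj
  exact mul_le_mul_of_nonneg_left (hY j hj')
    (prod_nonneg fun c' _ => sub_nonneg.2 (RR_mem chi (by omega) c').2)

section main

variable {chi}
variable (hM : 0 < M) {I : Finset C} (hI : ∀ c ∈ I, chi c ⊆ I) {φ : ℕ → ℝ} {θ Γ : ℝ} (hθ : 0 < θ)
  (hΓ : 1 ≤ Γ) (h1 : ∀ u ≤ M, 1 ≤ φ u) (h2 : ∀ u ≤ M, φ u ≤ θ * Γ)
  (h3 : ∀ u ≤ M, ∀ c₀ ∈ I, ∀ c ∈ chi c₀,
    (M : ℝ)⁻¹ * ∑ j ∈ range u, (∏ c' ∈ (chi c₀).erase c, (1 - RR chi M j c')) * φ j ≤ θ * φ u)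

omit [Fintype J] [DecidableEq J] in
include hM hI hθ h1 h3 in
theorem av_nT (T : J) (k : ℕ) : ∀ c₀ ∈ I, ∀ u ≤ k, u ≤ M →
    av (fun w : Nd C k → Fin M => nT chi lab k (chi c₀) u w T) ≤
      φ u * ∑ c ∈ chi c₀, VV chi lab θ k c T := by
  haveI : Nonempty (Fin M) := ⟨⟨0, hM⟩⟩
  induction k with
  | zero =>
    intro c₀ _ u _ hu
    simp only [nT_zero, av_const]
    exact mul_nonneg (zero_le_one.trans (h1 u hu)) (sum_nonneg fun c _ => VV_nonneg chi lab hθ.le _ _ _)
  | succ k ih =>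
    intro c₀ hc₀ u hk hu
    simp only [nT_succ]
    rw [av_sum, mul_sum]
    refine sum_le_sum fun c hc => ?_
    have hB : 0 ≤ ∑ c' ∈ chi c, VV chi lab θ k c' T :=
      sum_nonneg fun c _ => VV_nonneg chi lab hθ.le _ _ _
    have := opened_le chi hM k (chi c₀) hk hu hc (fun j w => nT chi lab k (chi c) j w T) hB
      (fun j hj => ih c (hI c₀ hc₀ hc) j (by omega) (by omega)) (h3 u hu c₀ hc₀ c hc)
    rw [av_add, av_const, VV_succ]
    have h4 := h1 u hu
    have h5 := ind_nonneg (lab c = T)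
    nlinarith

omit [Fintype J] [DecidableEq J] in
include hM hI hθ hΓ h1 h2 h3 in
theorem av_fac (T : J) {k : ℕ} (hkM : k + 1 ≤ M) {c : C} (hc : c ∈ I) {u : ℕ} (hk : u ≤ k + 1) :
    (M : ℝ)⁻¹ * ∑ j ∈ range M, av (fun w : Nd C k → Fin M =>
      ind (lab c = T) + ind (j < u) * nT chi lab k (chi c) j w T) ≤ Γ * VV chi lab θ M c T := by
  haveI : Nonempty (Fin M) := ⟨⟨0, hM⟩⟩
  have hB : 0 ≤ ∑ c' ∈ chi c, VV chi lab θ k c' T :=
    sum_nonneg fun c _ => VV_nonneg chi lab hθ.le _ _ _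
  have h4 : ∀ j ∈ range M, av (fun w : Nd C k → Fin M =>
      ind (lab c = T) + ind (j < u) * nT chi lab k (chi c) j w T) ≤ Γ * VV chi lab θ M c T := by
    intro j hj
    have hj' := mem_range.1 hj
    refine le_trans ?_ (mul_le_mul_of_nonneg_left (VV_mono chi lab hθ.le hkM c T) (by linarith))
    rw [av_add, av_const, av_const_mul, VV_succ]
    have h5 := ind_nonneg (lab c = T)
    have h6 : ind (j < u) * av (fun w : Nd C k → Fin M => nT chi lab k (chi c) j w T) ≤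
        θ * Γ * ∑ c' ∈ chi c, VV chi lab θ k c' T := by
      by_cases hju : j < u
      · rw [ind_pos hju, one_mul]
        exact (av_nT lab hM hI hθ h1 h3 T k c hc j (by omega) hj'.le).trans
          (mul_le_mul_of_nonneg_right (h2 j hj'.le) hB)
      · rw [ind_neg hju, zero_mul]
        exact mul_nonneg (mul_nonneg hθ.le (by linarith)) hB
    nlinarith
  have hM' : (0 : ℝ) < M := by exact_mod_cast hM
  rw [inv_mul_le_iff₀ hM']
  refine (sum_le_sum h4).trans (le_of_eq ?_)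
  rw [sum_const, card_range, nsmul_eq_mul]

include hM hI hθ hΓ h1 h2 h3 in
theorem av_col_step {k : ℕ} (hkM : k + 1 ≤ M)
    (ih : ∀ c₀ ∈ I, ∀ u ≤ k, av (fun w : Nd C k → Fin M => col chi lab k (chi c₀) u w) ≤
      φ u * (Γ ^ 2 * Col chi lab θ M k (chi c₀)))
    {S : Finset C} (hS : S ⊆ I) {u : ℕ} (hk : u ≤ k + 1) {K : ℝ} (hK1 : 1 ≤ K)
    (hK : ∀ c ∈ S, (M : ℝ)⁻¹ * ∑ j ∈ range u, (∏ c' ∈ S.erase c, (1 - RR chi M j c')) * φ j ≤ θ * K) :
    av (fun w : Nd C (k + 1) → Fin M => col chi lab (k + 1) S u w) ≤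
      K * (Γ ^ 2 * Col chi lab θ M (k + 1) S) := by
  refine (av_mono fun w => col_succ_le chi lab k S u w).trans ?_
  have hG : 1 ≤ Γ ^ 2 := one_le_pow₀ hΓ
  have e : K * (Γ ^ 2 * Col chi lab θ M (k + 1) S) =
      ∑ c ∈ S, K * (Γ ^ 2 * (2 * (VV chi lab θ M c (lab c) - 1) + θ * Col chi lab θ M k (chi c))) +
      ∑ c ∈ S, ∑ c' ∈ S.erase c, K * (Γ ^ 2 * XX chi lab θ M c c') := by
    simp only [Col, Loc, ← mul_sum, sum_add_distrib]
    ring
  rw [av_add, av_sum, av_sum, e]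
  refine add_le_add (sum_le_sum fun c hc => ?_) (sum_le_sum fun c hc => ?_)
  · have hB : 0 ≤ ∑ c' ∈ chi c, VV chi lab θ k c' (lab c) :=
      sum_nonneg fun c _ => VV_nonneg chi lab hθ.le _ _ _
    have hC := Col_nonneg chi lab hθ.le M k (chi c)
    have := opened_le chi hM k S hk (by omega) hc
      (fun j w => col chi lab k (chi c) j w + 2 * nT chi lab k (chi c) j w (lab c))
      (B := Γ ^ 2 * Col chi lab θ M k (chi c) + 2 * ∑ c' ∈ chi c, VV chi lab θ k c' (lab c))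
      (by positivity) (fun j hj => by
        rw [av_add, av_const_mul]
        have a1 := ih c (hS hc) j (by omega)
        have a2 := av_nT lab hM hI hθ h1 h3 (lab c) k c (hS hc) j (by omega) (by omega)
        linarith) (hK c hc)
    refine this.trans ?_
    have a3 := VV_mono chi lab hθ.le hkM c (lab c)
    rw [VV_succ, ind_pos rfl] at a3
    have a4 := VV_self chi lab hθ.le M c
    rw [mul_comm θ K, mul_assoc]
    refine mul_le_mul_of_nonneg_left ?_ (by linarith)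
    nlinarith
  · rw [av_sum]
    refine sum_le_sum fun c' hc' => ?_
    rw [av_sum]
    refine le_trans ?_ (le_mul_of_one_le_left
      (mul_nonneg (by linarith) (XX_nonneg chi lab hθ.le M c c')) hK1)
    rw [XX, mul_sum]
    refine sum_le_sum fun T _ => ?_
    rw [av_pair hM k (ne_of_mem_erase hc')
      (fun j w => ind (lab c = T) + ind (j < u) * nT chi lab k (chi c) j w T)
      (fun j w => ind (lab c' = T) + ind (j < u) * nT chi lab k (chi c') j w T)]
    have a1 := av_fac lab hM hI hθ hΓ h1 h2 h3 T hkM (hS hc) hk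
    have a2 := av_fac lab hM hI hθ hΓ h1 h2 h3 T hkM (hS (mem_of_mem_erase hc')) hk
    refine (mul_le_mul a1 a2 ?_ ?_).trans (le_of_eq (by ring))
    · exact mul_nonneg (inv_nonneg.2 (Nat.cast_nonneg _)) (sum_nonneg fun j _ => av_nonneg fun w =>
        add_nonneg (ind_nonneg _) (mul_nonneg (ind_nonneg _) (nT_nonneg _ _ _ _ _ _ _)))
    · exact mul_nonneg (by linarith) (VV_nonneg chi lab hθ.le _ _ _)

include hM hI hθ hΓ h1 h2 h3 in
theorem av_col (k : ℕ) (hkM : k ≤ M) : ∀ c₀ ∈ I, ∀ u ≤ k,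
    av (fun w : Nd C k → Fin M => col chi lab k (chi c₀) u w) ≤
      φ u * (Γ ^ 2 * Col chi lab θ M k (chi c₀)) := by
  haveI : Nonempty (Fin M) := ⟨⟨0, hM⟩⟩
  induction k with
  | zero =>
    intro c₀ _ u _
    simp only [col, nT_zero, zero_mul, sum_const_zero, av_const, Col, mul_zero, le_refl]
  | succ k ih =>
    intro c₀ hc₀ u hu
    exact av_col_step lab hM hI hθ hΓ h1 h2 h3 hkM (ih (by omega)) (hI c₀ hc₀) hu
      (h1 u (by omega)) (h3 u (by omega) c₀ hc₀)

end main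

end CollA

theorem coll_le (hM : 0 < M) (I : Finset C) (hI : ∀ c ∈ I, chi c ⊆ I) {S : Finset C} (hS : S ⊆ I)
    (ρ : ℕ → ℝ) (hρ0 : ∀ j, 0 ≤ ρ j)
    (hρ : ∀ c ∈ I, ∀ c' ∈ chi c, ∀ j < M, ∏ c'' ∈ (chi c).erase c', (1 - RR chi M j c'') ≤ ρ j)
    {θ Γ : ℝ} (hθ : 0 < θ) (hθ1 : θ ≤ 1)
    (hΓ : Real.exp ((θ * M)⁻¹ * ∑ j ∈ range M, ρ j) ≤ θ * Γ) :
    av (fun w : Nd C M → Fin M => ind (¬ Set.InjOn (labN lab M) {i | Qd chi M S M w i})) ≤
      Γ ^ 3 * Col chi lab θ M M S := by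
  have hM' : (0 : ℝ) < M := by exact_mod_cast hM
  have ht : 0 ≤ (θ * M)⁻¹ := by positivity
  let φ : ℕ → ℝ := fun u => Real.exp ((θ * M)⁻¹ * ∑ j ∈ range u, ρ j)
  have h1 : ∀ u, 1 ≤ φ u := fun u =>
    Real.one_le_exp (mul_nonneg ht (sum_nonneg fun j _ => hρ0 j))
  have h2 : ∀ u ≤ M, φ u ≤ θ * Γ := fun u hu =>
    (Real.exp_le_exp.2 (mul_le_mul_of_nonneg_left
      (sum_le_sum_of_subset_of_nonneg (range_subset_range.2 hu) fun j _ _ => hρ0 j) ht)).trans hΓ
  have hΓ1 : 1 ≤ Γ := by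
    have := (h1 M).trans (h2 M le_rfl)
    by_contra hn
    push Not at hn
    nlinarith
  have h4 : ∀ u, (M : ℝ)⁻¹ * ∑ j ∈ range u, ρ j * φ j ≤ θ * φ u := by
    intro u
    induction u with
    | zero => simp only [range_zero, sum_empty, mul_zero]; exact mul_nonneg hθ.le (by linarith [h1 0])
    | succ u ih =>
      have e : φ (u + 1) = φ u * Real.exp ((θ * M)⁻¹ * ρ u) := by
        simp only [φ]
        rw [sum_range_succ, mul_add, Real.exp_add]
      have a1 := Real.add_one_le_exp ((θ * M)⁻¹ * ρ u)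
      have a2 : θ * (φ u * ((θ * M)⁻¹ * ρ u + 1)) = (M : ℝ)⁻¹ * (ρ u * φ u) + θ * φ u := by
        field_simp
      have a3 : θ * (φ u * ((θ * M)⁻¹ * ρ u + 1)) ≤ θ * (φ u * Real.exp ((θ * M)⁻¹ * ρ u)) :=
        mul_le_mul_of_nonneg_left (mul_le_mul_of_nonneg_left a1 (by linarith [h1 u])) hθ.le
      rw [sum_range_succ, mul_add, e]
      linarith
  have h3 : ∀ u ≤ M, ∀ c₀ ∈ I, ∀ c ∈ chi c₀, (M : ℝ)⁻¹ *
      ∑ j ∈ range u, (∏ c' ∈ (chi c₀).erase c, (1 - RR chi M j c')) * φ j ≤ θ * φ u := by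
    intro u hu c₀ hc₀ c hc
    refine le_trans (mul_le_mul_of_nonneg_left (sum_le_sum fun j hj => ?_) (by positivity)) (h4 u)
    have := mem_range.1 hj
    exact mul_le_mul_of_nonneg_right (hρ c₀ hc₀ c hc j (by omega)) (by linarith [h1 j])
  refine (av_mono fun w => CollA.ind_le_col chi lab M S M w).trans ?_
  obtain ⟨k, rfl⟩ : ∃ k, M = k + 1 := ⟨M - 1, by omega⟩
  have := CollA.av_col_step lab hM hI hθ hΓ1 (fun u _ => h1 u) h2 h3 le_rfl
    (CollA.av_col lab hM hI hθ hΓ1 (fun u _ => h1 u) h2 h3 k (by omega)) hS le_rfl hΓ1 (by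
      intro c _
      rw [inv_mul_le_iff₀ hM']
      refine (sum_le_sum (g := fun _ => θ * Γ) fun j hj => ?_).trans (le_of_eq ?_)
      · have hj' := mem_range.1 hj
        refine le_trans (mul_le_of_le_one_left (by linarith [h1 j]) ?_) (h2 j hj'.le)
        exact prod_le_one (fun c' _ => sub_nonneg.2 (RR_mem chi hj'.le c').2)
          fun c' _ => by linarith [(RR_mem chi hj'.le c').1]
      · rw [sum_const, card_range, nsmul_eq_mul])
  refine this.trans (le_of_eq ?_)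
  ring

end Crest.Agent.R30
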