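import Crest.Agent.R30.Proc
import Crest.Agent.R30.Grid

/-!
# R30 Surv: survival of a fixed set of edges; discrepancy (task R30-Surv)

PLAN (aux in `namespace SurvA`).  Both by `EE_super` with `f = 1`, `Act = P.Good`.
`surv`: `ψ i E = ind (F ⊆ E) exp (-(1 - 3δ) |F| ∑_{i ≤ l < j} tt l)`; by `touch` with `c = (1 - δ) y`,
`|F| ≤ δ D ≤ δ y` and `Good.Q` the probability to hit `F` is `≥ tt |F| (1 - 2δ)/(1 + δ) ≥ tt |F| (1 - 3δ)`;
finish with `decay`.
`disc_tail`: `ψ i E = exp (θ i * eST E S T)`, `θ i = δ exp (-(1 - 11δ) ∑_{i ≤ l < j} tt l)`; for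
`0 ≤ k ≤ 9`, `θ ≤ δ`: `exp (-θ k) ≤ 1 - θ k + θ² k² ≤ 1 - θ k (1 - 9 δ)`, the average of `k` is
`≥ eST · tt (1 - 2δ)` (`sum_eST`, `Good.Q`); `θ 0 ≤ δ (1 + δ') pp j` by `decay`, `eST ≤ |S| |T|`; Markov:
`ind (c < X) ≤ exp (δ (X - c))`, `δ κ = z`.
-/

set_option autoImplicit false

namespace Crest.Agent.R30

open Finset Crest.CombinatoricsR.TriangleRemoval

namespace SurvA

theorem δ_pos (P : Par) : 0 < P.δ := by have := P.z_pos; unfold Par.δ; positivity

theorem δ_le (P : Par) : P.δ ≤ 1 / 1000 := by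
  have h := P.z_ge
  unfold Par.δ
  rw [one_div]
  exact inv_anti₀ (by norm_num) (h.trans (le_self_pow₀ (by linarith) (by norm_num)))

theorem sum_Ico_split (f : ℕ → ℝ) {i j : ℕ} (h : i < j) :
    ∑ l ∈ Ico i j, f l = f i + ∑ l ∈ Ico (i + 1) j, f l := sum_eq_sum_Ico_succ_bot h f

theorem exp_neg_le {a : ℝ} (h : 0 ≤ a) : Real.exp (-a) ≤ 1 - a + a ^ 2 := by
  have h1 := Real.add_one_le_exp a
  have h2 : Real.exp (-a) * Real.exp a = 1 := by rw [← Real.exp_add]; simp
  have h3 := Real.exp_pos (-a)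
  have h4 : Real.exp (-a) * (a + 1) ≤ 1 := by nlinarith
  by_contra hc
  push Not at hc
  have h5 : (1 - a + a ^ 2) * (a + 1) < Real.exp (-a) * (a + 1) :=
    mul_lt_mul_of_pos_right hc (by linarith)
  nlinarith [pow_nonneg h 3]

variable {P : Par} {i : ℕ} {E : St P.n}

theorem Q_pos (h : P.Good i E) (hi : i ≤ P.m) : (0 : ℝ) < (triangles E).card := by
  exact_mod_cast Nat.pos_of_ne_zero (h.Q_ne hi)

theorem y_pos (hi : i ≤ P.m) : 0 < yy P.n i := by
  have := P.z_pos
  exact lt_of_lt_of_le (by unfold Par.D; positivity) (Par.D_le_yy hi)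

theorem step_surv (h : P.Good i E) (hi : i ≤ P.m) {F : St P.n} (hF : (F.card : ℝ) ≤ P.δ * P.D)
    (hFE : F ⊆ E) :
    stepAvg E (fun E' => ind (F ⊆ E')) ≤ 1 - (1 - 3 * P.δ) * F.card * tt P.n i := by
  classical
  have hQ := Q_pos h hi
  have hy := y_pos hi
  have hδ := δ_pos P
  have hδ1 := δ_le P
  have h1 := touch h.sub hFE (c := (1 - P.δ) * yy P.n i) fun u v huv => by
    have := (abs_le.1 (h.cod u v (hFE huv))).1
    linarith
  have h2 := h.Q hi
  have h3 := (abs_le.1 (h.abar_le hi)).2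
  have h4 : (F.card : ℝ) ≤ P.δ * yy P.n i := hF.trans (mul_le_mul_of_nonneg_left (Par.D_le_yy hi) hδ.le)
  have h5 : (0 : ℝ) ≤ F.card := Nat.cast_nonneg _
  unfold stepAvg
  rw [if_neg (h.Q_ne hi), sum_ind, inv_mul_le_iff₀ hQ]
  have h6 : (((triangles E).filter fun t => F ⊆ E \ t.sym2).card : ℝ) +
      ((triangles E).filter fun t => ¬ F ⊆ E \ t.sym2).card = (triangles E).card := by
    exact_mod_cast card_filter_add_card_filter_not _
  have h7 : (1 - 3 * P.δ) * (yy P.n i * (1 + P.abar i E)) ≤ (1 - P.δ) * yy P.n i - F.card := by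
    have : (1 - 3 * P.δ) * (1 + P.abar i E) ≤ 1 - 2 * P.δ := by nlinarith
    nlinarith
  have h8 := mul_le_mul_of_nonneg_left h7 h5
  have h9 : ((triangles E).card : ℝ) * (1 - (1 - 3 * P.δ) * F.card * tt P.n i) =
      (triangles E).card - F.card * ((1 - 3 * P.δ) * ((triangles E).card * tt P.n i)) := by ring
  rw [h9, h2]
  linarith

theorem step_k (h : P.Good i E) (hi : i ≤ P.m) (S T : Finset (Fin P.n)) :
    eST E S T * tt P.n i * (1 - 2 * P.δ) ≤ stepAvg E (fun E' => eST E S T - eST E' S T) := by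
  have hQ := Q_pos h hi
  have hy := y_pos hi
  have hδ := δ_pos P
  have hδ1 := δ_le P
  have h2 := h.Q hi
  have h3 := (abs_le.1 (h.abar_le hi)).2
  unfold stepAvg
  rw [if_neg (h.Q_ne hi), sum_eST h.sub, le_inv_mul_iff₀ hQ]
  have h4 : eST E S T * ((1 - P.δ) * yy P.n i) ≤
      ∑ q ∈ (S ×ˢ T).filter (fun q => s(q.1, q.2) ∈ E), cod E q.1 q.2 := by
    rw [eST, ← nsmul_eq_mul]
    refine card_nsmul_le_sum _ _ _ fun q hq => ?_
    have := (abs_le.1 (h.cod _ _ (mem_filter.1 hq).2)).1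
    linarith
  refine le_trans ?_ h4
  have h5 : 0 ≤ eST E S T := Nat.cast_nonneg _
  have h9 : ((triangles E).card : ℝ) * (eST E S T * tt P.n i * (1 - 2 * P.δ)) =
      eST E S T * ((1 - 2 * P.δ) * ((triangles E).card * tt P.n i)) := by ring
  rw [h9, h2]
  refine mul_le_mul_of_nonneg_left ?_ h5
  have : (1 - 2 * P.δ) * (1 + P.abar i E) ≤ 1 - P.δ := by nlinarith
  nlinarith

theorem step_disc (h : P.Good i E) (hi : i ≤ P.m) (S T : Finset (Fin P.n)) {θ : ℝ} (h0 : 0 ≤ θ)
    (h1 : θ ≤ P.δ) :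
    stepAvg E (fun E' => Real.exp (θ * eST E' S T)) ≤
      Real.exp (θ * Real.exp (-((1 - 11 * P.δ) * tt P.n i)) * eST E S T) := by
  have hδ := δ_pos P
  have hδ1 := δ_le P
  have ht := Par.tt_pos hi
  have h5 : 0 ≤ eST E S T := Nat.cast_nonneg _
  have e0 := Real.exp_pos (θ * eST E S T)
  have h2 : stepAvg E (fun E' => Real.exp (θ * eST E' S T)) ≤
      stepAvg E (fun E' => Real.exp (θ * eST E S T) +
        (-(Real.exp (θ * eST E S T) * (θ * (1 - 9 * P.δ)))) * (eST E S T - eST E' S T)) := by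
    refine stepAvg_mono E fun E' hE' => ?_
    obtain ⟨k0, k1⟩ := step_eST hE' S T
    set k := eST E S T - eST E' S T with hk
    have e1 : θ * eST E' S T = θ * eST E S T + -(θ * k) := by rw [hk]; ring
    have e2 := exp_neg_le (mul_nonneg h0 k0)
    have e3 : (θ * k) ^ 2 ≤ θ * k * (9 * P.δ) := by
      rw [sq]
      refine mul_le_mul_of_nonneg_left ?_ (mul_nonneg h0 k0)
      nlinarith
    rw [e1, Real.exp_add]
    have : Real.exp (-(θ * k)) ≤ 1 - θ * (1 - 9 * P.δ) * k := by linarith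
    nlinarith
  rw [stepAvg_add, stepAvg_const, stepAvg_const_mul] at h2
  refine h2.trans ?_
  have h3 := step_k h hi S T
  have h4 : θ * ((1 - 11 * P.δ) * tt P.n i) * eST E S T ≤
      θ * (1 - 9 * P.δ) * stepAvg E (fun E' => eST E S T - eST E' S T) := by
    refine le_trans ?_ (mul_le_mul_of_nonneg_left h3 (mul_nonneg h0 (by linarith)))
    have k1 : 0 ≤ θ * tt P.n i * eST E S T := by positivity
    have k2 : 1 - 11 * P.δ ≤ (1 - 9 * P.δ) * (1 - 2 * P.δ) := by nlinarith
    nlinarith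
  have h6 := Real.add_one_le_exp (-(θ * ((1 - 11 * P.δ) * tt P.n i) * eST E S T))
  have h7 := Real.add_one_le_exp (-((1 - 11 * P.δ) * tt P.n i))
  calc _ ≤ Real.exp (θ * eST E S T) * Real.exp (-(θ * ((1 - 11 * P.δ) * tt P.n i) * eST E S T)) := by
        nlinarith
    _ ≤ _ := by
        rw [← Real.exp_add, Real.exp_le_exp]
        nlinarith [mul_nonneg h0 h5]

end SurvA
open SurvA

theorem surv (P : Par) {j : ℕ} (hj : j ≤ P.m) (F : St P.n) (hF : (F.card : ℝ) ≤ P.δ * P.D) :
    EE P.n P.m (fun x => ind (P.GoodTo x j) * ind (F ⊆ x j)) ≤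
      ((1 + P.δ') * pp P.n j) ^ F.card := by
  have hδ := δ_pos P
  have hδ1 := δ_le P
  have key := EE_super hj P.Good (fun _ _ _ => 1) (fun i E => ind (F ⊆ E) *
    Real.exp (-((1 - 3 * P.δ) * F.card * ∑ l ∈ Ico i j, tt P.n l))) (fun _ _ _ => zero_le_one)
    (fun _ _ => mul_nonneg (ind_nonneg _) (Real.exp_pos _).le) fun i hi E hE => by
      simp only [one_mul]
      by_cases hFE : F ⊆ E
      · simp only [mul_comm (ind _)]
        rw [stepAvg_const_mul, ind_pos hFE, mul_one, sum_Ico_split _ hi, mul_add, neg_add,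
          Real.exp_add, mul_comm (Real.exp (-(_ * tt P.n i)))]
        refine mul_le_mul_of_nonneg_left ((step_surv hE (by omega) hF hFE).trans ?_)
          (Real.exp_pos _).le
        linarith [Real.add_one_le_exp (-((1 - 3 * P.δ) * F.card * tt P.n i))]
      · rw [ind_neg hFE, zero_mul, ← stepAvg_const E 0]
        exact stepAvg_mono E fun E' hE' => by
          rw [ind_neg fun h => hFE (h.trans hE'.subset), zero_mul]
  simp only [prod_const_one, mul_one, Ico_self, sum_empty, mul_zero, neg_zero, Real.exp_zero] at key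
  refine key.trans ?_
  have h1 := Par.decay hj (s := 3 * P.δ) (by linarith) (by linarith)
  refine (mul_le_of_le_one_left (Real.exp_pos _).le (ind_le_one _)).trans ?_
  refine le_trans (le_of_eq ?_) (pow_le_pow_left₀ (Real.exp_pos _).le h1 F.card)
  rw [← Real.exp_nat_mul, range_eq_Ico]
  congr 1
  ring

theorem disc_tail (P : Par) {j : ℕ} (hj : j ≤ P.m) (S T : Finset (Fin P.n)) :
    EE P.n P.m (fun x => ind (P.GoodTo x j ∧
      (1 + P.δ') * pp P.n j * S.card * T.card + P.κ * (S.card + T.card) < eST (x j) S T)) ≤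
      Real.exp (-P.z) ^ (S.card + T.card) := by
  have hδ := δ_pos P
  have hδ1 := δ_le P
  have key := EE_super hj P.Good (fun _ _ _ => 1) (fun i E => Real.exp (P.δ *
    Real.exp (-((1 - 11 * P.δ) * ∑ l ∈ Ico i j, tt P.n l)) * eST E S T)) (fun _ _ _ => zero_le_one)
    (fun _ _ => (Real.exp_pos _).le) fun i hi E hE => by
      simp only [one_mul]
      refine (step_disc hE (by omega) S T (by positivity) ?_).trans (le_of_eq ?_)
      · refine mul_le_of_le_one_right hδ.le (Real.exp_le_one_iff.2 ?_)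
        have : 0 ≤ ∑ l ∈ Ico (i + 1) j, tt P.n l :=
          sum_nonneg fun l hl => (Par.tt_pos (by have := (mem_Ico.1 hl).2; omega)).le
        nlinarith
      · rw [sum_Ico_split _ hi, mul_assoc P.δ, ← Real.exp_add]
        congr 4
        ring
  simp only [prod_const_one, mul_one, Ico_self, sum_empty, mul_zero, neg_zero, Real.exp_zero] at key
  set c := (1 + P.δ') * pp P.n j * S.card * T.card + P.κ * (S.card + T.card) with hc
  have h1 : EE P.n P.m (fun x => ind (P.GoodTo x j ∧ c < eST (x j) S T)) ≤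
      EE P.n P.m (fun x => Real.exp (-(P.δ * c)) *
        (ind (∀ i < j, P.Good i (x i)) * Real.exp (P.δ * eST (x j) S T))) := by
    refine EE_mono _ fun x _ => ?_
    by_cases h : P.GoodTo x j ∧ c < eST (x j) S T
    · rw [ind_pos h, ind_pos (p := ∀ i < j, P.Good i (x i)) h.1, one_mul, ← Real.exp_add]
      refine Real.one_le_exp ?_
      nlinarith [h.2]
    · rw [ind_neg h]
      exact mul_nonneg (Real.exp_pos _).le (mul_nonneg (ind_nonneg _) (Real.exp_pos _).le)
  rw [EE_const_mul] at h1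
  refine h1.trans ((mul_le_mul_of_nonneg_left key (Real.exp_pos _).le).trans ?_)
  rw [← Real.exp_add, ← Real.exp_nat_mul, Real.exp_le_exp, ← range_eq_Ico]
  have h2 := Par.decay hj (s := 11 * P.δ) (by linarith) (by linarith)
  have h3 : eST (allEdges P.n) S T ≤ S.card * T.card := by
    unfold eST
    exact_mod_cast (card_filter_le _ _).trans (card_product S T).le
  have h4 : P.δ * P.κ = P.z := by
    have := P.z_pos
    unfold Par.δ Par.κ
    field_simp
  have h5 : Real.exp (-((1 - 11 * P.δ) * ∑ l ∈ range j, tt P.n l)) * eST (allEdges P.n) S T ≤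
      (1 + P.δ') * pp P.n j * (S.card * T.card) :=
    mul_le_mul h2 h3 (Nat.cast_nonneg _) ((Real.exp_pos _).le.trans h2)
  have h6 := mul_le_mul_of_nonneg_left h5 hδ.le
  have h7 : P.δ * c = P.δ * ((1 + P.δ') * pp P.n j * (S.card * T.card)) +
      P.z * (S.card + T.card) := by rw [hc, ← h4]; ring
  push_cast
  nlinarith

end Crest.Agent.R30
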