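import Crest.Agent.R30.CycA
import Crest.Agent.R30.Surv
import Crest.Agent.R30.ColSum

/-!
# R30 Cyc: expected weighted number of cycles (task R30-Cyc)

PLAN (aux in `namespace CycC`).  `PW 0 L c Ψ = Ψ L c`, `PW (a+1) L c Ψ = ∑_{c' ∈ chK c} PW a (insert c'.2 L) c' Ψ`
is linear in `Ψ`, and monotone for inequalities on `Reach`able pairs.
(1) for `G ⊆ allEdges n`: `chH (triangles G) edT c = (chK c).filter (edT ·.2 ⊆ G)`, so
`ind (FL L ⊆ G) ∑_T Nw a c T ψ T = PW a L c (fun L' d => ind (FL L' ⊆ G) ψ d.2)`.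
(2) if `c ∈ InK`, `c.2 ∈ L`, `|UL L| + a ≤ u` and `Ψ L' d ≤ B q ^ (2 |UL L'|)` on reachable pairs, then
`PW a L c Ψ ≤ Λ ^ a B q ^ (2 |UL L|)` for `Λ ≥ 2 (n q² + u)`: at most `2 n` children, at most `2 |UL L|` of them
with `c'.2 ⊆ UL L`, the others add exactly one vertex.
Let `𝒫 Ψ = ∑_{a,b ≤ R} θ^(a+b) ∑_{c ∈ InK} ∑_{c₂ ≠ c, c₂.1 = c.1} PW a {c.2} c (fun L₁ d₁ => PW b (insert c₂.2 L₁) c₂
(fun L₂ d₂ => ind (d₂.2 = d₁.2) Ψ (FL L₂)))` and `wt F = 𝒫 (fun F' => ind (F' = F))`.  Then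
`Xs = 𝒫 (ind (· ⊆ G))`, and `q² 𝒫 (q ^ |·|) ≤ 4 |InK| Λ q⁶` by `cyc_gain`, `|InK| ≤ n³`.
`cyc_exp`: `surv` with `q = (1 + δ') pp m`, `Λ = 8 D`, `n q² ≤ 2 D`, `n³ p⁴ = n D²`.
-/

set_option autoImplicit false

namespace Crest.Agent.R30

open Finset Crest.CombinatoricsR.TriangleRemoval

namespace CycC

variable {n : ℕ}

abbrev Ic (n : ℕ) := Sym2 (Fin n) × Finset (Fin n)

abbrev Lb (n : ℕ) := Finset (Finset (Fin n))

/-- sum over walks in the complete graph -/
noncomputable def PW : ℕ → Lb n → Ic n → (Lb n → Ic n → ℝ) → ℝ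
  | 0, L, c, Ψ => Ψ L c
  | a + 1, L, c, Ψ => ∑ c' ∈ chK n c, PW a (insert c'.2 L) c' Ψ

theorem PW_mono (a : ℕ) (L : Lb n) (c : Ic n) {Ψ Ψ' : Lb n → Ic n → ℝ}
    (h : ∀ L' d, Reach a L c L' d → Ψ L' d ≤ Ψ' L' d) : PW a L c Ψ ≤ PW a L c Ψ' := by
  induction a generalizing L c with
  | zero => exact h L c (Reach.refl L c)
  | succ a ih => exact sum_le_sum fun c' hc' => ih _ _ fun L' d r => h L' d (Reach.step hc' r)

theorem PW_sum {ι : Type} (s : Finset ι) (w : ι → ℝ) (a : ℕ) (L : Lb n) (c : Ic n)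
    (Ψ : ι → Lb n → Ic n → ℝ) :
    PW a L c (fun L' d => ∑ i ∈ s, w i * Ψ i L' d) = ∑ i ∈ s, w i * PW a L c (Ψ i) := by
  induction a generalizing L c with
  | zero => rfl
  | succ a ih =>
    simp only [PW, ih, mul_sum]
    exact sum_comm

theorem PW_zero (a : ℕ) (L : Lb n) (c : Ic n) : PW a L c (fun _ _ => 0) = 0 := by
  simpa using PW_sum (∅ : Finset Unit) (fun _ => 0) a L c (fun _ _ _ => 0)

theorem PW_mul (w : ℝ) (a : ℕ) (L : Lb n) (c : Ic n) (Ψ : Lb n → Ic n → ℝ) :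
    PW a L c (fun L' d => w * Ψ L' d) = w * PW a L c Ψ := by
  simpa using PW_sum ({()} : Finset Unit) (fun _ => w) a L c (fun _ => Ψ)

theorem mem_triK {t : Finset (Fin n)} : t ∈ triangles (allEdges n) ↔ t.card = 3 := by
  refine mem_tri.trans ⟨fun h => h.1, fun h => ⟨h, fun e he => ?_⟩⟩
  simp only [edT, mem_filter] at he
  simp [allEdges, he.2]

theorem mem_triG {G : St n} {t : Finset (Fin n)} :
    t ∈ triangles G ↔ t ∈ triangles (allEdges n) ∧ edT t ⊆ G := by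
  rw [mem_triK, mem_tri]

theorem FL_insert (T : Finset (Fin n)) (L : Lb n) : FL (insert T L) = edT T ∪ FL L := by
  simp [FL]

theorem UL_insert (T : Finset (Fin n)) (L : Lb n) : UL (insert T L) = T ∪ UL L := by
  simp [UL]

theorem ind_insert (G : St n) (T : Finset (Fin n)) (L : Lb n) :
    ind (FL (insert T L) ⊆ G) = ind (edT T ⊆ G) * ind (FL L ⊆ G) := by
  rw [FL_insert, ← ind_and, union_subset_iff]

theorem sum_filter_ind {ι : Type} (s : Finset ι) (p : ι → Prop) [DecidablePred p] (f : ι → ℝ) :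
    ∑ i ∈ s.filter p, f i = ∑ i ∈ s, ind (p i) * f i := by
  rw [sum_filter]
  refine sum_congr rfl fun i _ => ?_
  rw [ind_eq_ite]
  split_ifs <;> simp

theorem chG (G : St n) (c : Ic n) :
    chH (triangles G) edT c = (chK n c).filter fun c' => edT c'.2 ⊆ G := by
  ext c'
  simp only [chH, Inc, mem_filter, mem_univ, true_and, mem_triG (G := G)]
  tauto

theorem incG (G : St n) : Inc (triangles G) edT = (InK n).filter fun c => edT c.2 ⊆ G := by
  ext c'
  simp only [Inc, mem_filter, mem_univ, true_and, mem_triG (G := G)]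
  tauto

theorem Nw_eq (G : St n) (ψ : Finset (Fin n) → ℝ) (a : ℕ) (L : Lb n) (c : Ic n) :
    ind (FL L ⊆ G) * ∑ T, Nw (chH (triangles G) edT) Prod.snd a c T * ψ T =
      PW a L c fun L' d => ind (FL L' ⊆ G) * ψ d.2 := by
  induction a generalizing L c with
  | zero =>
    simp only [Nw, PW, ind_eq_ite (c.2 = _), ite_mul, one_mul, zero_mul, sum_ite_eq, mem_univ,
      if_true]
  | succ a ih =>
    simp only [Nw, PW, ← ih, sum_mul]
    rw [sum_comm, chG, sum_filter_ind, mul_sum]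
    refine sum_congr rfl fun c' _ => ?_
    rw [ind_insert]
    ring

theorem third {T : Finset (Fin n)} (hT : T.card = 3) {u v : Fin n} (h : s(u, v) ∈ edT T) :
    ∃ w, T = {w, u, v} := by
  obtain ⟨hu, hv, huv⟩ := mem_edT.1 h
  have h1 : (T \ {u, v}).card = 1 := by
    rw [card_sdiff_of_subset (by simp [insert_subset_iff, hu, hv]), hT, card_pair huv]
  obtain ⟨w, hw⟩ := card_eq_one.1 h1
  refine ⟨w, ?_⟩
  rw [← sdiff_union_of_subset (show {u, v} ⊆ T by simp [insert_subset_iff, hu, hv]), hw]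
  rfl

/-- weight of the triples through a given pair -/
theorem wt_point {q : ℝ} (hq0 : 0 ≤ q) (g : Sym2 (Fin n)) (U : Finset (Fin n))
    (hU : ∀ x ∈ g, x ∈ U) :
    ∑ T ∈ (triangles (allEdges n)).filter (fun T => g ∈ edT T), q ^ (2 * (T ∪ U).card) ≤
      (n * q ^ 2 + U.card) * q ^ (2 * U.card) := by
  induction g using Sym2.ind with
  | _ u v =>
    have hu : u ∈ U := hU u (by simp)
    have hv : v ∈ U := hU v (by simp)
    have h1 : (triangles (allEdges n)).filter (fun T => s(u, v) ∈ edT T) ⊆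
        univ.image fun w => ({w, u, v} : Finset (Fin n)) := by
      intro T hT
      obtain ⟨w, rfl⟩ := third (mem_triK.1 (mem_filter.1 hT).1) (mem_filter.1 hT).2
      exact mem_image_of_mem _ (mem_univ w)
    refine (sum_le_sum_of_subset_of_nonneg h1 fun _ _ _ => by positivity).trans ?_
    refine (sum_image_le_of_nonneg fun _ _ => by positivity).trans ?_
    have h2 : ∀ w : Fin n, q ^ (2 * (({w, u, v} : Finset (Fin n)) ∪ U).card) ≤
        (q ^ 2 + ind (w ∈ U)) * q ^ (2 * U.card) := by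
      intro w
      have e : ({w, u, v} : Finset (Fin n)) ∪ U = insert w U := by
        rw [insert_union, insert_union, singleton_union, insert_eq_of_mem hv, insert_eq_of_mem hu]
      rw [e]
      by_cases hw : w ∈ U
      · rw [insert_eq_of_mem hw, ind_pos hw]
        exact le_mul_of_one_le_left (by positivity) (by nlinarith [sq_nonneg q])
      · rw [card_insert_of_notMem hw, ind_neg hw, add_zero, mul_add, pow_add, mul_one, mul_comm]
    refine (sum_le_sum fun w _ => h2 w).trans_eq ?_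
    rw [← sum_mul, sum_add_distrib, sum_ind]
    simp

theorem sub_UL {L : Lb n} {T : Finset (Fin n)} (h : T ∈ L) : T ⊆ UL L :=
  subset_biUnion_of_mem id h

theorem mem_of_edT {T : Finset (Fin n)} {g : Sym2 (Fin n)} (h : g ∈ edT T) : ∀ x ∈ g, x ∈ T :=
  mem_sym2_iff.1 (mem_filter.1 h).1

theorem card_union_le {c : Ic n} (hc : c ∈ InK n) {U : Finset (Fin n)} (hU : ∀ x ∈ c.1, x ∈ U) :
    (c.2 ∪ U).card ≤ U.card + 1 := by
  obtain ⟨g, T⟩ := c
  simp only [Inc, mem_filter, mem_univ, true_and] at hc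
  induction g using Sym2.ind with
  | _ u v =>
    obtain ⟨w, rfl⟩ := third (mem_triK.1 hc.1) hc.2
    have hu : u ∈ U := hU u (by simp)
    have hv : v ∈ U := hU v (by simp)
    simp only
    rw [insert_union, insert_union, singleton_union, insert_eq_of_mem hv, insert_eq_of_mem hu]
    exact card_insert_le _ _

theorem wt_ch {q : ℝ} (hq0 : 0 ≤ q) {c : Ic n} (hc : c ∈ InK n) {U : Finset (Fin n)}
    (hU : c.2 ⊆ U) : ∑ c' ∈ chK n c, q ^ (2 * (c'.2 ∪ U).card) ≤
      2 * (n * q ^ 2 + U.card) * q ^ (2 * U.card) := by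
  simp only [Inc, mem_filter, mem_univ, true_and] at hc
  rw [sum_finset_product (chK n c) ((edT c.2).erase c.1)
    (fun g => ((triangles (allEdges n)).filter fun T => g ∈ edT T).erase c.2) (by
      intro c'
      simp only [chH, Inc, mem_filter, mem_univ, true_and, mem_erase]
      tauto)]
  refine (sum_le_card_nsmul _ _ ((n * q ^ 2 + U.card) * q ^ (2 * U.card)) fun g hg => ?_).trans ?_
  · refine le_trans (sum_le_sum_of_subset_of_nonneg (erase_subset _ _) fun _ _ _ => by positivity)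
      (wt_point hq0 g U fun x hx => hU (mem_of_edT (mem_of_mem_erase hg) x hx))
  · rw [card_erase_of_mem hc.2, card_edT (mem_triK.1 hc.1)]
    simp [mul_assoc]

theorem PW_le {q B Λ : ℝ} {u : ℕ} (hq0 : 0 ≤ q) (hB : 0 ≤ B) (hΛ : 2 * (n * q ^ 2 + u) ≤ Λ)
    (Ψ : Lb n → Ic n → ℝ) (a : ℕ) (L : Lb n) (c : Ic n) (hc : c ∈ InK n) (hL : c.2 ∈ L)
    (hu : (UL L).card + a ≤ u)
    (h : ∀ L' d, Reach a L c L' d → Ψ L' d ≤ B * q ^ (2 * (UL L').card)) :
    PW a L c Ψ ≤ Λ ^ a * (B * q ^ (2 * (UL L).card)) := by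
  have hΛ0 : 0 ≤ Λ := le_trans (by positivity) hΛ
  induction a generalizing L c with
  | zero => simpa [PW] using h L c (Reach.refl L c)
  | succ a ih =>
    have h1 : ∀ c' ∈ chK n c, PW a (insert c'.2 L) c' Ψ ≤
        Λ ^ a * B * q ^ (2 * (c'.2 ∪ UL L).card) := by
      intro c' hc'
      have h2 := mem_filter.1 hc'
      rw [mul_assoc, ← UL_insert]
      refine ih _ _ h2.1 (mem_insert_self _ _) ?_ fun L' d r => h L' d (Reach.step hc' r)
      have := card_union_le h2.1 (U := UL L) fun x hx => sub_UL hL (mem_of_edT h2.2.1 x hx)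
      rw [UL_insert]
      omega
    refine (sum_le_sum h1).trans ?_
    rw [← mul_sum]
    refine (mul_le_mul_of_nonneg_left (wt_ch hq0 hc (sub_UL hL)) (by positivity)).trans ?_
    have h3 : ((UL L).card : ℝ) ≤ u := by exact_mod_cast (by omega : (UL L).card ≤ u)
    have h4 : 2 * (n * q ^ 2 + (UL L).card) ≤ Λ := by linarith
    calc Λ ^ a * B * (2 * (n * q ^ 2 + (UL L).card) * q ^ (2 * (UL L).card))
        ≤ Λ ^ a * B * (Λ * q ^ (2 * (UL L).card)) := by gcongr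
      _ = _ := by ring

theorem reach_UL {a : ℕ} {L L' : Lb n} {c d : Ic n} (r : Reach a L c L' d) (hL : c.2 ∈ L) :
    (UL L').card ≤ (UL L).card + a ∧ L ⊆ L' := by
  induction r with
  | refl L c => simp
  | @step a L c c' L' d hc' _ ih =>
    have h2 := mem_filter.1 hc'
    have h3 := card_union_le h2.1 (U := UL L) fun x hx => sub_UL hL (mem_of_edT h2.2.1 x hx)
    have h4 := ih (mem_insert_self _ _)
    rw [UL_insert] at h4
    exact ⟨by omega, (subset_insert _ _).trans h4.2⟩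

/-- siblings in the complete graph -/
noncomputable abbrev sib (c : Ic n) : Finset (Ic n) := ((InK n).filter fun c' => c'.1 = c.1).erase c

/-- closed pairs of walks -/
noncomputable def P1 (a b : ℕ) (c : Ic n) (Ψ : St n → ℝ) : ℝ :=
  PW a {c.2} c fun L₁ d₁ => ∑ c₂ ∈ sib c, PW b (insert c₂.2 L₁) c₂ fun L₂ d₂ =>
    ind (d₂.2 = d₁.2) * Ψ (FL L₂)

noncomputable def PP (n R : ℕ) (θ : ℝ) (Ψ : St n → ℝ) : ℝ :=
  ∑ c ∈ InK n, ∑ a ∈ range (R + 1), ∑ b ∈ range (R + 1), θ ^ a * θ ^ b * P1 a b c Ψ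

theorem P1_sum (a b : ℕ) (c : Ic n) (φ : St n → ℝ) :
    P1 a b c φ = ∑ F, φ F * P1 a b c (fun F' => ind (F' = F)) := by
  simp only [P1]
  rw [← PW_sum]
  congr 1
  funext L₁ d₁
  simp only [mul_sum]
  rw [sum_comm]
  refine sum_congr rfl fun c₂ _ => ?_
  rw [← PW_sum]
  congr 1
  funext L₂ d₂
  simp only [ind_eq_ite (FL L₂ = _), mul_ite, mul_one, mul_zero, sum_ite_eq, mem_univ, if_true]
  ring

theorem PP_sum (R : ℕ) (θ : ℝ) (φ : St n → ℝ) :
    ∑ F, PP n R θ (fun F' => ind (F' = F)) * φ F = PP n R θ φ := by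
  simp only [PP, sum_mul]
  rw [sum_comm]
  refine sum_congr rfl fun c _ => ?_
  rw [sum_comm]
  refine sum_congr rfl fun a _ => ?_
  rw [sum_comm]
  refine sum_congr rfl fun b _ => ?_
  rw [P1_sum a b c φ, mul_sum]
  exact sum_congr rfl fun F _ => by ring

theorem P1_mono {a b : ℕ} {c : Ic n} (hc : c ∈ InK n) {Ψ Ψ' : St n → ℝ}
    (h : ∀ F : St n, F.card ≤ 3 * (a + b + 2) → Ψ F ≤ Ψ' F) : P1 a b c Ψ ≤ P1 a b c Ψ' := by
  refine PW_mono _ _ _ fun L₁ d₁ r₁ => sum_le_sum fun c₂ hc₂ => PW_mono _ _ _ fun L₂ d₂ r₂ =>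
    mul_le_mul_of_nonneg_left (h _ ?_) (ind_nonneg _)
  have h3 : ∀ c ∈ InK n, c.2.card = 3 := fun c hc => mem_triK.1 (mem_filter.1 hc).2.1
  have h1 := r₁.card_le (by simpa using h3 c hc)
  have h2 := r₂.card_le (by
    intro T hT
    rcases mem_insert.1 hT with rfl | hT
    · exact h3 c₂ (mem_filter.1 (mem_of_mem_erase hc₂)).1
    · exact h1.2 T hT)
  have h4 := card_insert_le c₂.2 L₁
  have h5 : (FL L₂).card ≤ L₂.card * 3 := card_biUnion_le_card_mul _ _ _ fun T hT =>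
    (card_edT (h2.2 T hT)).le
  have h6 := h1.1
  rw [card_singleton] at h6
  omega

theorem P1_zero (a b : ℕ) (c : Ic n) : P1 a b c (fun _ => 0) = 0 := by
  simp [P1, PW_zero]

theorem Xs_eq (G : St n) (R : ℕ) (θ : ℝ) :
    Xs (triangles G) edT θ R = PP n R θ fun F => ind (F ⊆ G) := by
  rw [Xs, PP, incG, sum_filter_ind]
  refine sum_congr rfl fun c _ => ?_
  have e1 : ((filter (fun c : Ic n => edT c.2 ⊆ G) (InK n)).filter fun c' => c'.1 = c.1).erase c =
      (sib c).filter fun c' => edT c'.2 ⊆ G := by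
    ext c'
    simp only [mem_filter, mem_erase]
    tauto
  have e2 : ∀ a b, P1 a b c (fun F => ind (F ⊆ G)) = ind (edT c.2 ⊆ G) *
      ∑ T, Nw (chH (triangles G) edT) Prod.snd a c T * ∑ c₂ ∈ sib c, ind (edT c₂.2 ⊆ G) *
        Nw (chH (triangles G) edT) Prod.snd b c₂ T := by
    intro a b
    have e3 : edT c.2 = FL {c.2} := by simp [FL]
    rw [e3, Nw_eq, P1]
    congr 1
    funext L₁ d₁
    rw [mul_sum]
    refine sum_congr rfl fun c₂ _ => ?_
    have e4 := Nw_eq G (fun T => ind (T = d₁.2)) b (insert c₂.2 L₁) c₂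
    simp only [ind_eq_ite (_ = d₁.2), mul_ite, mul_one, mul_zero, sum_ite_eq', mem_univ,
      if_true] at e4
    simp only [ind_eq_ite (_ = d₁.2), ite_mul, one_mul, zero_mul]
    rw [← e4, ind_insert]
    ring
  rw [e1, sum_filter_ind]
  simp only [e2, XX, VV]
  simp only [sum_mul_sum]
  simp only [mul_sum]
  rw [sum_comm]
  simp only [sum_comm (s := sib c)]
  rw [sum_comm]
  refine sum_congr rfl fun a _ => ?_
  rw [sum_comm]
  refine sum_congr rfl fun b _ => sum_congr rfl fun T _ => sum_congr rfl fun c₂ _ => by ring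

theorem P1_le {q Λ : ℝ} {R a b : ℕ} (ha : a ≤ R) (hb : b ≤ R) (hq : 0 < q) (hq1 : q ≤ 1)
    (hΛ : 2 * (n * q ^ 2 + (2 * R + 4)) ≤ Λ) {c : Ic n} (hc : c ∈ InK n) :
    P1 a b c (fun F => q ^ F.card) ≤ Λ ^ a * Λ ^ b * (Λ * q ^ 4) := by
  have hΛ' : 2 * (n * q ^ 2 + ((2 * R + 4 : ℕ) : ℝ)) ≤ Λ := by exact_mod_cast hΛ
  have hΛ0 : 0 ≤ Λ := le_trans (by positivity) hΛ
  have hc' := (mem_filter.1 hc).2
  have hU : (UL {c.2}).card = 3 := by simpa [UL] using mem_triK.1 hc'.1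
  have h1 := PW_le (B := Λ ^ b * Λ * (q ^ 2)⁻¹) hq.le (by positivity) hΛ' (fun L₁ d₁ =>
    ∑ c₂ ∈ sib c, PW b (insert c₂.2 L₁) c₂ fun L₂ d₂ => ind (d₂.2 = d₁.2) * q ^ (FL L₂).card)
    a {c.2} c hc (mem_singleton_self _) (by omega) (by
      intro L₁ d₁ r₁
      obtain ⟨h2, h3⟩ := reach_UL r₁ (mem_singleton_self _)
      have hg : ∀ x ∈ c.1, x ∈ UL L₁ := fun x hx =>
        sub_UL (h3 (mem_singleton_self _)) (mem_of_edT hc'.2 x hx)
      have h4 : ∀ c₂ ∈ sib c, (PW b (insert c₂.2 L₁) c₂ fun L₂ d₂ =>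
          ind (d₂.2 = d₁.2) * q ^ (FL L₂).card) ≤
          Λ ^ b * (q ^ 2)⁻¹ * q ^ (2 * (c₂.2 ∪ UL L₁).card) := by
        intro c₂ hc₂
        obtain ⟨hne, hc₂⟩ := mem_erase.1 hc₂
        obtain ⟨hc₂, he⟩ := mem_filter.1 hc₂
        rw [mul_assoc, ← UL_insert]
        refine PW_le hq.le (by positivity) hΛ' _ b _ c₂ hc₂ (mem_insert_self _ _) ?_ ?_
        · have := card_union_le hc₂ (U := UL L₁) (he ▸ hg)
          rw [UL_insert]
          omega
        · intro L₂ d₂ r₂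
          by_cases hd : d₂.2 = d₁.2
          · rw [ind_pos hd, one_mul, le_inv_mul_iff₀ (by positivity), ← pow_add, add_comm]
            exact pow_le_pow_of_le_one hq.le hq1 (cyc_gain hc hc₂ he hne r₁ r₂ hd)
          · rw [ind_neg hd, zero_mul]
            positivity
      refine (sum_le_sum h4).trans ?_
      rw [← mul_sum]
      have h5 : ∑ c₂ ∈ sib c, q ^ (2 * (c₂.2 ∪ UL L₁).card) ≤ Λ * q ^ (2 * (UL L₁).card) := by
        have h6 : sib c ⊆ ((triangles (allEdges n)).filter (fun T => c.1 ∈ edT T)).image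
            fun T => (c.1, T) := by
          intro c₂ hc₂
          obtain ⟨hc₂, he⟩ := mem_filter.1 (mem_of_mem_erase hc₂)
          have := (mem_filter.1 hc₂).2
          exact mem_image.2 ⟨c₂.2, mem_filter.2 ⟨this.1, he ▸ this.2⟩, by rw [← he]⟩
        refine (sum_le_sum_of_subset_of_nonneg h6 fun _ _ _ => by positivity).trans ?_
        refine (sum_image_le_of_nonneg fun _ _ => by positivity).trans ?_
        refine (wt_point hq.le c.1 (UL L₁) hg).trans
          (mul_le_mul_of_nonneg_right ?_ (by positivity))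
        have h7 : ((UL L₁).card : ℝ) ≤ ((2 * R + 4 : ℕ) : ℝ) := by
          exact_mod_cast (by omega : (UL L₁).card ≤ 2 * R + 4)
        have h8 : (0 : ℝ) ≤ n * q ^ 2 + ((2 * R + 4 : ℕ) : ℝ) := by positivity
        linarith
      refine (mul_le_mul_of_nonneg_left h5 (by positivity)).trans_eq (by ring))
  refine h1.trans_eq ?_
  rw [hU]
  field_simp

theorem card_InK : ((InK n).card : ℝ) ≤ (n : ℝ) ^ 3 := by
  have h1 : InK n ⊆ univ.image fun x : Fin n × Fin n × Fin n =>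
      ((s(x.1, x.2.1), {x.2.2, x.1, x.2.1}) : Ic n) := by
    rintro ⟨g, T⟩ hc
    simp only [Inc, mem_filter, mem_univ, true_and] at hc
    induction g using Sym2.ind with
    | _ u v =>
      obtain ⟨w, rfl⟩ := third (mem_triK.1 hc.1) hc.2
      exact mem_image.2 ⟨(u, v, w), mem_univ _, rfl⟩
  have h2 := (card_le_card h1).trans card_image_le
  simp only [card_univ, Fintype.card_prod, Fintype.card_fin] at h2
  have h3 : (InK n).card ≤ n ^ 3 := h2.trans_eq (by ring)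
  exact_mod_cast h3

end CycC

open CycC in
theorem cyc_wt (n R : ℕ) {θ : ℝ} (hθ : 0 ≤ θ) :
    ∃ wt : St n → ℝ, (∀ F, 0 ≤ wt F) ∧ (∀ F, wt F ≠ 0 → F.card ≤ 6 * R + 6) ∧
      (∀ G ⊆ allEdges n, Xs (triangles G) edT θ R ≤ ∑ F, wt F * ind (F ⊆ G)) ∧
      ∀ q Λ : ℝ, 0 < q → q ≤ 1 → 2 * (n * q ^ 2 + (2 * R + 4)) ≤ Λ → θ * Λ ≤ 1 / 2 →
        ∑ F, wt F * q ^ F.card ≤ 4 * Λ * n ^ 3 * q ^ 4 := by
  have h0 : ∀ (F : St n) a b, ∀ c ∈ InK n, 0 ≤ P1 a b c fun F' => ind (F' = F) := by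
    intro F a b c hc
    rw [← P1_zero a b c]
    exact P1_mono hc fun _ _ => ind_nonneg _
  refine ⟨fun F => PP n R θ fun F' => ind (F' = F), fun F => ?_, fun F hF => ?_, fun G _ => ?_,
    fun q Λ hq hq1 hΛ hθΛ => ?_⟩
  · exact sum_nonneg fun c hc => sum_nonneg fun a _ => sum_nonneg fun b _ =>
      mul_nonneg (by positivity) (h0 F a b c hc)
  · by_contra h
    refine hF (sum_eq_zero fun c hc => sum_eq_zero fun a ha => sum_eq_zero fun b hb => ?_)
    refine mul_eq_zero_of_right _ (le_antisymm ?_ (h0 F a b c hc))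
    rw [← P1_zero a b c]
    refine P1_mono hc fun F' hF' => (ind_neg ?_).le
    rintro rfl
    have := mem_range.1 ha
    have := mem_range.1 hb
    omega
  · rw [PP_sum, Xs_eq]
  · rw [PP_sum R θ fun F => q ^ F.card]
    have hΛ0 : 0 ≤ Λ := le_trans (by positivity) hΛ
    have h1 : ∑ a ∈ range (R + 1), (θ * Λ) ^ a ≤ 2 :=
      (sum_le_sum fun a _ => pow_le_pow_left₀ (by positivity) hθΛ a).trans (sum_geometric_two_le _)
    have h2 : 0 ≤ ∑ a ∈ range (R + 1), (θ * Λ) ^ a := sum_nonneg fun _ _ => by positivity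
    have h3 : ∀ c ∈ InK n, ∑ a ∈ range (R + 1), ∑ b ∈ range (R + 1),
        θ ^ a * θ ^ b * P1 a b c (fun F => q ^ F.card) ≤ 4 * (Λ * q ^ 4) := by
      intro c hc
      calc _ ≤ ∑ a ∈ range (R + 1), ∑ b ∈ range (R + 1), (θ * Λ) ^ a * (θ * Λ) ^ b * (Λ * q ^ 4) :=
            sum_le_sum fun a ha => sum_le_sum fun b hb => (mul_le_mul_of_nonneg_left
              (P1_le (Nat.lt_succ_iff.1 (mem_range.1 ha)) (Nat.lt_succ_iff.1 (mem_range.1 hb))
                hq hq1 hΛ hc) (by positivity)).trans_eq (by ring)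
        _ = (∑ a ∈ range (R + 1), (θ * Λ) ^ a) * (∑ a ∈ range (R + 1), (θ * Λ) ^ a) *
              (Λ * q ^ 4) := by rw [sum_mul_sum, sum_mul]; simp only [sum_mul]
        _ ≤ _ := mul_le_mul_of_nonneg_right (by nlinarith) (by positivity)
    refine (sum_le_card_nsmul _ _ _ h3).trans ?_
    rw [nsmul_eq_mul]
    refine (mul_le_mul_of_nonneg_right card_InK (by positivity)).trans_eq (by ring)

theorem cyc_exp (P : Par) :
    EE P.n P.m (fun x => ind (P.GoodTo x P.m) * Xs (triangles (x P.m)) edT P.θ P.R) ≤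
      P.z ^ 80 * P.n := by
  have hz := P.z_ge
  have hz0 := P.z_pos
  have hz1 : 1 ≤ P.z := by linarith
  have hn0 : (0 : ℝ) < P.n := by have := P.n3; positivity
  obtain ⟨wt, h0, h1, h2, h3⟩ := cyc_wt P.n P.R (θ := P.θ) (by unfold Par.θ; positivity)
  have hR : (P.R : ℝ) ≤ P.z + 1 := (Nat.ceil_lt_add_one hz0.le).le
  have hz2 : 1000 * P.z ≤ P.z ^ 16 := by
    have : P.z ≤ P.z ^ 15 := le_self_pow₀ hz1 (by norm_num)
    nlinarith
  have hz3 : P.z ^ 16 ≤ P.z ^ 24 := pow_le_pow_right₀ hz1 (by norm_num)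
  set p := pp P.n P.m with hp
  have hp0 : 0 < p := P.p_pos
  have hD : P.z ^ 24 = P.n * p ^ 2 := P.hz
  have hδ0 : 0 ≤ P.δ' := by unfold Par.δ'; positivity
  have hδ1 : P.δ' ≤ 1 / 1000 := by
    rw [Par.δ', one_div]
    exact inv_anti₀ (by norm_num) (hz.trans (le_self_pow₀ hz1 (by norm_num)))
  set q := (1 + P.δ') * p with hq
  have hq2 : q ^ 2 ≤ 2 * p ^ 2 := by
    rw [hq, mul_pow]
    exact mul_le_mul_of_nonneg_right (by nlinarith) (by positivity)
  have hp2 : 2 * p ^ 2 ≤ 1 := by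
    have h4 : P.z ^ 24 * P.z ≤ P.n := by
      rw [← pow_succ]
      exact (pow_le_pow_right₀ hz1 (by norm_num)).trans P.h2
    rw [hD, mul_assoc] at h4
    have h5 : p ^ 2 * P.z ≤ 1 := (mul_le_iff_le_one_right hn0).1 h4
    nlinarith [sq_nonneg p]
  have hq0 : 0 < q := by positivity
  have hq1 : q ≤ 1 := by nlinarith
  have hnq : P.n * q ^ 2 ≤ 2 * P.z ^ 24 := by
    rw [hD]
    nlinarith
  have h4 := h3 q (8 * P.z ^ 24) hq0 hq1 (by linarith) (by
    rw [Par.θ]; field_simp; norm_num)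
  have h5 : EE P.n P.m (fun x => ind (P.GoodTo x P.m) * Xs (triangles (x P.m)) edT P.θ P.R) ≤
      EE P.n P.m (fun x => ∑ F, wt F * (ind (P.GoodTo x P.m) * ind (F ⊆ x P.m))) := by
    refine EE_mono _ fun x hx => ?_
    refine (mul_le_mul_of_nonneg_left (h2 _ (hx.1 ▸ hx.anti (Nat.zero_le _) le_rfl))
      (ind_nonneg _)).trans_eq ?_
    rw [mul_sum]
    exact sum_congr rfl fun F _ => by ring
  rw [EE_sum] at h5
  refine h5.trans (le_trans (sum_le_sum fun F _ => ?_) (h4.trans ?_))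
  · rw [EE_const_mul]
    by_cases hF : wt F = 0
    · simp [hF]
    refine mul_le_mul_of_nonneg_left (surv P le_rfl F ?_) (h0 F)
    have h6 : (F.card : ℝ) ≤ 6 * P.R + 6 := by exact_mod_cast h1 F hF
    have h7 : P.δ * P.D = P.z ^ 16 := by rw [Par.δ, Par.D]; field_simp
    rw [h7]
    linarith
  · have h6 : (P.n * q ^ 2) ^ 2 ≤ (2 * P.z ^ 24) ^ 2 := pow_le_pow_left₀ (by positivity) hnq 2
    have h7 : 128 * P.z ^ 72 ≤ P.z ^ 80 := by
      have : 128 ≤ P.z ^ 8 := le_trans (by linarith) (le_self_pow₀ hz1 (by norm_num))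
      calc 128 * P.z ^ 72 ≤ P.z ^ 8 * P.z ^ 72 := by gcongr
        _ = _ := by ring
    calc 4 * (8 * P.z ^ 24) * (P.n : ℝ) ^ 3 * q ^ 4
        = 32 * P.z ^ 24 * P.n * (P.n * q ^ 2) ^ 2 := by ring
      _ ≤ 32 * P.z ^ 24 * P.n * (2 * P.z ^ 24) ^ 2 := by gcongr
      _ = 128 * P.z ^ 72 * P.n := by ring
      _ ≤ _ := by gcongr

end Crest.Agent.R30
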