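import Crest.Agent.R30.Graph

/-!
# R30 CycA: a cycle has an extra edge (task R30-CycA)

For a set `L` of triples, `UL L` are its vertices and `FL L` its edges.
PLAN (aux in `namespace CycB`).  `chi_step`: `T' = insert z {ends of g}`; if `z ∉ UL L` two new edges, one
new vertex; else no new vertex.  So `χ L = |FL L| - 2 |UL L|` does not decrease along `Reach`.
Invariant `Priv L c`: `c ∈ Inc`, `c.2 ∈ L`, all members of `L` are triples, and the vertex `w` of `c.2` not on `c.1` has
all its `FL L`-edges inside `edT c.2`.  If `Priv L c` and `c' = (g, T') ∈ chK c` then `w ∈ g`, and either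
`T' ⊄ UL L`, `Priv (insert T' L) c'`, or `T' ⊆ UL L` and the edge from `w` to the third vertex of `T'` is
new, so `χ` increases.  `cyc_gain`: assume `χ L₂ ≤ -3 = χ {T}`; then all steps of the first walk are fresh,
and the invariant "every `z` with both `s(x,z), s(y,z) ∈ FL L` lies in `T`" (`g = s(x,y)`) is preserved (the
points used by the first walk are `≠ g`: the first one by definition of `chH`, the later ones contain a
vertex outside `T`).  So the step to `T₂` is fresh, `Priv` holds, all steps of the second walk are fresh,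
its last label is not inside `UL L₁`, but `d₁.2 ∈ L₁`.  `cyc_gain` is the case of `K_n`: `triangles (allEdges n)` are all triples.
-/

set_option autoImplicit false

namespace Crest.Agent.R30

open Finset Crest.CombinatoricsR.TriangleRemoval

variable {n : ℕ}

/-- vertices of a family of triples -/
def UL (L : Finset (Finset (Fin n))) : Finset (Fin n) := L.biUnion id

/-- edges of a family of triples -/
noncomputable def FL (L : Finset (Finset (Fin n))) : St n := L.biUnion edT

/-- successors in the complete graph -/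
noncomputable abbrev chK (n : ℕ) := chH (triangles (allEdges n)) edT

/-- incidences of the complete graph -/
noncomputable abbrev InK (n : ℕ) := Inc (triangles (allEdges n)) edT

/-- walks in the complete graph, recording the labels -/
inductive Reach : ℕ → Finset (Finset (Fin n)) → Sym2 (Fin n) × Finset (Fin n) →
    Finset (Finset (Fin n)) → Sym2 (Fin n) × Finset (Fin n) → Prop
  | refl (L c) : Reach 0 L c L c
  | step {a L c c' L' d} (h : c' ∈ chK n c) (h' : Reach a (insert c'.2 L) c' L' d) :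
      Reach (a + 1) L c L' d

namespace CycB

theorem mem_InK {c : Sym2 (Fin n) × Finset (Fin n)} : c ∈ InK n ↔ c.2.card = 3 ∧ c.1 ∈ edT c.2 := by
  simp only [InK, Inc, mem_filter, mem_univ, true_and, mem_tri]
  constructor
  · rintro ⟨⟨h1, _⟩, h2⟩
    exact ⟨h1, h2⟩
  · rintro ⟨h1, h2⟩
    refine ⟨⟨h1, fun e he => ?_⟩, h2⟩
    simp only [edT, allEdges, mem_filter, mem_univ, true_and] at he ⊢
    exact he.2

theorem mem_chK {c c' : Sym2 (Fin n) × Finset (Fin n)} :
    c' ∈ chK n c ↔ c' ∈ InK n ∧ c'.1 ∈ edT c.2 ∧ c'.1 ≠ c.1 ∧ c'.2 ≠ c.2 := by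
  simp only [chK, chH, mem_filter]

theorem UL_insert (T : Finset (Fin n)) (L : Finset (Finset (Fin n))) :
    UL (insert T L) = T ∪ UL L := by
  simp [UL, biUnion_insert]

theorem FL_insert (T : Finset (Fin n)) (L : Finset (Finset (Fin n))) :
    FL (insert T L) = edT T ∪ FL L := by
  simp [FL, biUnion_insert]

theorem sub_UL {T : Finset (Fin n)} {L : Finset (Finset (Fin n))} (h : T ∈ L) : T ⊆ UL L :=
  subset_biUnion_of_mem id h

theorem sub_FL {T : Finset (Fin n)} {L : Finset (Finset (Fin n))} (h : T ∈ L) : edT T ⊆ FL L :=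
  subset_biUnion_of_mem edT h

theorem mem_of_edT {T : Finset (Fin n)} {e : Sym2 (Fin n)} (he : e ∈ edT T) {v : Fin n}
    (hv : v ∈ e) : v ∈ T := by
  induction e using Sym2.ind with
  | _ a b =>
    rw [mem_edT] at he
    rcases Sym2.mem_iff.1 hv with rfl | rfl
    · exact he.1
    · exact he.2.1

theorem mem_UL {L : Finset (Finset (Fin n))} {e : Sym2 (Fin n)} (he : e ∈ FL L) {v : Fin n}
    (hv : v ∈ e) : v ∈ UL L := by
  obtain ⟨T, hT, h⟩ := mem_biUnion.1 he
  exact sub_UL hT (mem_of_edT h hv)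

theorem eq_three {T : Finset (Fin n)} (h3 : T.card = 3) {a b z : Fin n} (he : s(a, b) ∈ edT T)
    (hz : z ∈ T) (hz' : z ∉ s(a, b)) : T = {a, b, z} := by
  rw [mem_edT] at he
  rw [Sym2.mem_iff, not_or] at hz'
  symm
  apply eq_of_subset_of_card_le
  · intro v hv
    simp only [mem_insert, mem_singleton] at hv
    rcases hv with rfl | rfl | rfl
    exacts [he.1, he.2.1, hz]
  · rw [h3, card_eq_three.2 ⟨a, b, z, he.2.2, Ne.symm hz'.1, Ne.symm hz'.2, rfl⟩]

theorem edge_uniq {T : Finset (Fin n)} (h3 : T.card = 3) {w : Fin n} (hw : w ∈ T)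
    {e f : Sym2 (Fin n)} (he : e ∈ edT T) (hf : f ∈ edT T) (hwe : w ∉ e) (hwf : w ∉ f) : f = e := by
  induction e using Sym2.ind with
  | _ a b =>
    induction f using Sym2.ind with
    | _ c d =>
      have hT := eq_three h3 he hw hwe
      rw [mem_edT, hT] at hf
      rw [Sym2.mem_iff, not_or] at hwf
      simp only [mem_insert, mem_singleton] at hf
      obtain ⟨h1, h2, h4⟩ := hf
      rcases h1 with rfl | rfl | rfl <;> rcases h2 with rfl | rfl | rfl <;>
        simp_all [Sym2.eq_swap]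

theorem exists_third {T : Finset (Fin n)} (h3 : T.card = 3) (e : Sym2 (Fin n)) :
    ∃ w ∈ T, w ∉ e := by
  induction e using Sym2.ind with
  | _ a b =>
    by_contra h
    push Not at h
    have : T ⊆ {a, b} := fun w hw => by simpa using h w hw
    have h1 := card_le_card this
    have h2 : ({a, b} : Finset (Fin n)).card ≤ 2 := card_le_two
    omega

/-- the Euler characteristic -/
noncomputable def chi (L : Finset (Finset (Fin n))) : ℤ := (FL L).card - 2 * (UL L).card

theorem UL_fresh {L : Finset (Finset (Fin n))} {T : Finset (Fin n)} {g : Sym2 (Fin n)}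
    (h3 : T.card = 3) (hg : g ∈ edT T) (hgL : g ∈ FL L) {z : Fin n} (hz : z ∈ T) (hzL : z ∉ UL L) :
    UL (insert T L) = insert z (UL L) := by
  induction g using Sym2.ind with
  | _ a b =>
    have hT := eq_three h3 hg hz (fun h => hzL (mem_UL hgL h))
    have ha : a ∈ UL L := mem_UL hgL (Sym2.mem_mk_left a b)
    have hb : b ∈ UL L := mem_UL hgL (Sym2.mem_mk_right a b)
    rw [UL_insert, hT]
    ext v
    simp only [mem_union, mem_insert, mem_singleton]
    constructor
    · rintro ((rfl | rfl | rfl) | h)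
      exacts [Or.inr ha, Or.inr hb, Or.inl rfl, Or.inr h]
    · rintro (rfl | h)
      exacts [Or.inl (Or.inr (Or.inr rfl)), Or.inr h]

theorem chi_step {L : Finset (Finset (Fin n))} {T : Finset (Fin n)} {g : Sym2 (Fin n)}
    (h3 : T.card = 3) (hg : g ∈ edT T) (hgL : g ∈ FL L) : chi L ≤ chi (insert T L) := by
  by_cases h : T ⊆ UL L
  · unfold chi
    rw [UL_insert, union_eq_right.2 h, FL_insert]
    have := card_le_card (subset_union_right (s₁ := edT T) (s₂ := FL L))
    omega
  · obtain ⟨z, hz, hzL⟩ := not_subset.1 h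
    unfold chi
    rw [UL_fresh h3 hg hgL hz hzL, card_insert_of_notMem hzL, FL_insert]
    induction g using Sym2.ind with
    | _ a b =>
      have ha : a ∈ UL L := mem_UL hgL (Sym2.mem_mk_left a b)
      have hb : b ∈ UL L := mem_UL hgL (Sym2.mem_mk_right a b)
      have haz : a ≠ z := fun h => hzL (h ▸ ha)
      have hbz : b ≠ z := fun h => hzL (h ▸ hb)
      rw [mem_edT] at hg
      have h1 : s(a, z) ∉ FL L := fun h => hzL (mem_UL h (Sym2.mem_mk_right a z))
      have h2 : s(b, z) ∉ FL L := fun h => hzL (mem_UL h (Sym2.mem_mk_right b z))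
      have h4 : s(a, z) ≠ s(b, z) := by
        simp [hg.2.2, haz]
      have hsub : insert s(a, z) (insert s(b, z) (FL L)) ⊆ edT T ∪ FL L := by
        intro e he
        simp only [mem_insert] at he
        rcases he with rfl | rfl | he
        · exact mem_union_left _ (mem_edT.2 ⟨hg.1, hz, haz⟩)
        · exact mem_union_left _ (mem_edT.2 ⟨hg.2.1, hz, hbz⟩)
        · exact mem_union_right _ he
      have := card_le_card hsub
      rw [card_insert_of_notMem (by simp only [mem_insert, not_or]; exact ⟨h4, h1⟩),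
        card_insert_of_notMem h2] at this
      push_cast
      omega

theorem chi_gain {L : Finset (Finset (Fin n))} {T : Finset (Fin n)} (h : T ⊆ UL L)
    (h' : ¬ edT T ⊆ FL L) : chi L < chi (insert T L) := by
  unfold chi
  rw [UL_insert, union_eq_right.2 h, FL_insert]
  have : FL L ⊂ edT T ∪ FL L := ⟨subset_union_right, fun h'' => h' (union_subset_left h'')⟩
  have := card_lt_card this
  omega

theorem reach_mono {a : ℕ} {L L' : Finset (Finset (Fin n))} {c d : Sym2 (Fin n) × Finset (Fin n)}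
    (h : Reach a L c L' d) (hc : c.2 ∈ L) : chi L ≤ chi L' ∧ L ⊆ L' ∧ d.2 ∈ L' := by
  induction h with
  | refl L c => exact ⟨le_rfl, subset_rfl, hc⟩
  | step h h' ih =>
    obtain ⟨h1, h2, h3⟩ := ih (mem_insert_self _ _)
    rw [mem_chK, mem_InK] at h
    exact ⟨(chi_step h.1.1 h.1.2 (sub_FL hc h.2.1)).trans h1, (subset_insert _ _).trans h2, h3⟩

/-- `c` has a private vertex -/
def Priv (g : Sym2 (Fin n)) (L : Finset (Finset (Fin n))) (c : Sym2 (Fin n) × Finset (Fin n)) :
    Prop :=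
  c ∈ InK n ∧ c.2 ∈ L ∧ g ∈ FL L ∧
    ∃ w ∈ c.2, w ∉ c.1 ∧ w ∉ g ∧ ∀ e ∈ FL L, w ∈ e → e ∈ edT c.2

theorem priv_fresh {g : Sym2 (Fin n)} {L : Finset (Finset (Fin n))}
    {c : Sym2 (Fin n) × Finset (Fin n)} (hc : c ∈ InK n) (hg : g ∈ FL L) (h1 : c.1 ∈ FL L)
    (h : ¬ c.2 ⊆ UL L) : Priv g (insert c.2 L) c := by
  obtain ⟨z, hz, hzL⟩ := not_subset.1 h
  refine ⟨hc, mem_insert_self _ _, by rw [FL_insert]; exact mem_union_right _ hg, z, hz,
    fun h => hzL (mem_UL h1 h), fun h => hzL (mem_UL hg h), fun e he hze => ?_⟩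
  rw [FL_insert, mem_union] at he
  exact he.resolve_right fun h => hzL (mem_UL h hze)

theorem priv_step {g : Sym2 (Fin n)} {L : Finset (Finset (Fin n))}
    {c c' : Sym2 (Fin n) × Finset (Fin n)} (h : Priv g L c) (hc' : c' ∈ chK n c) :
    c'.1 ≠ g ∧ ¬ edT c'.2 ⊆ FL L := by
  obtain ⟨hc, hL, hg, w, hw, hw1, hwg, hp⟩ := h
  rw [mem_chK, mem_InK] at hc'
  rw [mem_InK] at hc
  obtain ⟨⟨h3, h4⟩, h5, h6, h7⟩ := hc'
  have hw' : w ∈ c'.1 := by
    by_contra hn
    exact h6 (edge_uniq hc.1 hw hc.2 h5 hw1 hn)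
  refine ⟨fun h => hwg (h ▸ hw'), fun hsub => h7 ?_⟩
  apply eq_of_subset_of_card_le _ (by rw [h3, hc.1])
  intro v hv
  by_cases hvw : w = v
  · exact hvw ▸ hw
  · have h8 : s(w, v) ∈ edT c'.2 := mem_edT.2 ⟨mem_of_edT h4 hw', hv, hvw⟩
    exact (mem_edT.1 (hp _ (hsub h8) (Sym2.mem_mk_left w v))).2.1

/-- the only triple through `g` covered by `L` is `T` -/
def Only (g : Sym2 (Fin n)) (T : Finset (Fin n)) (L : Finset (Finset (Fin n))) : Prop :=
  ∀ T' : Finset (Fin n), T'.card = 3 → g ∈ edT T' → edT T' ⊆ FL L → T' = T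

theorem only_step {g : Sym2 (Fin n)} {T : Finset (Fin n)} {L : Finset (Finset (Fin n))}
    {c : Sym2 (Fin n) × Finset (Fin n)} (h : Only g T L) (hc : c ∈ InK n) (hg : g ∈ FL L)
    (h1 : c.1 ∈ FL L) (hne : c.1 ≠ g) (hf : ¬ c.2 ⊆ UL L) : Only g T (insert c.2 L) := by
  obtain ⟨z, hz, hzL⟩ := not_subset.1 hf
  rw [mem_InK] at hc
  have hz1 : z ∉ c.1 := fun h => hzL (mem_UL h1 h)
  have hzg : z ∉ g := fun h => hzL (mem_UL hg h)
  intro T' h3 hgT hsub
  rw [FL_insert] at hsub
  by_cases hzT : z ∈ T'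
  · exfalso
    apply hne
    refine (edge_uniq hc.1 hz hc.2 ?_ hz1 hzg).symm
    have key : ∀ v ∈ g, v ∈ c.2 := by
      intro v hv
      have hvz : v ≠ z := fun h => hzg (h ▸ hv)
      have h8 : s(v, z) ∈ edT T' := mem_edT.2 ⟨mem_of_edT hgT hv, hzT, hvz⟩
      have h9 := (mem_union.1 (hsub h8)).resolve_right
        fun h => hzL (mem_UL h (Sym2.mem_mk_right v z))
      exact (mem_edT.1 h9).1
    induction g using Sym2.ind with
    | _ a b =>
      exact mem_edT.2 ⟨key a (Sym2.mem_mk_left a b), key b (Sym2.mem_mk_right a b),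
        (mem_edT.1 hgT).2.2⟩
  · refine h T' h3 hgT fun e he => ?_
    rcases mem_union.1 (hsub he) with h' | h'
    · rw [edge_uniq hc.1 hz hc.2 h' hz1 fun h => hzT (mem_of_edT he h)]
      exact h1
    · exact h'

theorem walk {g : Sym2 (Fin n)} {T : Finset (Fin n)} {a : ℕ} {L L' : Finset (Finset (Fin n))}
    {c d : Sym2 (Fin n) × Finset (Fin n)} (h : Reach a L c L' d) (hp : Priv g L c)
    (hχ : chi L' ≤ chi L) :
    (Only g T L → Only g T L') ∧ ∀ U ⊆ UL L, ¬ c.2 ⊆ U → ¬ d.2 ⊆ U := by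
  induction h with
  | refl L c => exact ⟨id, fun _ _ h => h⟩
  | @step a L c c' L' d h h' ih =>
    obtain ⟨h1, h2⟩ := priv_step hp h
    have h3 := (reach_mono h' (mem_insert_self _ _)).1
    have h4 := mem_chK.1 h
    have h5 : c'.1 ∈ FL L := sub_FL hp.2.1 h4.2.1
    have h6 := mem_InK.1 h4.1
    have h7 := chi_step h6.1 h6.2 h5
    have hf : ¬ c'.2 ⊆ UL L := fun hs => by
      have := chi_gain hs h2
      omega
    obtain ⟨i1, i2⟩ := ih (priv_fresh h4.1 hp.2.2.1 h5 hf) (by omega)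
    refine ⟨fun ho => i1 (only_step ho h4.1 hp.2.2.1 h5 h1 hf), fun U hU _ => ?_⟩
    refine i2 U (hU.trans ?_) fun hs => hf (hs.trans hU)
    rw [UL_insert]
    exact subset_union_right

end CycB

open CycB

theorem Reach.card_le {a : ℕ} {L L' : Finset (Finset (Fin n))} {c d : Sym2 (Fin n) × Finset (Fin n)}
    (h : Reach a L c L' d) (h3 : ∀ T ∈ L, T.card = 3) :
    L'.card ≤ L.card + a ∧ ∀ T ∈ L', T.card = 3 := by
  induction h with
  | refl L c => exact ⟨le_rfl, h3⟩
  | @step a L c c' L' d h h' ih =>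
    obtain ⟨h1, h2⟩ := ih (fun T hT => by
      rcases mem_insert.1 hT with rfl | hT
      · exact (mem_InK.1 (mem_chK.1 h).1).1
      · exact h3 T hT)
    have := card_insert_le c'.2 L
    exact ⟨by omega, h2⟩

theorem cyc_gain {a b : ℕ} {c c₂ d₁ d₂ : Sym2 (Fin n) × Finset (Fin n)}
    {L₁ L₂ : Finset (Finset (Fin n))} (hc : c ∈ InK n) (hc₂ : c₂ ∈ InK n) (h1 : c₂.1 = c.1)
    (hne : c₂ ≠ c) (r₁ : Reach a {c.2} c L₁ d₁) (r₂ : Reach b (insert c₂.2 L₁) c₂ L₂ d₂)
    (hd : d₂.2 = d₁.2) : 2 * (UL L₂).card ≤ (FL L₂).card + 2 := by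
  by_contra hcon
  have hc' := mem_InK.1 hc
  have hc₂' := mem_InK.1 hc₂
  have hF : FL {c.2} = edT c.2 := by simp [FL]
  have hU : UL {c.2} = c.2 := by simp [UL]
  have h0 : chi {c.2} = -3 := by
    unfold chi
    rw [hF, hU, card_edT hc'.1, hc'.1]
    norm_num
  have h2 : chi L₂ ≤ -3 := by
    unfold chi
    omega
  obtain ⟨a1, a2, a3⟩ := reach_mono r₁ (mem_singleton_self _)
  obtain ⟨b1, -, -⟩ := reach_mono r₂ (mem_insert_self _ _)
  have hg : c.1 ∈ FL L₁ := sub_FL (a2 (mem_singleton_self _)) hc'.2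
  have hg₂ : c₂.1 ∈ FL L₁ := h1 ▸ hg
  have c1 := chi_step hc₂'.1 hc₂'.2 hg₂
  have hp : Priv c.1 {c.2} c := by
    obtain ⟨w, hw, hw'⟩ := exists_third hc'.1 c.1
    exact ⟨hc, mem_singleton_self _, hF ▸ hc'.2, w, hw, hw', hw', fun e he _ => hF ▸ he⟩
  have ho : Only c.1 c.2 {c.2} := by
    intro T' h3 _ hsub
    rw [hF] at hsub
    apply eq_of_subset_of_card_le _ (by rw [h3, hc'.1])
    intro v hv
    obtain ⟨w, hw, hw'⟩ := exists_third h3 s(v, v)
    have : v ≠ w := fun h => hw' (h ▸ Sym2.mem_mk_left _ _)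
    exact (mem_edT.1 (hsub (mem_edT.2 ⟨hv, hw, this⟩))).1
  have ho₁ := (walk (T := c.2) r₁ hp (by omega)).1 ho
  have hT : c₂.2 ≠ c.2 := fun h => hne (Prod.ext h1 h)
  have hf : ¬ c₂.2 ⊆ UL L₁ := fun hs => by
    have := chi_gain hs fun hsub => hT (ho₁ _ hc₂'.1 (h1 ▸ hc₂'.2) hsub)
    omega
  have := (walk (T := c.2) r₂ (priv_fresh hc₂ hg hg₂ hf) (by omega)).2 (UL L₁)
    (by rw [UL_insert]; exact subset_union_right) hf
  exact this (hd ▸ sub_UL a3)

end Crest.Agent.R30
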