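import Mathlib
import Crest.Prelude.Def_TriangleRemoval

/-!
# Row 30 (S0040): the final number of edges of the triangle removal process.  Definitions.

OVERVIEW.  `p i = pp n i` is the edge density after `i` steps, `d i = n p`, `y i = n p²`,
`τ i = 6 / (n² p)`; we stop phase 1 at the step `m` where `y m = D = z ^ 24 ≈ n ^ (1/500)`.
* **Phase 1** (`Boot`, `Fail`): with probability `≥ 1 - n⁻²` all degrees are `(1 ± δ') d i` and all
  codegrees of edges are `(1 ± δ) y i` up to step `m`.  The relative codegree errors `a` satisfy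
  `Δ a = -τ (A a - 2 ā) + noise` (`AA`); the noise is small by an exponential supermartingale
  (`Noise`); `A = (vertex averaging) + (an operator small in ℓ², bounded in ℓ^∞)` by the spectral
  gap of the links (`Spec`, from one sided discrepancy, `Surv`), which gives stability (`Stab`).
* **Phase 2** (`Ph2`): run the process from the graph `G` at time `m` with i.i.d. priorities in
  `Fin M` (`par`, `Link`).  Survival of one or two edges is decided by an exploration of the tree
  of non-backtracking walks (`Ok`, `Sem`), which is coupled with the same exploration with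
  independent priorities (`Stop`), up to collisions (`Coll`, `ColSum`, `Cyc`).  On the tree the
  survival probability is given by the cavity recursion `RR` (`Tree`), and is `≈ 1 / √(2 D)` by the
  same stability lemma (`Cav`).  `|G| / √(2 D) = n ^ (3/2) / (2 √2)`.
-/

set_option autoImplicit false

namespace Crest.Agent.R30

open Finset Crest.CombinatoricsR.TriangleRemoval

noncomputable section

/-- indicator of a proposition -/
def ind (p : Prop) : ℝ := by classical exact if p then 1 else 0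

/-- uniform average over a finite type -/
def av {α : Type} [Fintype α] (f : α → ℝ) : ℝ := (∑ a, f a) / (Fintype.card α : ℝ)

/-! ## Graphs and the process -/

section Graph

/-- states: sets of edges -/
abbrev St (n : ℕ) := Finset (Sym2 (Fin n))

variable {n : ℕ}

/-- neighbourhood -/
def nb (E : St n) (u : Fin n) : Finset (Fin n) := univ.filter fun w => s(u, w) ∈ E

/-- common neighbourhood -/
def cn (E : St n) (u v : Fin n) : Finset (Fin n) := nb E u ∩ nb E v

def deg (E : St n) (u : Fin n) : ℝ := (nb E u).card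

def cod (E : St n) (u v : Fin n) : ℝ := (cn E u v).card

/-- the edges of a vertex set -/
def edT (t : Finset (Fin n)) : St n := t.sym2.filter fun e => ¬ e.IsDiag

/-- average over one step of the process -/
def stepAvg (E : St n) (f : St n → ℝ) : ℝ :=
  if (triangles E).card = 0 then f E
  else ((triangles E).card : ℝ)⁻¹ * ∑ t ∈ triangles E, f (E \ t.sym2)

/-- one possible step of the process -/
def Step (E E' : St n) : Prop :=
  ((triangles E).card = 0 ∧ E' = E) ∨ ∃ t ∈ triangles E, E' = E \ t.sym2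

/-- expectation of a functional of the path: `k` more steps from time `i` -/
def Ex : ℕ → ℕ → (ℕ → St n) → ((ℕ → St n) → ℝ) → ℝ
  | 0, _, x, f => f x
  | k + 1, i, x, f => stepAvg (x i) fun E => Ex k (i + 1) (Function.update x (i + 1) E) f

/-- expectation over the first `m` steps of the process -/
def EE (n m : ℕ) (f : (ℕ → St n) → ℝ) : ℝ := Ex m 0 (fun _ => allEdges n) f

/-- possible paths -/
def Valid (m : ℕ) (x : ℕ → St n) : Prop := x 0 = allEdges n ∧ ∀ i < m, Step (x i) (x (i + 1))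

/-- number of ordered pairs in `S × T` which are edges -/
def eST (E : St n) (S T : Finset (Fin n)) : ℝ := ((S ×ˢ T).filter fun q => s(q.1, q.2) ∈ E).card

/-- one sided discrepancy -/
def Disc (p δ' κ : ℝ) (E : St n) : Prop :=
  ∀ S T : Finset (Fin n), eST E S T ≤ (1 + δ') * p * S.card * T.card + κ * (S.card + T.card)

/-- the linearised operator -/
def AA (E : St n) (y : ℝ) (a : Fin n → Fin n → ℝ) (u v : Fin n) : ℝ :=
  y⁻¹ * ∑ w ∈ cn E u v, (a u w + a v w)

/-- regularity and spectral gap of the graph and of its links -/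
structure Reg (E : St n) (d y lam : ℝ) : Prop where
  deg : ∀ u, |deg E u - d| ≤ lam * d
  cod : ∀ u v, s(u, v) ∈ E → cod E u v ≤ 2 * y
  link : ∀ (u : Fin n) (x : Fin n → ℝ),
    ∑ v ∈ nb E u, (y⁻¹ * ∑ w ∈ cn E u v, x w - d⁻¹ * ∑ w ∈ nb E u, x w) ^ 2 ≤
      lam ^ 2 * ∑ w ∈ nb E u, x w ^ 2
  glob : ∀ x : Fin n → ℝ,
    ∑ u, (d⁻¹ * ∑ w ∈ nb E u, x w - (n : ℝ)⁻¹ * ∑ w, x w) ^ 2 ≤ lam ^ 2 * ∑ w, x w ^ 2

end Graph

/-! ## Reference trajectories and parameters -/

/-- edge density after `i` steps -/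
def pp (n i : ℕ) : ℝ := ((n : ℝ) ^ 2 - n - 6 * i) / (n : ℝ) ^ 2

def dd (n i : ℕ) : ℝ := n * pp n i

def yy (n i : ℕ) : ℝ := n * pp n i ^ 2

def tt (n i : ℕ) : ℝ := 6 / ((n : ℝ) ^ 2 * pp n i)

/-- the parameters -/
structure Par where
  n : ℕ
  m : ℕ
  z : ℝ
  n3 : 3 ≤ n
  z_pos : 0 < z
  p_pos : 0 < pp n m
  hz : z ^ 24 = yy n m
  h1 : (n : ℝ) ≤ z ^ 12000
  h2 : z ^ 10000 ≤ n
  h3 : (1000 * Real.log n) ^ 25000 ≤ z

namespace Par

variable (P : Par)

def L : ℝ := Real.log P.n
def D : ℝ := P.z ^ 24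
def δ : ℝ := (P.z ^ 8)⁻¹
def δ' : ℝ := (P.z ^ 7)⁻¹
def η : ℝ := (P.z ^ 11)⁻¹
def lam : ℝ := (P.z ^ 2)⁻¹
def κ : ℝ := P.z ^ 9
def θ : ℝ := (16 * P.z ^ 24)⁻¹
def R : ℕ := ⌈P.z⌉₊

/-- the state is as expected at time `i` -/
structure Good (i : ℕ) (E : St P.n) : Prop where
  sub : E ⊆ allEdges P.n
  card : 2 * (E.card : ℝ) = (P.n : ℝ) ^ 2 * pp P.n i
  deg : ∀ u, |deg E u - dd P.n i| ≤ P.δ' * dd P.n i
  cod : ∀ u v, s(u, v) ∈ E → |cod E u v - yy P.n i| ≤ P.δ * yy P.n i

def GoodTo (x : ℕ → St P.n) (j : ℕ) : Prop := ∀ i < j, P.Good i (x i)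

/-- relative error of the codegrees -/
def aa (i : ℕ) (E : St P.n) (u v : Fin P.n) : ℝ := cod E u v / yy P.n i - 1

/-- its average over the edges -/
def abar (i : ℕ) (E : St P.n) : ℝ :=
  ((P.n : ℝ) ^ 2 * pp P.n i)⁻¹ * ∑ u, ∑ v ∈ nb E u, P.aa i E u v

/-- martingale part of the codegrees -/
def Mc (x : ℕ → St P.n) (j : ℕ) (u v : Fin P.n) : ℝ :=
  ∑ i ∈ range j, (yy P.n (i + 1))⁻¹ * (cod (x (i + 1)) u v - stepAvg (x i) fun E => cod E u v)

/-- martingale part of the degrees -/
def Md (x : ℕ → St P.n) (j : ℕ) (u : Fin P.n) : ℝ :=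
  ∑ i ∈ range j, (dd P.n (i + 1))⁻¹ * (deg (x (i + 1)) u - stepAvg (x i) fun E => deg E u)

def NoFail (x : ℕ → St P.n) : Prop :=
  ∀ j ≤ P.m, P.GoodTo x j → (∀ u v, s(u, v) ∈ x j → |P.Mc x j u v| ≤ P.η) ∧
    (∀ u, |P.Md x j u| ≤ P.η) ∧ Disc (pp P.n j) P.δ' P.κ (x j)

end Par

/-- the test function of the statement -/
def phi (n : ℕ) (e : ℕ) : ℝ := ((e : ℝ) / (n : ℝ) ^ ((3 : ℝ) / 2) - 1 / (2 * Real.sqrt 2)) ^ 2

/-! ## Trees -/

section Tree

/-- nodes of depth between `1` and `k` of the tree of words in `C` -/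
def Nd (C : Type) : ℕ → Type
  | 0 => Empty
  | k + 1 => C × Option (Nd C k)

instance Nd.fintype (C : Type) [Fintype C] : ∀ k, Fintype (Nd C k)
  | 0 => inferInstanceAs (Fintype Empty)
  | k + 1 =>
    letI := Nd.fintype C k
    inferInstanceAs (Fintype (C × Option (Nd C k)))

instance Nd.decEq (C : Type) (k : ℕ) : DecidableEq (Nd C k) := Classical.decEq _

variable {C J : Type} {M : ℕ}

/-- priority of the child `c` of the root -/
def hd {k : ℕ} (w : Nd C (k + 1) → Fin M) (c : C) : ℕ := (w (c, none) : Fin M)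

/-- priorities below the child `c` of the root -/
def sh {k : ℕ} (w : Nd C (k + 1) → Fin M) (c : C) : Nd C k → Fin M := fun i => w (c, some i)

/-- label of (the last letter of) a node -/
def labN (lab : C → J) : ∀ k, Nd C k → J
  | 0, i => i.elim
  | _ + 1, (c, none) => lab c
  | k + 1, (_, some i) => labN lab k i

variable (chi : C → Finset C)

/-- no child in `S` of priority `< u` is accepted -/
def Ok : ∀ k, Finset C → ℕ → (Nd C k → Fin M) → Prop
  | 0, _, _, _ => True
  | k + 1, S, u, w => ∀ c ∈ S, hd w c < u → ¬ Ok k (chi c) (hd w c) (sh w c)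

/-- the subtree below `c` is explored -/
def Opened (k : ℕ) (S : Finset C) (u : ℕ) (w : Nd C (k + 1) → Fin M) (c : C) : Prop :=
  c ∈ S ∧ hd w c < u ∧ ∀ c' ∈ S, hd w c' < hd w c → ¬ Ok chi k (chi c') (hd w c') (sh w c')

/-- the nodes whose priority is looked at -/
def Qd : ∀ k, Finset C → ℕ → (Nd C k → Fin M) → Nd C k → Prop
  | 0, _, _, _, _ => False
  | _ + 1, S, _, _, (c, none) => c ∈ S
  | k + 1, S, u, w, (c, some i) => Opened chi k S u w c ∧ Qd k (chi c) (hd w c) (sh w c) i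

/-- cavity recursion: probability that `c` has priority `< j` and is accepted -/
def RR (M : ℕ) : ℕ → C → ℝ
  | 0, _ => 0
  | j + 1, c => RR M j c + (M : ℝ)⁻¹ * ∏ c' ∈ chi c, (1 - RR M j c')

variable (lab : C → J)

/-- number of walks with `a` steps from `c` ending at the label `T` -/
def Nw : ℕ → C → J → ℝ
  | 0, c, T => ind (lab c = T)
  | a + 1, c, T => ∑ c' ∈ chi c, Nw a c' T

def VV (θ : ℝ) (K : ℕ) (c : C) (T : J) : ℝ := ∑ a ∈ range (K + 1), θ ^ a * Nw chi lab a c T

def XX [Fintype J] (θ : ℝ) (K : ℕ) (c c' : C) : ℝ :=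
  ∑ T, VV chi lab θ K c T * VV chi lab θ K c' T

def Loc [Fintype J] [DecidableEq C] (θ : ℝ) (K : ℕ) (S : Finset C) : ℝ :=
  ∑ c ∈ S, 2 * (VV chi lab θ K c (lab c) - 1) + ∑ c ∈ S, ∑ c' ∈ S.erase c, XX chi lab θ K c c'

def Col [Fintype J] [DecidableEq C] (θ : ℝ) (K : ℕ) : ℕ → Finset C → ℝ
  | 0, _ => 0
  | k + 1, S => Loc chi lab θ K S + θ * ∑ c ∈ S, Col θ K k (chi c)

end Tree

/-! ## Hypergraphs -/

section Hyp

variable {X J : Type} [Fintype X] [DecidableEq X] [Fintype J] [DecidableEq J]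
  (H : Finset J) (ed : J → Finset X)

/-- incidences -/
def Inc : Finset (X × J) := univ.filter fun c => c.2 ∈ H ∧ c.1 ∈ ed c.2

/-- non-backtracking successors -/
def chH (c : X × J) : Finset (X × J) :=
  (Inc H ed).filter fun c' => c'.1 ∈ ed c.2 ∧ c'.1 ≠ c.1 ∧ c'.2 ≠ c.2

def rootS (A : Finset X) : Finset (X × J) := (Inc H ed).filter fun c => c.1 ∈ A

/-- the process driven by priorities (ties are processed in parallel) -/
def par {M : ℕ} (A0 : Finset X) (w : J → Fin M) : ℕ → Finset X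
  | 0 => A0
  | u + 1 => par A0 w u \ (H.filter fun T => (w T : ℕ) = u ∧ ed T ⊆ par A0 w u).biUnion ed

/-- weighted number of cycles -/
def Xs (θ : ℝ) (K : ℕ) : ℝ :=
  ∑ c ∈ Inc H ed, ∑ c' ∈ ((Inc H ed).filter fun c' => c'.1 = c.1).erase c,
    XX (chH H ed) Prod.snd θ K c c'

end Hyp

end

end Crest.Agent.R30
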