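import Crest.Agent.R30.Proc
import Crest.Agent.R30.Grid

/-!
# R30 Drift: one step computations (task R30-Drift)

PLAN (aux in `namespace DriftA`).  With `Q⁻¹ = τ / (y (1 + ā))` (`Good.Q`), `sum_cod` gives
`stepAvg cod = Y - Q⁻¹ (2 y Y + y² A - Y)`, `Y = y (1 + a)`, `A = AA E y aa u v`, `|A| ≤ 3 δ`, and
`yy (i+1) = y (1 - τ)²`.  So the left side of `drift_cod` is `|Ψ - (a - τ (A - 2 ā))|` with
`Ψ = (1 - τ)⁻² (1 + a - τ B) - 1`, `B = (2 + 2a + A - (1 + a)/y) / (1 + ā) = 2 + 2a + A - 2ā + O(11 δ² + 2/y)`;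
total error `≤ τ (11 δ² + 2 / D + 14 τ)`.  Isolate this as a lemma about real numbers.
`drift_deg`: `stepAvg deg = deg - Q⁻¹ ∑_{w ∈ nb u} cod u w`, each `cod = y (1 ± δ)`, `dd (i+1) = d (1 - τ)`.
Variances: `0 ≤ k ≤ 3` gives `k² ≤ 3 k`, and the average of `k` is `≤ 3 τ y`, resp. `≤ 3 τ d`.
-/

set_option autoImplicit false

namespace Crest.Agent.R30

open Finset Crest.CombinatoricsR.TriangleRemoval

variable {P : Par} {i : ℕ} {E : St P.n}

namespace DriftA

theorem avg_eq {n : ℕ} {E : St n} (hQ : (triangles E).card ≠ 0) (X : St n → ℝ) :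
    stepAvg E X = X E - ((triangles E).card : ℝ)⁻¹ * ∑ t ∈ triangles E, (X E - X (E \ t.sym2)) := by
  have : ((triangles E).card : ℝ) ≠ 0 := Nat.cast_ne_zero.2 hQ
  unfold stepAvg
  rw [if_neg hQ, sum_sub_distrib, sum_const, nsmul_eq_mul, mul_sub, inv_mul_cancel_left₀ this]
  ring

theorem var_le {n : ℕ} {E : St n} (hQ : (triangles E).card ≠ 0) {X : St n → ℝ}
    (hX : ∀ E', Step E E' → 0 ≤ X E - X E' ∧ X E - X E' ≤ 3) :
    stepAvg E (fun E' => (X E' - X E) ^ 2) ≤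
      3 * (((triangles E).card : ℝ)⁻¹ * ∑ t ∈ triangles E, (X E - X (E \ t.sym2))) := by
  refine (stepAvg_mono E (g := fun E' => 3 * (X E - X E')) fun E' hE' => ?_).trans (le_of_eq ?_)
  · obtain ⟨h1, h2⟩ := hX E' hE'
    nlinarith
  · rw [stepAvg_const_mul]
    unfold stepAvg
    rw [if_neg hQ]

theorem facts (h : P.Good i E) (hi : i < P.m) :
    0 < yy P.n i ∧ 0 < dd P.n i ∧ 0 < tt P.n i ∧ tt P.n i ≤ 1 / 100 ∧ 0 ≤ P.δ ∧ P.δ ≤ 1 / 100 ∧
      |P.abar i E| ≤ P.δ ∧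
      ((triangles E).card : ℝ)⁻¹ = tt P.n i / (yy P.n i * (1 + P.abar i E)) := by
  have hz := P.z_ge
  have hy : 0 < yy P.n i := lt_of_lt_of_le (pow_pos P.z_pos 24) (Par.D_le_yy hi.le)
  have hτ := Par.tt_pos hi.le
  have key : ∀ k, k ≠ 0 → (P.z ^ k)⁻¹ ≤ 1 / 100 := fun k hk => by
    rw [one_div]
    refine inv_anti₀ (by norm_num) ?_
    calc (100 : ℝ) ≤ P.z := by linarith
      _ ≤ P.z ^ k := le_self_pow₀ (by linarith) hk
  refine ⟨hy, hy.trans_le (Par.yy_le_dd hi.le), hτ, (Par.tt_le hi.le).trans (key _ (by norm_num)),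
    by unfold Par.δ; positivity, key _ (by norm_num), h.abar_le hi.le, ?_⟩
  rw [← h.Q hi.le, div_mul_cancel_right₀ hτ.ne']

theorem cod_eq (hy : 0 < yy P.n i) (u v : Fin P.n) :
    cod E u v = yy P.n i * (1 + P.aa i E u v) := by
  unfold Par.aa
  field_simp
  ring

theorem deg_le (h : P.Good i E) (hi : i < P.m) (u : Fin P.n) : deg E u ≤ 2 * dd P.n i := by
  have hd := (facts h hi).2.1
  have hz := P.z_ge
  have h1 : P.δ' ≤ 1 := inv_le_one_of_one_le₀ (one_le_pow₀ (by linarith))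
  nlinarith [(abs_le.1 (h.deg u)).2]

theorem sum_cod_nb (h : P.Good i E) (u : Fin P.n) :
    |∑ w ∈ nb E u, cod E u w - deg E u * yy P.n i| ≤ deg E u * yy P.n i * P.δ := by
  unfold deg
  rw [mul_assoc, ← nsmul_eq_mul, ← nsmul_eq_mul, ← sum_const, ← sum_const, ← sum_sub_distrib]
  refine (abs_sum_le_sum_abs _ _).trans (sum_le_sum fun w hw => ?_)
  rw [mul_comm]
  exact h.cod u w (mem_nb.1 hw)

theorem real_cod {y τ δ a b A ε : ℝ} (hy : 0 < y) (hτ : 0 < τ) (hδ0 : 0 ≤ δ) (hδ : δ ≤ 1 / 100)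
    (ha : |a| ≤ δ) (hb : |b| ≤ δ) (hA : |A| ≤ 3 * δ) (h1 : δ ^ 2 ≤ ε) (h2 : y⁻¹ ≤ ε) (h3 : τ ≤ ε)
    (hε : ε ≤ 1 / 100) :
    |(y * (1 - τ) ^ 2)⁻¹ * (y * (1 + a) - τ / (y * (1 + b)) *
      (y * (1 + a) * (2 * y - 1) + y ^ 2 * A)) - 1 - (a - τ * (A - 2 * b))| ≤ τ * (42 * ε) := by
  have ha' := abs_le.1 ha
  have hb' := abs_le.1 hb
  have hA' := abs_le.1 hA
  have p1 : 0 < 1 - τ := by linarith
  have p2 : 0 < 1 + b := by linarith
  have e : (y * (1 - τ) ^ 2)⁻¹ * (y * (1 + a) - τ / (y * (1 + b)) *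
      (y * (1 + a) * (2 * y - 1) + y ^ 2 * A)) - 1 - (a - τ * (A - 2 * b)) =
      τ * (((1 - τ) ^ 2)⁻¹ * ((1 + b)⁻¹ * (b * (2 * a + A - 2 * b) + (1 + a) * y⁻¹) -
        τ * ((1 + a) + (2 - τ) * (A - 2 * b)))) := by
    field_simp
    ring
  have k1 : |b * (2 * a + A - 2 * b)| ≤ 7 * ε := by
    have : |2 * a + A - 2 * b| ≤ 7 * δ := by rw [abs_le]; constructor <;> linarith
    rw [abs_mul]
    nlinarith [mul_le_mul hb this (abs_nonneg _) hδ0]
  have k2 : |(1 + a) * y⁻¹| ≤ 2 * ε := by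
    have := inv_pos.2 hy
    rw [abs_of_nonneg (mul_nonneg (by linarith) this.le)]
    nlinarith
  have k3 : |(1 + b)⁻¹| ≤ 2 := by
    rw [abs_of_pos (inv_pos.2 p2), inv_le_comm₀ p2 (by norm_num)]
    linarith
  have k4 : |((1 - τ) ^ 2)⁻¹| ≤ 2 := by
    rw [abs_of_pos (by positivity), inv_le_comm₀ (by positivity) (by norm_num)]
    nlinarith
  have k5 : |(1 + a) + (2 - τ) * (A - 2 * b)| ≤ 3 := by
    have : |(2 - τ) * (A - 2 * b)| ≤ 2 * (5 * δ) := by
      rw [abs_mul]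
      refine mul_le_mul ?_ ?_ (abs_nonneg _) (by norm_num) <;> rw [abs_le] <;> constructor <;>
        linarith
    have := abs_le.1 this
    rw [abs_le]; constructor <;> linarith
  have k6 : |(1 + b)⁻¹ * (b * (2 * a + A - 2 * b) + (1 + a) * y⁻¹)| ≤ 2 * (9 * ε) := by
    rw [abs_mul]
    exact mul_le_mul k3 ((abs_add_le _ _).trans (by linarith)) (abs_nonneg _) (by norm_num)
  have k7 : |τ * ((1 + a) + (2 - τ) * (A - 2 * b))| ≤ ε * 3 := by
    rw [abs_mul, abs_of_pos hτ]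
    exact mul_le_mul h3 k5 (abs_nonneg _) (by linarith)
  rw [e, abs_mul, abs_of_pos hτ, abs_mul]
  refine mul_le_mul_of_nonneg_left ?_ hτ.le
  refine (mul_le_mul k4 ((abs_sub _ _).trans (add_le_add k6 k7)) (abs_nonneg _)
    (by norm_num)).trans (le_of_eq (by ring))

end DriftA

theorem drift_cod (h : P.Good i E) (hi : i < P.m) {u v : Fin P.n} (huv : s(u, v) ∈ E) :
    |(yy P.n (i + 1))⁻¹ * stepAvg E (fun E' => cod E' u v) - 1 -
      (P.aa i E u v - tt P.n i * (AA E (yy P.n i) (P.aa i E) u v - 2 * P.abar i E))| ≤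
      tt P.n i * (P.z ^ 15)⁻¹ := by
  obtain ⟨hy, hd, hτ, hτ', hδ0, hδ, hā, hQ⟩ := DriftA.facts h hi
  have hz := P.z_ge
  have ha := h.aa_le hi.le huv
  have hY : cod E u v = yy P.n i * (1 + P.aa i E u v) := DriftA.cod_eq hy u v
  have hS : ∑ w ∈ cn E u v, (cod E u w + cod E v w - 1) =
      cod E u v * (2 * yy P.n i - 1) + yy P.n i ^ 2 * AA E (yy P.n i) (P.aa i E) u v := by
    have : ∀ w, cod E u w + cod E v w - 1 =
        (2 * yy P.n i - 1) + yy P.n i * (P.aa i E u w + P.aa i E v w) := fun w => by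
      rw [DriftA.cod_eq hy u w, DriftA.cod_eq hy v w]; ring
    simp only [this]
    rw [sum_add_distrib, sum_const, nsmul_eq_mul, ← mul_sum, AA]
    unfold cod
    field_simp
  have hA : |AA E (yy P.n i) (P.aa i E) u v| ≤ 3 * P.δ := by
    have h1 : |∑ w ∈ cn E u v, (P.aa i E u w + P.aa i E v w)| ≤ cod E u v * (2 * P.δ) := by
      refine (abs_sum_le_sum_abs _ _).trans ?_
      unfold cod
      rw [← nsmul_eq_mul, ← sum_const]
      refine sum_le_sum fun w hw => (abs_add_le _ _).trans ?_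
      linarith [h.aa_le hi.le (mem_cn.1 hw).1, h.aa_le hi.le (mem_cn.1 hw).2]
    rw [AA, abs_mul, abs_of_pos (inv_pos.2 hy), inv_mul_le_iff₀ hy]
    refine h1.trans ?_
    rw [hY, mul_assoc]
    refine mul_le_mul_of_nonneg_left ?_ hy.le
    nlinarith [(abs_le.1 ha).2]
  have hy1 : yy P.n (i + 1) = yy P.n i * (1 - tt P.n i) ^ 2 := by
    unfold yy; rw [Par.pp_succ hi.le]; ring
  have hε : (P.z ^ 16)⁻¹ ≤ 1 / 100 := by
    rw [one_div]
    refine inv_anti₀ (by norm_num) ?_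
    calc (100 : ℝ) ≤ P.z := by linarith
      _ ≤ P.z ^ 16 := le_self_pow₀ (by linarith) (by norm_num)
  rw [DriftA.avg_eq (h.Q_ne hi.le), sum_cod h.sub huv, hS, hQ, hy1, hY]
  refine (DriftA.real_cod (ε := (P.z ^ 16)⁻¹) hy hτ hδ0 hδ ha hā hA ?_ ?_ ?_ hε).trans ?_
  · unfold Par.δ; rw [inv_pow, ← pow_mul]
  · refine inv_anti₀ (by positivity) (le_trans ?_ (Par.D_le_yy hi.le))
    exact pow_le_pow_right₀ (by linarith) (by norm_num)
  · exact (Par.tt_le hi.le).trans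
      (inv_anti₀ (by positivity) (pow_le_pow_right₀ (by linarith) (by norm_num)))
  · refine mul_le_mul_of_nonneg_left ?_ hτ.le
    rw [pow_succ, mul_inv, mul_comm 42, mul_assoc]
    refine mul_le_of_le_one_right (by positivity) ?_
    rw [inv_mul_le_iff₀ (by linarith)]
    linarith

theorem drift_deg (h : P.Good i E) (hi : i < P.m) (u : Fin P.n) :
    |(dd P.n (i + 1))⁻¹ * stepAvg E (fun E' => deg E' u) - deg E u / dd P.n i| ≤
      10 * tt P.n i * P.δ := by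
  obtain ⟨hy, hd, hτ, hτ', hδ0, hδ, hā, hQ⟩ := DriftA.facts h hi
  have hg := DriftA.deg_le h hi u
  have hS := DriftA.sum_cod_nb h u
  have hd1 : dd P.n (i + 1) = dd P.n i * (1 - tt P.n i) := by
    unfold dd; rw [Par.pp_succ hi.le]; ring
  have hg0 : 0 ≤ deg E u := Nat.cast_nonneg _
  rw [DriftA.avg_eq (h.Q_ne hi.le), sum_deg h.sub, hQ, hd1]
  generalize ∑ w ∈ nb E u, cod E u w = S at hS
  generalize deg E u = g at *
  generalize dd P.n i = d at *
  generalize yy P.n i = y at *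
  generalize tt P.n i = τ at *
  generalize P.abar i E = b at *
  generalize P.δ = δ at *
  have hb := abs_le.1 hā
  have h1 : 0 < 1 - τ := by linarith
  have h2 : 0 < 1 + b := by linarith
  have e : (d * (1 - τ))⁻¹ * (g - τ / (y * (1 + b)) * S) - g / d =
      τ * ((g * y * b - (S - g * y)) / (d * y * ((1 - τ) * (1 + b)))) := by
    field_simp
    ring
  have h3 : |g * y * b - (S - g * y)| ≤ 2 * (g * y * δ) := by
    refine (abs_sub _ _).trans ?_
    rw [abs_mul, abs_of_nonneg (mul_nonneg hg0 hy.le)]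
    linarith [mul_le_mul_of_nonneg_left hā (mul_nonneg hg0 hy.le)]
  have h4 : 1 / 2 ≤ (1 - τ) * (1 + b) := by nlinarith
  rw [e, abs_mul, abs_of_pos hτ, abs_div, abs_of_pos (by positivity : 0 < d * y * ((1 - τ) * (1 + b))),
    show 10 * τ * δ = τ * (10 * δ) by ring]
  refine mul_le_mul_of_nonneg_left ?_ hτ.le
  rw [div_le_iff₀ (by positivity)]
  refine h3.trans ?_
  have h5 : g * (y * δ) ≤ 2 * d * (y * δ) := mul_le_mul_of_nonneg_right hg (by positivity)
  have h6 : d * y * δ * (1 / 2) ≤ d * y * δ * ((1 - τ) * (1 + b)) :=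
    mul_le_mul_of_nonneg_left h4 (by positivity)
  have h7 : 0 ≤ d * y * δ := by positivity
  nlinarith

theorem var_cod (h : P.Good i E) (hi : i < P.m) {u v : Fin P.n} (huv : s(u, v) ∈ E) :
    stepAvg E (fun E' => (cod E' u v - cod E u v) ^ 2) ≤ 9 * tt P.n i * yy P.n i := by
  obtain ⟨hy, hd, hτ, hτ', hδ0, hδ, hā, hQ⟩ := DriftA.facts h hi
  refine (DriftA.var_le (h.Q_ne hi.le) fun E' hE' => step_cod hE' u v).trans ?_
  have hc : ∀ a b, s(a, b) ∈ E → cod E a b ≤ (1 + P.δ) * yy P.n i := fun a b hab => by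
    linarith [(abs_le.1 (h.cod a b hab)).2]
  have hS : ∑ w ∈ cn E u v, (cod E u w + cod E v w - 1) ≤
      (1 + P.δ) * yy P.n i * (2 * ((1 + P.δ) * yy P.n i)) := by
    refine le_trans ?_ (mul_le_mul_of_nonneg_right (hc u v huv) (by positivity))
    unfold cod
    rw [← nsmul_eq_mul, ← sum_const]
    refine sum_le_sum fun w hw => ?_
    have h1 := hc _ _ (mem_cn.1 hw).1
    have h2 := hc _ _ (mem_cn.1 hw).2
    unfold cod at h1 h2
    linarith
  rw [sum_cod h.sub huv, hQ]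
  generalize ∑ w ∈ cn E u v, (cod E u w + cod E v w - 1) = S at hS
  generalize yy P.n i = y at *
  generalize tt P.n i = τ at *
  generalize P.abar i E = b at *
  generalize P.δ = δ at *
  have hb := abs_le.1 hā
  have h2 : 0 < 1 + b := by linarith
  rw [div_mul_eq_mul_div, ← mul_div_assoc, div_le_iff₀ (by positivity)]
  have h3 : 2 * (1 + δ) ^ 2 ≤ 3 * (1 + b) := by nlinarith
  have h4 := mul_le_mul_of_nonneg_left h3 (by positivity : 0 ≤ τ * y ^ 2)
  have h5 := mul_le_mul_of_nonneg_left hS hτ.le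
  nlinarith

theorem var_deg (h : P.Good i E) (hi : i < P.m) (u : Fin P.n) :
    stepAvg E (fun E' => (deg E' u - deg E u) ^ 2) ≤ 9 * tt P.n i * dd P.n i := by
  obtain ⟨hy, hd, hτ, hτ', hδ0, hδ, hā, hQ⟩ := DriftA.facts h hi
  refine (DriftA.var_le (h.Q_ne hi.le) fun E' hE' => step_deg hE' u).trans ?_
  have hg := DriftA.deg_le h hi u
  have hS := (abs_le.1 (DriftA.sum_cod_nb h u)).2
  rw [sum_deg h.sub, hQ]
  generalize ∑ w ∈ nb E u, cod E u w = S at hS
  generalize deg E u = g at *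
  generalize dd P.n i = d at *
  generalize yy P.n i = y at *
  generalize tt P.n i = τ at *
  generalize P.abar i E = b at *
  generalize P.δ = δ at *
  have hb := abs_le.1 hā
  have h2 : 0 < 1 + b := by linarith
  rw [div_mul_eq_mul_div, ← mul_div_assoc, div_le_iff₀ (by positivity)]
  have h3 : 2 * (1 + δ) ≤ 3 * (1 + b) := by linarith
  have h4 := mul_le_mul_of_nonneg_left h3 (by positivity : 0 ≤ τ * y * d)
  have h5 := mul_le_mul_of_nonneg_left hS hτ.le
  have h6 := mul_le_mul_of_nonneg_left hg (by positivity : 0 ≤ τ * y * (1 + δ))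
  nlinarith

end Crest.Agent.R30
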