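import Crest.Agent.R30.Drift
import Crest.Agent.R30.Surv

/-!
# R30 Fail: the failure probability (task R30-Fail)

PLAN (aux in `namespace FailA`).  `noise_*`: `freedman` with `θ = z ^ 12`, `b = 3`, `w i = (yy (i+1))⁻¹ ≤ D⁻¹`,
`v i = 9 tt yy`, `w² v ≤ 18 tt / D` (`yy i ≤ 2 yy (i+1)`), so the exponent is `≤ -z + 18 L ≤ -10 L`;
`Act i E = Good i E ∧ s(u,v) ∈ E` (`Valid.anti`, `EE_mono`).  `fail_le`: union bound (`ind_exists_le`,
`EE_sum`) over `j ≤ m ≤ n²`, `u, v`, and over the pairs `(S, T) ≠ (∅, ∅)`: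
`∑_{S,T} x^(|S|+|T|) - 1 = (1 + x)^(2n) - 1 ≤ exp (2 n x) - 1 ≤ 4 n x`, `x = exp (-z) ≤ n⁻¹⁰`
(`Finset.prod_one_add`/`Finset.sum_pow_card_eq..`; for `S = T = ∅` the event is empty).
-/

set_option autoImplicit false

namespace Crest.Agent.R30

open Finset Crest.CombinatoricsR.TriangleRemoval

namespace FailA

theorem tt_small (P : Par) {i : ℕ} (hi : i ≤ P.m) : tt P.n i ≤ 1 / 100 := by
  have hz := P.z_ge
  refine (Par.tt_le hi).trans ?_
  rw [one_div]
  refine inv_anti₀ (by norm_num) ?_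
  calc (100 : ℝ) ≤ P.z := by linarith
    _ ≤ P.z ^ 100 := le_self_pow₀ (by linarith) (by norm_num)

theorem exp_le (P : Par) {s : ℝ} (h : s ≤ -(10 * P.L)) : Real.exp s ≤ ((P.n : ℝ) ^ 10)⁻¹ := by
  rw [← P.exp_L, ← Real.exp_nat_mul, ← Real.exp_neg]
  exact Real.exp_le_exp.2 (by exact_mod_cast h)

theorem noise (P : Par) {j : ℕ} (hj : j ≤ P.m) (Act : ℕ → St P.n → Prop) (X : St P.n → ℝ)
    (r : ℕ → ℝ) (hr : ∀ i < P.m, P.D ≤ r (i + 1) ∧ r i ≤ 2 * r (i + 1))
    (hb : ∀ E E', Step E E' → 0 ≤ X E - X E' ∧ X E - X E' ≤ 3)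
    (hv : ∀ i < P.m, ∀ E, Act i E → stepAvg E (fun E' => (X E' - X E) ^ 2) ≤ 9 * tt P.n i * r i) :
    EE P.n P.m (fun x => ind ((∀ i < j, Act i (x i)) ∧
      P.η < |∑ i ∈ range j, (r (i + 1))⁻¹ * (X (x (i + 1)) - stepAvg (x i) X)|)) ≤
      2 * ((P.n : ℝ) ^ 10)⁻¹ := by
  have hz := P.z_ge
  have hD : 0 < P.D := pow_pos P.z_pos 24
  refine (freedman hj Act X (fun i => (r (i + 1))⁻¹) (fun i => 9 * tt P.n i * r i)
    (θ := P.z ^ 12) (b := 3) (by positivity) (fun i hi => ?_) (fun i _ E _ E' hE' => ?_)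
    fun i hi => hv i (by omega)).trans ?_
  · have h1 := (hr i (by omega)).1
    have h2 : 0 < r (i + 1) := hD.trans_le h1
    refine ⟨by positivity, ?_⟩
    rw [mul_right_comm, mul_inv_le_iff₀ h2, one_mul]
    refine le_trans ?_ h1
    have h3 : P.z ≤ P.z ^ 12 := le_self_pow₀ (by linarith) (by norm_num)
    unfold Par.D
    rw [show P.z ^ 24 = P.z ^ 12 * P.z ^ 12 by ring]
    exact mul_le_mul_of_nonneg_left (by linarith) (by positivity)
  · obtain ⟨h1, h2⟩ := hb E E' hE'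
    rw [abs_le]; constructor <;> linarith
  · refine mul_le_mul_of_nonneg_left (exp_le P ?_) (by norm_num)
    have h1 : P.z ^ 12 * P.η = P.z := by
      unfold Par.η
      field_simp
    have h2 : (P.z ^ 12) ^ 2 * ∑ i ∈ range j, (r (i + 1))⁻¹ ^ 2 * (9 * tt P.n i * r i) ≤
        ∑ i ∈ range j, 18 * tt P.n i := by
      rw [mul_sum]
      refine sum_le_sum fun i hi => ?_
      have hi' : i < P.m := (mem_range.1 hi).trans_le hj
      obtain ⟨k1, k2⟩ := hr i hi'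
      have k3 : 0 < r (i + 1) := hD.trans_le k1
      have k4 := Par.tt_pos hi'.le
      have e : (P.z ^ 12) ^ 2 * ((r (i + 1))⁻¹ ^ 2 * (9 * tt P.n i * r i)) =
          9 * tt P.n i * ((r i / r (i + 1)) * (P.D / r (i + 1))) := by
        unfold Par.D
        field_simp
      rw [e, show 18 * tt P.n i = 9 * tt P.n i * (2 * 1) by ring]
      refine mul_le_mul_of_nonneg_left (mul_le_mul ((div_le_iff₀ k3).2 k2)
        ((div_le_one k3).2 k1) (by positivity) (by norm_num)) (by positivity)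
    rw [← mul_sum] at h2
    have h3 := Par.sum_tt hj
    have h4 := P.L_le
    have h5 := P.L_ge
    linarith

theorem one_le {α : Type} [Fintype α] (p : α → Prop) {a : α} (h : p a) : 1 ≤ ∑ a, ind (p a) := by
  rw [← ind_pos h]
  exact single_le_sum (f := fun a => ind (p a)) (fun _ _ => ind_nonneg _) (mem_univ a)

theorem one_le₂ {α β : Type} [Fintype α] [Fintype β] (p : α → β → Prop) {a : α} {b : β}
    (h : p a b) : 1 ≤ ∑ a, ∑ b, ind (p a b) :=
  (one_le (p a) h).trans (single_le_sum (f := fun a => ∑ b, ind (p a b))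
    (fun _ _ => sum_nonneg fun _ _ => ind_nonneg _) (mem_univ a))

theorem disc_sum (P : Par) {j : ℕ} (hj : j ≤ P.m) :
    ∑ S : Finset (Fin P.n), ∑ T : Finset (Fin P.n), EE P.n P.m (fun x => ind (P.GoodTo x j ∧
      (1 + P.δ') * pp P.n j * S.card * T.card + P.κ * (S.card + T.card) < eST (x j) S T)) ≤
      4 * P.n * ((P.n : ℝ) ^ 10)⁻¹ := by
  have hn : (3 : ℝ) ≤ P.n := by exact_mod_cast P.n3
  have hx : Real.exp (-P.z) ≤ ((P.n : ℝ) ^ 10)⁻¹ := exp_le P (by linarith [P.L_le, P.L_ge])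
  have hx0 := (Real.exp_pos (-P.z)).le
  have hd := disc_tail P hj
  generalize Real.exp (-P.z) = y at hx hx0 hd
  have h1 : ∀ S T : Finset (Fin P.n), EE P.n P.m (fun x => ind (P.GoodTo x j ∧
      (1 + P.δ') * pp P.n j * S.card * T.card + P.κ * (S.card + T.card) < eST (x j) S T)) ≤
      y ^ S.card * y ^ T.card - (if S = ∅ then 1 else 0) * (if T = ∅ then 1 else 0) := by
    intro S T
    by_cases h : S = ∅ ∧ T = ∅
    · obtain ⟨rfl, rfl⟩ := h
      refine (EE_mono P.m (g := fun _ => 0) fun x _ => (ind_neg fun h => ?_).le).trans ?_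
      · simpa [eST] using h.2
      · rw [EE_const]; simp
    · have : ((if S = ∅ then 1 else 0) * (if T = ∅ then 1 else 0) : ℝ) = 0 := by
        split_ifs with h1 h2
        · exact absurd ⟨h1, h2⟩ h
        all_goals simp
      rw [this, sub_zero, ← pow_add]
      exact hd S T
  have h2 : ∑ S : Finset (Fin P.n), y ^ S.card = (1 + y) ^ P.n := by
    have := Finset.prod_one_add (f := fun _ : Fin P.n => y) univ
    simp only [prod_const, card_univ, Fintype.card_fin, powerset_univ] at this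
    exact this.symm
  refine (sum_le_sum fun S _ => sum_le_sum fun T _ => h1 S T).trans ?_
  simp only [sum_sub_distrib, ← mul_sum, ← sum_mul, h2, sum_ite_eq', mem_univ, if_true, mul_one]
  have h3 : (1 + y) ^ P.n ≤ Real.exp (P.n * y) := by
    rw [Real.exp_nat_mul]
    exact pow_le_pow_left₀ (by positivity) (by linarith [Real.add_one_le_exp y]) _
  have h4 : (1 + y) ^ P.n * (1 + y) ^ P.n ≤ Real.exp (2 * (P.n * y)) := by
    rw [two_mul, Real.exp_add]
    exact mul_le_mul h3 h3 (by positivity) (Real.exp_pos _).le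
  have h5 : (P.n : ℝ) * y ≤ P.n * ((P.n : ℝ) ^ 10)⁻¹ := mul_le_mul_of_nonneg_left hx (by positivity)
  have h6 : 2 * ((P.n : ℝ) * ((P.n : ℝ) ^ 10)⁻¹) ≤ 1 := by
    rw [← mul_assoc, mul_inv_le_iff₀ (by positivity), one_mul]
    calc 2 * (P.n : ℝ) ≤ (P.n : ℝ) ^ 2 := by nlinarith
      _ ≤ (P.n : ℝ) ^ 10 := pow_le_pow_right₀ (by linarith) (by norm_num)
  have h7 : 0 ≤ 2 * ((P.n : ℝ) * y) := by positivity
  have h8 := Real.abs_exp_sub_one_le (x := 2 * ((P.n : ℝ) * y)) (by rw [abs_of_nonneg h7]; linarith)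
  rw [abs_of_nonneg h7] at h8
  have h9 := (abs_le.1 h8).2
  linarith

end FailA

theorem noise_cod (P : Par) {j : ℕ} (hj : j ≤ P.m) (u v : Fin P.n) :
    EE P.n P.m (fun x => ind (P.GoodTo x j ∧ s(u, v) ∈ x j ∧ P.η < |P.Mc x j u v|)) ≤
      2 * ((P.n : ℝ) ^ 10)⁻¹ := by
  refine (EE_mono P.m fun x hx => ind_mono fun h => ?_).trans
    (FailA.noise P hj (fun i E => P.Good i E ∧ s(u, v) ∈ E) (fun E => cod E u v) (yy P.n)
      (fun i hi => ⟨Par.D_le_yy hi, ?_⟩) (fun E E' h => step_cod h u v)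
      fun i hi E hE => var_cod hE.1 hi hE.2)
  · exact ⟨fun i hi => ⟨h.1 i hi, hx.anti hi.le hj h.2.1⟩, h.2.2⟩
  · have h1 := FailA.tt_small P hi.le
    have h2 : 0 < yy P.n i := lt_of_lt_of_le (pow_pos P.z_pos 24) (Par.D_le_yy hi.le)
    have h3 : yy P.n (i + 1) = yy P.n i * (1 - tt P.n i) ^ 2 := by
      unfold yy; rw [Par.pp_succ hi.le]; ring
    have h4 : 1 ≤ 2 * (1 - tt P.n i) ^ 2 := by nlinarith
    rw [h3]
    nlinarith

theorem noise_deg (P : Par) {j : ℕ} (hj : j ≤ P.m) (u : Fin P.n) :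
    EE P.n P.m (fun x => ind (P.GoodTo x j ∧ P.η < |P.Md x j u|)) ≤ 2 * ((P.n : ℝ) ^ 10)⁻¹ := by
  refine FailA.noise P hj (fun i E => P.Good i E) (fun E => deg E u) (dd P.n)
      (fun i hi => ⟨(Par.D_le_yy hi).trans (Par.yy_le_dd hi), ?_⟩) (fun E E' h => step_deg h u)
      fun i hi E hE => var_deg hE hi u
  have h1 := FailA.tt_small P hi.le
  have h2 : 0 < dd P.n i :=
    lt_of_lt_of_le (pow_pos P.z_pos 24) ((Par.D_le_yy hi.le).trans (Par.yy_le_dd hi.le))
  have h3 : dd P.n (i + 1) = dd P.n i * (1 - tt P.n i) := by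
    unfold dd; rw [Par.pp_succ hi.le]; ring
  rw [h3]
  nlinarith

theorem fail_le (P : Par) : EE P.n P.m (fun x => ind (¬ P.NoFail x)) ≤ ((P.n : ℝ) ^ 2)⁻¹ := by
  have hn : (3 : ℝ) ≤ P.n := by exact_mod_cast P.n3
  refine (EE_mono P.m (g := fun x => ∑ j ∈ range (P.m + 1),
      (∑ u, ∑ v, ind (P.GoodTo x j ∧ s(u, v) ∈ x j ∧ P.η < |P.Mc x j u v|) +
      (∑ u, ind (P.GoodTo x j ∧ P.η < |P.Md x j u|) +
      ∑ S : Finset (Fin P.n), ∑ T : Finset (Fin P.n), ind (P.GoodTo x j ∧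
        (1 + P.δ') * pp P.n j * S.card * T.card + P.κ * (S.card + T.card) < eST (x j) S T))))
    fun x _ => ?_).trans ?_
  · have n1 : ∀ j, 0 ≤ ∑ u, ∑ v, ind (P.GoodTo x j ∧ s(u, v) ∈ x j ∧ P.η < |P.Mc x j u v|) :=
      fun j => sum_nonneg fun _ _ => sum_nonneg fun _ _ => ind_nonneg _
    have n2 : ∀ j, 0 ≤ ∑ u, ind (P.GoodTo x j ∧ P.η < |P.Md x j u|) :=
      fun j => sum_nonneg fun _ _ => ind_nonneg _
    have n3 : ∀ j, 0 ≤ ∑ S : Finset (Fin P.n), ∑ T : Finset (Fin P.n), ind (P.GoodTo x j ∧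
        (1 + P.δ') * pp P.n j * S.card * T.card + P.κ * (S.card + T.card) < eST (x j) S T) :=
      fun j => sum_nonneg fun _ _ => sum_nonneg fun _ _ => ind_nonneg _
    by_cases h : P.NoFail x
    · rw [ind_neg (not_not.2 h)]
      exact sum_nonneg fun j _ => add_nonneg (n1 j) (add_nonneg (n2 j) (n3 j))
    · rw [ind_pos h]
      unfold Par.NoFail at h
      simp only [not_forall] at h
      obtain ⟨j, hj, hg, h⟩ := h
      refine le_trans ?_ (single_le_sum (fun j _ => add_nonneg (n1 j) (add_nonneg (n2 j) (n3 j)))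
        (mem_range.2 (Nat.lt_succ_of_le hj)))
      rw [not_and_or, not_and_or] at h
      rcases h with h | h | h
      · push Not at h
        obtain ⟨u, v, h1, h2⟩ := h
        have := FailA.one_le₂ (fun u v => P.GoodTo x j ∧ s(u, v) ∈ x j ∧ P.η < |P.Mc x j u v|)
          ⟨hg, h1, h2⟩
        linarith [n2 j, n3 j]
      · push Not at h
        obtain ⟨u, h1⟩ := h
        have := FailA.one_le (fun u => P.GoodTo x j ∧ P.η < |P.Md x j u|) ⟨hg, h1⟩
        linarith [n1 j, n3 j]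
      · unfold Disc at h
        push Not at h
        obtain ⟨S, T, h1⟩ := h
        have := FailA.one_le₂ (fun S T : Finset (Fin P.n) => P.GoodTo x j ∧
          (1 + P.δ') * pp P.n j * S.card * T.card + P.κ * (S.card + T.card) < eST (x j) S T)
          ⟨hg, h1⟩
        linarith [n1 j, n2 j]
  · rw [EE_sum]
    refine (sum_le_sum (g := fun _ => 8 * (P.n : ℝ) ^ 2 * ((P.n : ℝ) ^ 10)⁻¹) fun j hj => ?_).trans ?_
    · have hj' : j ≤ P.m := Nat.lt_succ_iff.1 (mem_range.1 hj)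
      rw [EE_add, EE_add]
      simp only [EE_sum]
      have k1 := sum_le_sum fun u (_ : u ∈ univ) =>
        sum_le_sum fun v (_ : v ∈ univ) => noise_cod P hj' u v
      have k2 := sum_le_sum fun u (_ : u ∈ univ) => noise_deg P hj' u
      have k3 := FailA.disc_sum P hj'
      simp only [sum_const, card_univ, Fintype.card_fin, nsmul_eq_mul] at k1 k2
      have k4 : (P.n : ℝ) * ((P.n : ℝ) ^ 10)⁻¹ ≤ (P.n : ℝ) ^ 2 * ((P.n : ℝ) ^ 10)⁻¹ :=
        mul_le_mul_of_nonneg_right (by nlinarith) (by positivity)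
      nlinarith
    · have h1 : ((P.m + 1 : ℕ) : ℝ) ≤ (P.n : ℝ) ^ 2 := by
        have h2 : ((6 * P.m : ℕ) : ℝ) ≤ ((P.n ^ 2 : ℕ) : ℝ) := Nat.cast_le.2 P.m_le
        push_cast at h2 ⊢
        nlinarith
      rw [sum_const, card_range, nsmul_eq_mul]
      refine (mul_le_mul_of_nonneg_right h1 (by positivity)).trans ?_
      have h3 : (8 : ℝ) ≤ (P.n : ℝ) ^ 4 := le_trans (by norm_num) (pow_le_pow_left₀ (by norm_num) hn 4)
      have e : (P.n : ℝ) ^ 2 * (8 * (P.n : ℝ) ^ 2 * ((P.n : ℝ) ^ 10)⁻¹) =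
          ((P.n : ℝ) ^ 2)⁻¹ * (8 / (P.n : ℝ) ^ 4) := by
        field_simp
      rw [e]
      exact mul_le_of_le_one_right (by positivity) ((div_le_one (by positivity)).2 h3)

end Crest.Agent.R30
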