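import Crest.Agent.R30.Basic

/-!
# R30 Graph: counting identities (task R30-Graph)

PLAN (aux in `namespace GraphA`).  `tri_card`: `w ↦ {u, v, w}` is a bijection from `cn E u v` onto the
triangles containing `u` and `v`.  An edge `s(a, b)` is removed by `t` iff `a ∈ t ∧ b ∈ t`
(`Finset.mk_mem_sym2_iff`).  `six_Q`: double counting of (triangle, ordered pair of distinct
vertices of it).  `sum_cod`: `cod E u v - cod (E \ t.sym2) u v` is the number of `w ∈ cn E u v` with
`(u ∈ t ∧ w ∈ t) ∨ (v ∈ t ∧ w ∈ t)`; exchange the sums and use inclusion-exclusion (the only triangle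
containing `u, v, w` is `{u, v, w}`).  `sum_deg`, `sum_eST` similarly.  A lost neighbour lies in `t`,
hence the bounds `3` and (pairs in `t ×ˢ t`) `9`.  `touch`: for `e ∈ F` at least `c - |F|` triangles
contain `e` and no other edge of `F` (every other edge of `F` determines at most one third vertex), and
these sets of triangles are disjoint for different `e`.
-/

set_option autoImplicit false

namespace Crest.Agent.R30

open Finset Crest.CombinatoricsR.TriangleRemoval

variable {n : ℕ} {E : St n}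

theorem mem_nb {u w : Fin n} : w ∈ nb E u ↔ s(u, w) ∈ E := by simp [nb]

theorem mem_cn {u v w : Fin n} : w ∈ cn E u v ↔ s(u, w) ∈ E ∧ s(v, w) ∈ E := by simp [cn, nb]

theorem ne_of_mem (hE : E ⊆ allEdges n) {u v : Fin n} (h : s(u, v) ∈ E) : u ≠ v := by
  simpa [allEdges] using hE h

theorem mem_edT {t : Finset (Fin n)} {u v : Fin n} : s(u, v) ∈ edT t ↔ u ∈ t ∧ v ∈ t ∧ u ≠ v := by
  simp [edT, and_assoc]

namespace GraphA

theorem edT_sub (t : Finset (Fin n)) : edT t ⊆ allEdges n := fun _ he =>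
  mem_filter.2 ⟨mem_univ _, (mem_filter.1 he).2⟩

theorem sum_nb (hE : E ⊆ allEdges n) : ∑ u, (nb E u).card = 2 * E.card := by
  have h1 : ∑ u, (nb E u).card =
      ((univ : Finset (Fin n × Fin n)).filter fun q => s(q.1, q.2) ∈ E).card := by
    simp only [nb, card_filter]
    rw [Fintype.sum_prod_type]
  rw [h1, card_eq_sum_card_fiberwise (f := fun q : Fin n × Fin n => s(q.1, q.2)) (t := E)
    (s := (univ : Finset (Fin n × Fin n)).filter fun q => s(q.1, q.2) ∈ E)
    (fun q hq => (mem_filter.1 (mem_coe.1 hq)).2), mul_comm, ← smul_eq_mul, ← sum_const]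
  refine sum_congr rfl fun e he => ?_
  induction e using Sym2.ind with
  | _ a b =>
    have hab := ne_of_mem hE he
    rw [← card_pair (a := (a, b)) (b := (b, a)) fun h => hab (congrArg Prod.fst h)]
    congr 1
    ext ⟨x, y⟩
    simp only [mem_filter, mem_univ, true_and, Sym2.eq_iff, mem_insert, mem_singleton,
      Prod.mk.injEq]
    refine ⟨fun h => h.2, fun h => ⟨?_, h⟩⟩
    rcases h with ⟨rfl, rfl⟩ | ⟨rfl, rfl⟩
    · exact he
    · rw [Sym2.eq_swap]; exact he

theorem eq_triple {t : Finset (Fin n)} (ht : t.card = 3) {a b c : Fin n} (ha : a ∈ t) (hb : b ∈ t)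
    (hc : c ∈ t) (hab : a ≠ b) (hac : a ≠ c) (hbc : b ≠ c) : t = {a, b, c} := by
  symm
  refine eq_of_subset_of_card_le (fun x hx => ?_) ?_
  · simp only [mem_insert, mem_singleton] at hx
    rcases hx with rfl | rfl | rfl <;> assumption
  · rw [ht, card_eq_three.2 ⟨a, b, c, hab, hac, hbc, rfl⟩]

theorem card_loss {α : Type} (A : Finset α) (q : α → Prop) [DecidablePred fun a => ¬ q a] :
    (A.card : ℝ) - ((A.filter fun a => ¬ q a).card : ℝ) = ∑ a ∈ A, ind (q a) := by
  rw [← sum_ind]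
  simp only [ind_not, sum_sub_distrib, sum_const, nsmul_eq_mul, mul_one, sub_sub_cancel]

theorem loss_le {α : Type} {A A' B : Finset α} (h1 : ∀ a ∈ A', a ∈ A)
    (h2 : ∀ a ∈ A, a ∉ A' → a ∈ B) :
    0 ≤ (A.card : ℝ) - A'.card ∧ (A.card : ℝ) - A'.card ≤ (B.card : ℝ) := by
  classical
  have h3 : A'.card ≤ A.card := card_le_card h1
  have h4 : A.card ≤ A'.card + B.card := by
    refine le_trans (card_le_card fun a ha => ?_) (card_union_le A' B)
    by_cases h : a ∈ A'
    · exact mem_union_left _ h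
    · exact mem_union_right _ (h2 a ha h)
  have h3' : (A'.card : ℝ) ≤ A.card := by exact_mod_cast h3
  have h4' : (A.card : ℝ) ≤ A'.card + B.card := by exact_mod_cast h4
  constructor <;> linarith

end GraphA

theorem card_edT {t : Finset (Fin n)} (ht : t.card = 3) : (edT t).card = 3 := by
  have h := GraphA.sum_nb (E := edT t) (GraphA.edT_sub t)
  have h2 : ∑ u, (nb (edT t) u).card = ∑ u ∈ t, 2 := by
    rw [← sum_subset (subset_univ t)]
    · refine sum_congr rfl fun u hu => ?_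
      have : nb (edT t) u = t.erase u := by
        ext w; simp only [mem_nb, mem_edT, mem_erase]; tauto
      rw [this, card_erase_of_mem hu, ht]
    · intro u _ hu
      rw [card_eq_zero, eq_empty_iff_forall_notMem]
      intro w hw
      exact hu (mem_edT.1 (mem_nb.1 hw)).1
  rw [h2, sum_const, ht, smul_eq_mul] at h
  omega

theorem mem_tri {t : Finset (Fin n)} : t ∈ triangles E ↔ t.card = 3 ∧ edT t ⊆ E := by
  simp only [triangles, mem_filter, mem_powersetCard, subset_univ, true_and]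
  refine and_congr_right fun _ => ⟨fun h e he => ?_, fun h u hu v hv huv => h (mem_edT.2 ⟨hu, hv, huv⟩)⟩
  induction e using Sym2.ind with
  | _ u v =>
    obtain ⟨h1, h2, h3⟩ := mem_edT.1 he
    exact h u h1 v h2 h3

theorem sdiff_sym2 (hE : E ⊆ allEdges n) (t : Finset (Fin n)) : E \ t.sym2 = E \ edT t := by
  ext e
  simp only [mem_sdiff, edT, mem_filter]
  refine and_congr_right fun he => ?_
  have : ¬ e.IsDiag := (mem_filter.1 (hE he)).2
  tauto

theorem card_step (hE : E ⊆ allEdges n) {t : Finset (Fin n)} (ht : t ∈ triangles E) :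
    (E \ t.sym2).card + 3 = E.card := by
  obtain ⟨h1, h2⟩ := mem_tri.1 ht
  rw [sdiff_sym2 hE, ← card_edT h1, card_sdiff_add_card_eq_card h2]

theorem sum_deg_eq (hE : E ⊆ allEdges n) : ∑ u, deg E u = 2 * (E.card : ℝ) := by
  unfold deg
  exact_mod_cast GraphA.sum_nb hE

theorem deg_all (u : Fin n) : deg (allEdges n) u = n - 1 := by
  have : nb (allEdges n) u = univ.erase u := by
    ext w; simp [nb, allEdges, eq_comm]
  unfold deg
  rw [this, card_erase_of_mem (mem_univ u), card_univ, Fintype.card_fin,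
    Nat.cast_sub (Nat.succ_le_of_lt u.pos), Nat.cast_one]

theorem cod_all {u v : Fin n} (h : u ≠ v) : cod (allEdges n) u v = n - 2 := by
  have : cn (allEdges n) u v = (univ.erase u).erase v := by
    ext w; simp [cn, nb, allEdges, eq_comm, and_comm]
  have h1 : v ∈ univ.erase u := mem_erase.2 ⟨h.symm, mem_univ _⟩
  have h2 := card_erase_add_one h1
  have h3 := card_erase_add_one (mem_univ u)
  rw [card_univ, Fintype.card_fin] at h3
  unfold cod
  rw [this, eq_sub_iff_add_eq]
  exact_mod_cast (by omega : ((univ.erase u).erase v).card + 2 = n)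

theorem card_all : 2 * ((allEdges n).card : ℝ) = (n : ℝ) ^ 2 - n := by
  rw [← sum_deg_eq (Subset.refl _)]
  simp only [deg_all, sum_const, card_univ, Fintype.card_fin, nsmul_eq_mul]
  ring

/-- sums over the triangles through an edge -/
theorem sum_tri (hE : E ⊆ allEdges n) {u v : Fin n} (h : s(u, v) ∈ E) (f : Finset (Fin n) → ℝ) :
    ∑ t ∈ (triangles E).filter (fun t => s(u, v) ∈ edT t), f t = ∑ w ∈ cn E u v, f {u, v, w} := by
  have huv := ne_of_mem hE h
  symm
  refine sum_bij (fun w _ => ({u, v, w} : Finset (Fin n))) (fun w hw => ?_) (fun w hw w' hw' e => ?_)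
    (fun t ht => ?_) fun _ _ => rfl
  · obtain ⟨h1, h2⟩ := mem_cn.1 hw
    have huw := ne_of_mem hE h1
    have hvw := ne_of_mem hE h2
    refine mem_filter.2 ⟨?_, mem_edT.2 ⟨by simp, by simp, huv⟩⟩
    simp only [triangles, mem_filter, mem_powersetCard, subset_univ, true_and]
    refine ⟨card_eq_three.2 ⟨u, v, w, huv, huw, hvw, rfl⟩, fun a ha b hb hab => ?_⟩
    simp only [mem_insert, mem_singleton] at ha hb
    rcases ha with rfl | rfl | rfl <;> rcases hb with rfl | rfl | rfl <;>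
      first | exact absurd rfl hab | assumption | (rw [Sym2.eq_swap]; assumption)
  · obtain ⟨h1, h2⟩ := mem_cn.1 hw
    have huw := ne_of_mem hE h1
    have hvw := ne_of_mem hE h2
    have : w ∈ ({u, v, w'} : Finset (Fin n)) := by rw [← e]; simp
    simp only [mem_insert, mem_singleton] at this
    rcases this with h' | h' | h'
    · exact absurd h'.symm huw
    · exact absurd h'.symm hvw
    · exact h'
  · obtain ⟨h1, h2⟩ := mem_filter.1 ht
    obtain ⟨h3, h4⟩ := mem_tri.1 h1
    obtain ⟨hu, hv, -⟩ := mem_edT.1 h2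
    obtain ⟨w, hw, hw'⟩ : ∃ w ∈ t, w ∉ ({u, v} : Finset (Fin n)) :=
      exists_mem_notMem_of_card_lt_card (by rw [h3, card_pair huv]; norm_num)
    simp only [mem_insert, mem_singleton, not_or] at hw'
    refine ⟨w, mem_cn.2 ⟨h4 (mem_edT.2 ⟨hu, hw, Ne.symm hw'.1⟩),
      h4 (mem_edT.2 ⟨hv, hw, Ne.symm hw'.2⟩)⟩, ?_⟩
    exact (GraphA.eq_triple h3 hu hv hw huv (Ne.symm hw'.1) (Ne.symm hw'.2)).symm

theorem tri_card (hE : E ⊆ allEdges n) {u v : Fin n} (h : s(u, v) ∈ E) :
    (((triangles E).filter fun t => s(u, v) ∈ edT t).card : ℝ) = cod E u v := by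
  have := sum_tri hE h fun _ => 1
  simpa [cod] using this

theorem GraphA.sum_deg (hE : E ⊆ allEdges n) (u : Fin n) :
    ∑ t ∈ triangles E, (deg E u - deg (E \ t.sym2) u) = ∑ w ∈ nb E u, cod E u w := by
  have e : ∀ t, deg E u - deg (E \ t.sym2) u = ∑ w ∈ nb E u, ind (s(u, w) ∈ edT t) := fun t => by
    have : nb (E \ t.sym2) u = (nb E u).filter fun w => ¬ s(u, w) ∈ edT t := by
      ext w; simp only [sdiff_sym2 hE, mem_nb, mem_filter, mem_sdiff]
    unfold deg
    rw [this, GraphA.card_loss]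
  simp only [e]
  rw [sum_comm]
  refine sum_congr rfl fun w hw => ?_
  rw [sum_ind, tri_card hE (mem_nb.1 hw)]

theorem six_Q (hE : E ⊆ allEdges n) :
    6 * ((triangles E).card : ℝ) = ∑ u, ∑ v ∈ nb E u, cod E u v := by
  simp only [← GraphA.sum_deg hE]
  rw [sum_comm, mul_comm, ← nsmul_eq_mul, ← sum_const]
  refine sum_congr rfl fun t ht => ?_
  rw [sum_sub_distrib, sum_deg_eq hE, sum_deg_eq (sdiff_subset.trans hE), ← card_step hE ht]
  push_cast
  ring

theorem sum_cod (hE : E ⊆ allEdges n) {u v : Fin n} (h : s(u, v) ∈ E) :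
    ∑ t ∈ triangles E, (cod E u v - cod (E \ t.sym2) u v) =
      ∑ w ∈ cn E u v, (cod E u w + cod E v w - 1) := by
  have e : ∀ t, cod E u v - cod (E \ t.sym2) u v = ∑ w ∈ cn E u v,
      (ind (s(u, w) ∈ edT t) + ind (s(v, w) ∈ edT t) -
        ind (s(u, w) ∈ edT t) * ind (s(v, w) ∈ edT t)) := fun t => by
    have : cn (E \ t.sym2) u v =
        (cn E u v).filter fun w => ¬ (s(u, w) ∈ edT t ∨ s(v, w) ∈ edT t) := by
      ext w; simp only [sdiff_sym2 hE, mem_cn, mem_filter, mem_sdiff]; tauto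
    unfold cod
    rw [this, GraphA.card_loss]
    refine sum_congr rfl fun w _ => ?_
    by_cases h1 : s(u, w) ∈ edT t <;> by_cases h2 : s(v, w) ∈ edT t <;> simp [ind, h1, h2]
  simp only [e]
  rw [sum_comm]
  refine sum_congr rfl fun w hw => ?_
  obtain ⟨h1, h2⟩ := mem_cn.1 hw
  rw [sum_sub_distrib, sum_add_distrib, sum_ind, sum_ind, tri_card hE h1, tri_card hE h2]
  congr 1
  have hv : v ∈ cn E u w := mem_cn.2 ⟨h, by rw [Sym2.eq_swap]; exact h2⟩
  have e2 : ∑ t ∈ triangles E, ind (s(u, w) ∈ edT t) * ind (s(v, w) ∈ edT t) =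
      ∑ t ∈ (triangles E).filter (fun t => s(u, w) ∈ edT t), ind (s(v, w) ∈ edT t) := by
    rw [sum_filter]
    refine sum_congr rfl fun t _ => ?_
    rw [ind_eq_ite (s(u, w) ∈ edT t), boole_mul]
  rw [e2, sum_tri hE h1, sum_eq_single_of_mem v hv]
  · exact ind_pos (mem_edT.2 ⟨by simp, by simp, ne_of_mem hE h2⟩)
  · intro x _ hx
    refine ind_neg fun hh => ?_
    have := (mem_edT.1 hh).1
    simp only [mem_insert, mem_singleton] at this
    rcases this with h' | h' | h'
    · exact ne_of_mem hE h h'.symm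
    · exact ne_of_mem hE h2 h'
    · exact hx h'.symm

theorem sum_deg (hE : E ⊆ allEdges n) (u : Fin n) :
    ∑ t ∈ triangles E, (deg E u - deg (E \ t.sym2) u) = ∑ w ∈ nb E u, cod E u w := GraphA.sum_deg hE u

theorem sum_eST (hE : E ⊆ allEdges n) (S T : Finset (Fin n)) :
    ∑ t ∈ triangles E, (eST E S T - eST (E \ t.sym2) S T) =
      ∑ q ∈ (S ×ˢ T).filter (fun q => s(q.1, q.2) ∈ E), cod E q.1 q.2 := by
  have e : ∀ t, eST E S T - eST (E \ t.sym2) S T =
      ∑ q ∈ (S ×ˢ T).filter (fun q => s(q.1, q.2) ∈ E), ind (s(q.1, q.2) ∈ edT t) := fun t => by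
    have : (S ×ˢ T).filter (fun q => s(q.1, q.2) ∈ E \ t.sym2) =
        ((S ×ˢ T).filter (fun q => s(q.1, q.2) ∈ E)).filter fun q => ¬ s(q.1, q.2) ∈ edT t := by
      ext q; simp only [sdiff_sym2 hE, mem_filter, mem_sdiff]; tauto
    unfold eST
    rw [this, GraphA.card_loss]
  simp only [e]
  rw [sum_comm]
  refine sum_congr rfl fun q hq => ?_
  rw [sum_ind, tri_card hE (mem_filter.1 hq).2]

theorem step_cod {E' : St n} (h : Step E E') (u v : Fin n) :
    0 ≤ cod E u v - cod E' u v ∧ cod E u v - cod E' u v ≤ 3 := by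
  rcases h with ⟨-, rfl⟩ | ⟨t, ht, rfl⟩
  · simp
  · have := GraphA.loss_le (A := cn E u v) (A' := cn (E \ t.sym2) u v) (B := t)
      (fun w hw => by simp only [mem_cn, mem_sdiff] at hw ⊢; tauto)
      (fun w hw hw' => by simp only [mem_cn, mem_sdiff, mk_mem_sym2_iff] at hw hw'; tauto)
    rw [(mem_tri.1 ht).1, Nat.cast_ofNat] at this
    exact this

theorem step_deg {E' : St n} (h : Step E E') (u : Fin n) :
    0 ≤ deg E u - deg E' u ∧ deg E u - deg E' u ≤ 3 := by
  rcases h with ⟨-, rfl⟩ | ⟨t, ht, rfl⟩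
  · simp
  · have := GraphA.loss_le (A := nb E u) (A' := nb (E \ t.sym2) u) (B := t)
      (fun w hw => by simp only [mem_nb, mem_sdiff] at hw ⊢; tauto)
      (fun w hw hw' => by simp only [mem_nb, mem_sdiff, mk_mem_sym2_iff] at hw hw'; tauto)
    rw [(mem_tri.1 ht).1, Nat.cast_ofNat] at this
    exact this

theorem step_eST {E' : St n} (h : Step E E') (S T : Finset (Fin n)) :
    0 ≤ eST E S T - eST E' S T ∧ eST E S T - eST E' S T ≤ 9 := by
  rcases h with ⟨-, rfl⟩ | ⟨t, ht, rfl⟩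
  · simp
  · have := GraphA.loss_le (A := (S ×ˢ T).filter fun q => s(q.1, q.2) ∈ E)
      (A' := (S ×ˢ T).filter fun q => s(q.1, q.2) ∈ E \ t.sym2) (B := t ×ˢ t)
      (fun w hw => by simp only [mem_filter, mem_sdiff] at hw ⊢; tauto)
      (fun w hw hw' => by
        simp only [mem_filter, mem_sdiff, mk_mem_sym2_iff, mem_product] at hw hw' ⊢; tauto)
    rw [card_product, (mem_tri.1 ht).1, show 3 * 3 = 9 from rfl, Nat.cast_ofNat] at this
    exact this

/-- number of triangles meeting `F` -/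
theorem touch (hE : E ⊆ allEdges n) {F : St n} (hF : F ⊆ E) {c : ℝ}
    (hc : ∀ u v, s(u, v) ∈ F → c ≤ cod E u v) :
    (F.card : ℝ) * (c - F.card) ≤ (((triangles E).filter fun t => ¬ F ⊆ E \ t.sym2).card : ℝ) := by
  have h1 : ∀ t, ∑ e ∈ F, (ind (e ∈ edT t) - ∑ e' ∈ F.erase e, ind (e ∈ edT t ∧ e' ∈ edT t)) ≤
      ind (¬ F ⊆ E \ t.sym2) := fun t => by
    have hn : ∀ e, 0 ≤ ∑ e' ∈ F.erase e, ind (e ∈ edT t ∧ e' ∈ edT t) := fun e =>
      sum_nonneg fun _ _ => ind_nonneg _
    by_cases h : ∃ e0 ∈ F, e0 ∈ edT t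
    · obtain ⟨e0, h0, h0'⟩ := h
      rw [ind_pos (p := ¬ F ⊆ E \ t.sym2) fun hh => by
        rw [sdiff_sym2 hE] at hh
        exact (mem_sdiff.1 (hh h0)).2 h0', ← add_sum_erase _ _ h0]
      have h2 : ∑ e ∈ F.erase e0, (ind (e ∈ edT t) -
          ∑ e' ∈ F.erase e, ind (e ∈ edT t ∧ e' ∈ edT t)) ≤ 0 := by
        refine sum_nonpos fun e he => ?_
        have h3 : ind (e ∈ edT t ∧ e0 ∈ edT t) ≤ ∑ e' ∈ F.erase e, ind (e ∈ edT t ∧ e' ∈ edT t) :=
          single_le_sum (f := fun e' => ind (e ∈ edT t ∧ e' ∈ edT t)) (fun _ _ => ind_nonneg _)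
            (mem_erase.2 ⟨(ne_of_mem_erase he).symm, h0⟩)
        have h4 : ind (e ∈ edT t) ≤ ind (e ∈ edT t ∧ e0 ∈ edT t) := ind_mono fun h => ⟨h, h0'⟩
        linarith
      linarith [ind_le_one (e0 ∈ edT t), hn e0]
    · push Not at h
      refine (sum_nonpos fun e he => ?_).trans (ind_nonneg _)
      rw [ind_neg (h e he)]
      linarith [hn e]
  rw [← sum_ind]
  refine le_trans ?_ (sum_le_sum fun t _ => h1 t)
  rw [sum_comm, ← nsmul_eq_mul, ← sum_const]
  refine sum_le_sum fun e he => ?_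
  rw [sum_sub_distrib, sum_comm, sum_ind]
  induction e using Sym2.ind with
  | _ a b =>
    rw [tri_card hE (hF he)]
    refine sub_le_sub (hc a b he) ?_
    have h5 : ∀ e' ∈ F.erase s(a, b), ∑ t ∈ triangles E, ind (s(a, b) ∈ edT t ∧ e' ∈ edT t) ≤ 1 := by
      intro e' he'
      rw [sum_ind]
      have hne := ne_of_mem_erase he'
      induction e' using Sym2.ind with
      | _ x y =>
        refine Nat.cast_le_one.2 (card_le_one.2 fun t ht t' ht' => ?_)
        obtain ⟨k1, k2, k3⟩ := mem_filter.1 ht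
        obtain ⟨l1, l2, l3⟩ := mem_filter.1 ht'
        obtain ⟨a1, a2, a3⟩ := mem_edT.1 k2
        obtain ⟨b1, b2, b3⟩ := mem_edT.1 k3
        obtain ⟨c1, c2, -⟩ := mem_edT.1 l2
        obtain ⟨d1, d2, -⟩ := mem_edT.1 l3
        have : (a ≠ x ∧ b ≠ x) ∨ (a ≠ y ∧ b ≠ y) := by
          rw [Ne, Sym2.eq_iff] at hne
          grind
        rcases this with ⟨g1, g2⟩ | ⟨g1, g2⟩
        · rw [GraphA.eq_triple (mem_tri.1 k1).1 a1 a2 b1 a3 g1 g2,
            GraphA.eq_triple (mem_tri.1 l1).1 c1 c2 d1 a3 g1 g2]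
        · rw [GraphA.eq_triple (mem_tri.1 k1).1 a1 a2 b2 a3 g1 g2,
            GraphA.eq_triple (mem_tri.1 l1).1 c1 c2 d2 a3 g1 g2]
    refine (sum_le_sum h5).trans ?_
    rw [sum_const, nsmul_eq_mul, mul_one]
    exact_mod_cast card_erase_le

end Crest.Agent.R30
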