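import Crest.Agent.R30.Proc
import Crest.Agent.R30.Graph

/-!
# R30 Link: priorities versus the process, the exploration (task R30-Link)

PLAN (aux in `namespace LinkA`).  `sem`: `par` is decreasing; `g ∈ par u ↔ g ∈ A0 ∧ ∀ T ∈ H, g ∈ ed T →
w T < u → ¬ ed T ⊆ par (w T)`, and equivalently (take a witness `T` of minimal priority: then
`g ∈ par (w T)`) `↔ g ∈ A0 ∧ ∀ T ∈ H, g ∈ ed T → w T < u → ¬ ∀ g' ∈ ed T, g' ≠ g → g' ∈ par (w T)`.  Then by
induction on `k`, for `u ≤ k`: `Ok k (rootS A) u ↔ A ⊆ par u` and, for `c ∈ Inc` with `u ≤ w c.2`,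
`Ok k (chH c) u ↔ ∀ g ∈ ed c.2, g ≠ c.1 → g ∈ par u` (`hd (w ∘ labN) c = w c.2`, `sh (w ∘ labN) c = w ∘ labN`).
`link`: let `EF E = expectFinal φ E.card E` (`expectFinal φ fuel E = EF E` for `E.card ≤ fuel`,
`∑_{t ∈ triangles E} EF (E \ t.sym2) = |triangles E| EF E`, `EF E = φ |E|` if there is no triangle).
Show that `∑_{w injective} EF (par w u)` does not depend on `u ≤ M`: for injective `w`, `par w (u+1)` is
`par w u` minus the edges of the only label `T` with `w T = u`, if `T ∈ triangles (par w u)`.  Labels in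
`triangles (par w u)` have priority `≥ u`, and `w ↦ w ∘ swap T T'` preserves `par w u` if `w T, w T' ≥ u`;
so the number of injective `w` with `par w u = E`, `w T = u` is the same for all `T ∈ triangles E`.
At time `M` there is no triangle.  Finally `av (ind (¬ injective)) ≤ |J|² / M ≤ 1/2` (`av_pi`).
-/

set_option autoImplicit false

namespace Crest.Agent.R30

open Finset Crest.CombinatoricsR.TriangleRemoval

theorem par_subset {X J : Type} [DecidableEq X] (H : Finset J) (ed : J → Finset X) {M : ℕ}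
    (A0 : Finset X) (w : J → Fin M) (u : ℕ) : par H ed A0 w u ⊆ A0 := by
  induction u with
  | zero => exact Subset.refl _
  | succ u ih => exact sdiff_subset.trans ih

namespace LinkA

section
variable {X J : Type} [DecidableEq X] (H : Finset J) (ed : J → Finset X) {M : ℕ} (A0 : Finset X)

theorem par_anti (w : J → Fin M) {u v : ℕ} (h : u ≤ v) : par H ed A0 w v ⊆ par H ed A0 w u := by
  induction h with
  | refl => exact Subset.refl _
  | step _ ih => exact sdiff_subset.trans ih

theorem mem_par (w : J → Fin M) (u : ℕ) (g : X) : g ∈ par H ed A0 w u ↔ g ∈ A0 ∧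
    ∀ T ∈ H, g ∈ ed T → (w T : ℕ) < u → ¬ ed T ⊆ par H ed A0 w (w T) := by
  induction u with
  | zero => simp [par]
  | succ u ih =>
    rw [par, mem_sdiff, ih, mem_biUnion, and_assoc]
    refine and_congr_right fun _ => ⟨fun h T hT hg hlt hs => ?_, fun h => ⟨fun T hT hg hlt =>
      h T hT hg (by omega), ?_⟩⟩
    · rcases Nat.lt_succ_iff_lt_or_eq.1 hlt with h1 | h1
      · exact h.1 T hT hg h1 hs
      · exact h.2 ⟨T, mem_filter.2 ⟨hT, h1, h1 ▸ hs⟩, hg⟩
    · rintro ⟨T, hT, hg⟩
      obtain ⟨h1, h2, h3⟩ := mem_filter.1 hT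
      exact h T h1 hg (by omega) (h2 ▸ h3)

theorem mem_par' (w : J → Fin M) (u : ℕ) (g : X) : g ∈ par H ed A0 w u ↔ g ∈ A0 ∧
    ∀ T ∈ H, g ∈ ed T → (w T : ℕ) < u → ¬ ∀ g' ∈ ed T, g' ≠ g → g' ∈ par H ed A0 w (w T) := by
  constructor
  · intro h
    have h' := (mem_par H ed A0 w u g).1 h
    refine ⟨h'.1, fun T hT hg hlt hs => h'.2 T hT hg hlt fun g' hg' => ?_⟩
    by_cases e : g' = g
    · rw [e]; exact par_anti H ed A0 w hlt.le h
    · exact hs g' hg' e
  · intro h
    exact (mem_par H ed A0 w u g).2 ⟨h.1, fun T hT hg hlt hs => h.2 T hT hg hlt fun g' hg' _ =>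
      hs hg'⟩

theorem par_congr {w w' : J → Fin M} {u : ℕ}
    (h : ∀ T, ((w T : ℕ) < u ∨ (w' T : ℕ) < u) → w T = w' T) :
    par H ed A0 w u = par H ed A0 w' u := by
  induction u with
  | zero => rfl
  | succ u ih =>
    have := ih fun T hT => h T (by omega)
    rw [par, par, this]
    congr 2
    refine filter_congr fun T _ => and_congr_left fun _ => ⟨fun e => ?_, fun e => ?_⟩
    · rw [← h T (by omega), e]
    · rw [h T (by omega), e]

end

section
variable {X J : Type} [Fintype X] [DecidableEq X] [Fintype J] [DecidableEq J] (H : Finset J)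
  (ed : J → Finset X) {M : ℕ} {A0 : Finset X}

theorem mem_Inc {c : X × J} : c ∈ Inc H ed ↔ c.2 ∈ H ∧ c.1 ∈ ed c.2 := by simp [Inc]

theorem sem_ch (h0 : ∀ T ∈ H, ed T ⊆ A0) (w : J → Fin M) (k : ℕ) :
    ∀ u ≤ k, ∀ c ∈ Inc H ed, u ≤ w c.2 →
      (Ok (chH H ed) k (chH H ed c) u (w ∘ labN Prod.snd k) ↔
        ∀ g ∈ ed c.2, g ≠ c.1 → g ∈ par H ed A0 w u) := by
  induction k with
  | zero =>
    intro u hu c hc _
    obtain rfl : u = 0 := by omega
    exact ⟨fun _ g hg _ => h0 _ ((mem_Inc H ed).1 hc).1 hg, fun _ => trivial⟩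
  | succ k ih =>
    intro u hu c hc hw
    change (∀ c' ∈ chH H ed c, (w c'.2 : ℕ) < u →
      ¬ Ok (chH H ed) k (chH H ed c') (w c'.2) (w ∘ labN Prod.snd k)) ↔ _
    constructor
    · intro h g hg hne
      refine (mem_par' H ed A0 w u g).2 ⟨h0 _ ((mem_Inc H ed).1 hc).1 hg, fun T hT hgT hlt => ?_⟩
      have hi : (g, T) ∈ Inc H ed := (mem_Inc H ed).2 ⟨hT, hgT⟩
      have := h (g, T) (mem_filter.2 ⟨hi, hg, hne, fun e => by
        change T = c.2 at e
        rw [e] at hlt
        omega⟩) hlt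
      rwa [ih _ (by change (w T : ℕ) ≤ k; omega) _ hi le_rfl] at this
    · intro h c' hc' hlt
      obtain ⟨hi, h1, h2, -⟩ := mem_filter.1 hc'
      rw [ih _ (by omega) _ hi le_rfl]
      have hi' := (mem_Inc H ed).1 hi
      exact ((mem_par' H ed A0 w u _).1 (h _ h1 h2)).2 _ hi'.1 hi'.2 hlt

theorem sem_root {A : Finset X} (h0 : ∀ T ∈ H, ed T ⊆ A0) (hA : A ⊆ A0) (w : J → Fin M) (k : ℕ)
    {u : ℕ} (hu : u ≤ k) :
    Ok (chH H ed) k (rootS H ed A) u (w ∘ labN Prod.snd k) ↔ A ⊆ par H ed A0 w u := by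
  cases k with
  | zero =>
    obtain rfl : u = 0 := by omega
    exact ⟨fun _ => hA, fun _ => trivial⟩
  | succ k =>
    change (∀ c' ∈ rootS H ed A, (w c'.2 : ℕ) < u →
      ¬ Ok (chH H ed) k (chH H ed c') (w c'.2) (w ∘ labN Prod.snd k)) ↔ _
    constructor
    · intro h g hg
      refine (mem_par' H ed A0 w u g).2 ⟨hA hg, fun T hT hgT hlt => ?_⟩
      have hi : (g, T) ∈ Inc H ed := (mem_Inc H ed).2 ⟨hT, hgT⟩
      have := h (g, T) (mem_filter.2 ⟨hi, hg⟩) hlt
      rwa [sem_ch H ed h0 w k _ (by change (w T : ℕ) ≤ k; omega) _ hi le_rfl] at this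
    · intro h c' hc' hlt
      obtain ⟨hi, h1⟩ := mem_filter.1 hc'
      rw [sem_ch H ed h0 w k _ (by omega) _ hi le_rfl]
      have hi' := (mem_Inc H ed).1 hi
      exact ((mem_par' H ed A0 w u _).1 (h h1)).2 _ hi'.1 hi'.2 hlt

end

theorem ef_none {n : ℕ} (φ : ℕ → ℝ) (fuel : ℕ) {E : St n} (h : (triangles E).card = 0) :
    expectFinal φ fuel E = φ E.card := by
  cases fuel with
  | zero => rfl
  | succ fuel => rw [expectFinal, if_pos h]

theorem ef_fuel {n : ℕ} (φ : ℕ → ℝ) (fuel : ℕ) : ∀ (fuel' : ℕ) (E : St n), E ⊆ allEdges n →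
    E.card ≤ fuel → E.card ≤ fuel' → expectFinal φ fuel E = expectFinal φ fuel' E := by
  induction fuel with
  | zero =>
    intro fuel' E hE h _
    by_cases ht : (triangles E).card = 0
    · rw [ef_none φ _ ht, ef_none φ _ ht]
    · obtain ⟨t, ht⟩ := card_ne_zero.1 ht
      have := card_step hE ht
      omega
  | succ fuel ih =>
    intro fuel' E hE h h'
    by_cases ht : (triangles E).card = 0
    · rw [ef_none φ _ ht, ef_none φ _ ht]
    · obtain ⟨t₀, ht₀⟩ := card_ne_zero.1 ht
      have := card_step hE ht₀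
      obtain ⟨f, rfl⟩ : ∃ f, fuel' = f + 1 := ⟨fuel' - 1, by omega⟩
      rw [expectFinal, expectFinal, if_neg ht, if_neg ht]
      congr 1
      refine sum_congr rfl fun t ht => ?_
      have := card_step hE ht
      exact ih _ _ (sdiff_subset.trans hE) (by omega) (by omega)

/-- the expectation with enough fuel -/
noncomputable def EF {n : ℕ} (φ : ℕ → ℝ) (E : St n) : ℝ := expectFinal φ E.card E

theorem EF_step {n : ℕ} (φ : ℕ → ℝ) {E : St n} (hE : E ⊆ allEdges n) :
    ∑ t ∈ triangles E, (EF φ (E \ edT t) - EF φ E) = 0 := by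
  by_cases ht : (triangles E).card = 0
  · rw [card_eq_zero.1 ht, sum_empty]
  · have h1 : EF φ E = ((triangles E).card : ℝ)⁻¹ * ∑ t ∈ triangles E, EF φ (E \ edT t) := by
      rw [EF, ef_fuel φ _ (E.card + 1) E hE le_rfl (Nat.le_succ _), expectFinal, if_neg ht]
      congr 1
      refine sum_congr rfl fun t _ => ?_
      rw [sdiff_sym2 hE]
      exact ef_fuel φ _ _ _ (sdiff_subset.trans hE) (card_le_card sdiff_subset) le_rfl
    have h2 : ((triangles E).card : ℝ) ≠ 0 := by exact_mod_cast ht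
    rw [sum_sub_distrib, sum_const, nsmul_eq_mul, h1, mul_inv_cancel_left₀ h2, sub_self]

section
variable {n M : ℕ} {G : St n}

theorem tri_ge (w : Finset (Fin n) → Fin M) {u : ℕ} {T : Finset (Fin n)}
    (hT : T ∈ triangles (par (triangles G) edT G w u)) : u ≤ w T := by
  obtain ⟨h1, h2⟩ := mem_tri.1 hT
  by_contra hlt
  obtain ⟨g, hg⟩ : (edT T).Nonempty := card_pos.1 (by rw [card_edT h1]; omega)
  exact ((mem_par _ _ _ w u g).1 (h2 hg)).2 T (mem_tri.2 ⟨h1, h2.trans (par_subset _ _ _ _ _)⟩) hg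
    (by omega) (h2.trans (par_anti _ _ _ w (by omega)))

theorem EF_succ (φ : ℕ → ℝ) {w : Finset (Fin n) → Fin M} (hw : Function.Injective w) (u : ℕ) :
    EF φ (par (triangles G) edT G w (u + 1)) - EF φ (par (triangles G) edT G w u) =
      ∑ T ∈ triangles (par (triangles G) edT G w u), ind ((w T : ℕ) = u) *
        (EF φ (par (triangles G) edT G w u \ edT T) - EF φ (par (triangles G) edT G w u)) := by
  have hm : ∀ T, T ∈ (triangles G).filter (fun T => (w T : ℕ) = u ∧
      edT T ⊆ par (triangles G) edT G w u) ↔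
      T ∈ triangles (par (triangles G) edT G w u) ∧ (w T : ℕ) = u := by
    intro T
    rw [mem_filter, mem_tri, mem_tri]
    exact ⟨fun h => ⟨⟨h.1.1, h.2.2⟩, h.2.1⟩,
      fun h => ⟨⟨h.1.1, h.1.2.trans (par_subset _ _ _ _ _)⟩, h.2, h.1.2⟩⟩
  rw [par]
  by_cases h : ∃ T ∈ triangles (par (triangles G) edT G w u), (w T : ℕ) = u
  · obtain ⟨T, hT, e⟩ := h
    have h1 : ∀ T', (w T' : ℕ) = u → T' = T := fun T' e' => hw (Fin.ext (e'.trans e.symm))
    have h2 : (triangles G).filter (fun T => (w T : ℕ) = u ∧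
        edT T ⊆ par (triangles G) edT G w u) = {T} := by
      ext T'
      rw [hm, mem_singleton]
      exact ⟨fun h => h1 T' h.2, fun h => h ▸ ⟨hT, e⟩⟩
    rw [h2, singleton_biUnion, sum_eq_single_of_mem T hT, ind_pos e, one_mul]
    intro T' _ hne
    rw [ind_neg fun e' => hne (h1 T' e'), zero_mul]
  · have h2 : (triangles G).filter (fun T => (w T : ℕ) = u ∧
        edT T ⊆ par (triangles G) edT G w u) = ∅ := by
      refine eq_empty_of_forall_notMem fun T hT => h ⟨T, ?_⟩
      exact (hm T).1 hT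
    rw [h2, biUnion_empty, sdiff_empty, sub_self]
    exact (sum_eq_zero fun T hT => by rw [ind_neg fun e => h ⟨T, hT, e⟩, zero_mul]).symm

theorem count_eq (u : ℕ) (E : St n) {T T' : Finset (Fin n)} (hT : T ∈ triangles E)
    (hT' : T' ∈ triangles E) :
    ∑ w : Finset (Fin n) → Fin M,
      ind (Function.Injective w ∧ par (triangles G) edT G w u = E ∧ (w T : ℕ) = u) =
    ∑ w : Finset (Fin n) → Fin M,
      ind (Function.Injective w ∧ par (triangles G) edT G w u = E ∧ (w T' : ℕ) = u) := by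
  have key : ∀ {T T' : Finset (Fin n)}, T ∈ triangles E → T' ∈ triangles E →
      ∀ w : Finset (Fin n) → Fin M,
      (Function.Injective w ∧ par (triangles G) edT G w u = E ∧ (w T : ℕ) = u) →
      (Function.Injective (w ∘ Equiv.swap T T') ∧
        par (triangles G) edT G (w ∘ Equiv.swap T T') u = E ∧
        ((w ∘ Equiv.swap T T') T' : ℕ) = u) := by
    rintro T T' hT hT' w ⟨h1, h2, h3⟩
    refine ⟨h1.comp (Equiv.injective _), ?_, by simp [h3]⟩
    have a1 := tri_ge w (h2.symm ▸ hT)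
    have a2 := tri_ge w (h2.symm ▸ hT')
    rw [← h2]
    refine par_congr _ _ _ fun S hS => ?_
    simp only [Function.comp, Equiv.swap_apply_def] at hS ⊢
    split_ifs at hS ⊢ with b1 b2
    · rw [b1] at hS; omega
    · rw [b2] at hS; omega
    · rfl
  let e : (Finset (Fin n) → Fin M) ≃ (Finset (Fin n) → Fin M) :=
    Equiv.arrowCongr (Equiv.swap T T') (Equiv.refl _)
  have he : ∀ w, e w = w ∘ Equiv.swap T T' := fun w => rfl
  rw [← Equiv.sum_comp e (fun w => ind (Function.Injective w ∧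
    par (triangles G) edT G w u = E ∧ (w T' : ℕ) = u))]
  refine sum_congr rfl fun w _ => ind_congr ⟨key hT hT' w, fun h => ?_⟩
  have := key hT' hT _ h
  have e2 : (e w) ∘ Equiv.swap T' T = w := by
    funext S
    rw [he, Equiv.swap_comm T' T]
    simp
  rwa [e2] at this

theorem sum_step (hG : G ⊆ allEdges n) (φ : ℕ → ℝ) (u : ℕ) :
    ∑ w : Finset (Fin n) → Fin M, ind (Function.Injective w) *
        EF φ (par (triangles G) edT G w (u + 1)) =
      ∑ w : Finset (Fin n) → Fin M, ind (Function.Injective w) *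
        EF φ (par (triangles G) edT G w u) := by
  rw [← sub_eq_zero, ← sum_sub_distrib]
  have h1 : ∀ w : Finset (Fin n) → Fin M,
      ind (Function.Injective w) * EF φ (par (triangles G) edT G w (u + 1)) -
        ind (Function.Injective w) * EF φ (par (triangles G) edT G w u) =
      ∑ E ∈ G.powerset, ∑ T ∈ triangles E,
        ind (Function.Injective w ∧ par (triangles G) edT G w u = E ∧ (w T : ℕ) = u) *
          (EF φ (E \ edT T) - EF φ E) := by
    intro w
    rw [sum_eq_single_of_mem _ (mem_powerset.2 (par_subset (triangles G) edT G w u))]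
    · by_cases hw : Function.Injective w
      · rw [ind_pos hw, one_mul, one_mul, EF_succ φ hw]
        refine sum_congr rfl fun T _ => ?_
        rw [ind_congr (q := Function.Injective w ∧ par (triangles G) edT G w u =
          par (triangles G) edT G w u ∧ (w T : ℕ) = u) ⟨fun h => ⟨hw, rfl, h⟩, fun h => h.2.2⟩]
      · rw [ind_neg hw, zero_mul, zero_mul, sub_self]
        exact (sum_eq_zero fun T _ => by rw [ind_neg fun h => hw h.1, zero_mul]).symm
    · intro E _ hE
      exact sum_eq_zero fun T _ => by rw [ind_neg fun h => hE h.2.1.symm, zero_mul]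
  rw [sum_congr rfl fun w _ => h1 w, sum_comm]
  refine sum_eq_zero fun E hE => ?_
  rw [sum_comm]
  rcases (triangles E).eq_empty_or_nonempty with h | ⟨T₀, hT₀⟩
  · rw [h, sum_empty]
  · have := EF_step φ ((mem_powerset.1 hE).trans hG)
    rw [sum_congr rfl fun T hT => by rw [← sum_mul, count_eq u E hT hT₀], ← mul_sum, this, mul_zero]

end

theorem av_eq {J : Type} [Fintype J] [DecidableEq J] {M : ℕ} (hM : 0 < M) {T T' : J} (h : T ≠ T') :
    av (fun w : J → Fin M => ind (w T = w T')) = (M : ℝ)⁻¹ := by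
  haveI : Nonempty (Fin M) := ⟨⟨0, hM⟩⟩
  have hM' : (M : ℝ) ≠ 0 := by exact_mod_cast hM.ne'
  have hp : ∀ F : J → ℝ, (∀ x, x ≠ T → x ≠ T' → F x = 1) → ∏ x, F x = F T * F T' := by
    intro F hF
    rw [← prod_pair h]
    refine (prod_subset (subset_univ _) fun x _ hx => hF x ?_ ?_).symm
    · rintro rfl; simp at hx
    · rintro rfl; simp at hx
  let f : Fin M → J → Fin M → ℝ := fun a i y => if i = T ∨ i = T' then ind (y = a) else 1
  have h1 : (fun w : J → Fin M => ind (w T = w T')) = fun w => ∑ a, ∏ i, f a i (w i) := by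
    funext w
    have : ∀ a, ∏ i, f a i (w i) = ind (w T = a) * ind (w T' = a) := fun a => by
      rw [hp _ fun x h1 h2 => if_neg (not_or.2 ⟨h1, h2⟩)]
      simp only [f, true_or, or_true, if_true]
    simp only [this]
    rw [sum_eq_single (w T'), ind_pos rfl, mul_one]
    · intro a _ ha
      rw [ind_neg (Ne.symm ha), mul_zero]
    · intro h
      exact (h (mem_univ _)).elim
  have h2 : ∀ a : Fin M, av (fun y : Fin M => ind (y = a)) = (M : ℝ)⁻¹ := fun a => by
    rw [av, sum_eq_single a, ind_pos rfl, Fintype.card_fin, one_div]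
    · intro b _ hb
      exact ind_neg hb
    · intro h
      exact (h (mem_univ _)).elim
  have h3 : ∀ a, av (fun w : J → Fin M => ∏ i, f a i (w i)) = (M : ℝ)⁻¹ * (M : ℝ)⁻¹ := fun a => by
    rw [av_pi, hp]
    · simp only [f, true_or, or_true, if_true, h2]
    · intro x h1 h2
      simp only [f, if_neg (not_or.2 ⟨h1, h2⟩), av_const]
  rw [h1, av_sum]
  simp only [h3]
  rw [sum_const, card_univ, Fintype.card_fin, nsmul_eq_mul, mul_inv_cancel_left₀ hM']

theorem av_not_inj {J : Type} [Fintype J] [DecidableEq J] {M : ℕ} (hM : 0 < M) :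
    av (fun w : J → Fin M => ind (¬ Function.Injective w)) ≤
      (Fintype.card J : ℝ) ^ 2 * (M : ℝ)⁻¹ := by
  have h1 : ∀ w : J → Fin M, ind (¬ Function.Injective w) ≤
      ∑ q ∈ (univ : Finset J).offDiag, ind (w q.1 = w q.2) := by
    intro w
    refine (ind_mono fun h => ?_).trans (ind_exists_le _ _)
    simp only [Function.Injective, not_forall] at h
    obtain ⟨a, b, e, hne⟩ := h
    exact ⟨(a, b), mem_offDiag.2 ⟨mem_univ _, mem_univ _, hne⟩, e⟩
  refine (av_mono h1).trans ?_
  rw [av_sum, sum_congr rfl fun q hq => av_eq hM (mem_offDiag.1 hq).2.2, sum_const, nsmul_eq_mul]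
  refine mul_le_mul_of_nonneg_right ?_ (inv_nonneg.2 (Nat.cast_nonneg _))
  have := card_le_univ (univ : Finset J).offDiag
  rw [Fintype.card_prod] at this
  rw [sq]
  exact_mod_cast this

end LinkA

theorem sem {X J : Type} [Fintype X] [DecidableEq X] [Fintype J] [DecidableEq J] (H : Finset J)
    (ed : J → Finset X) {M : ℕ} {A0 A : Finset X} (h0 : ∀ T ∈ H, ed T ⊆ A0) (hA : A ⊆ A0)
    (w : J → Fin M) :
    Ok (chH H ed) M (rootS H ed A) M (w ∘ labN Prod.snd M) ↔ A ⊆ par H ed A0 w M :=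
  LinkA.sem_root H ed h0 hA w M le_rfl

theorem link {n M : ℕ} {G : St n} (hG : G ⊆ allEdges n) (hM : 2 * 4 ^ n ≤ M) {φ : ℕ → ℝ}
    (hφ : ∀ e, 0 ≤ φ e) {fuel : ℕ} (hf : G.card ≤ fuel) :
    expectFinal φ fuel G ≤
      2 * av fun w : Finset (Fin n) → Fin M => φ (par (triangles G) edT G w M).card := by
  have hM0 : 0 < M := lt_of_lt_of_le (by positivity) hM
  haveI : Nonempty (Fin M) := ⟨⟨0, hM0⟩⟩
  have hM' : (0 : ℝ) < M := by exact_mod_cast hM0
  have h1 : ∀ u, av (fun w : Finset (Fin n) → Fin M => ind (Function.Injective w) *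
      LinkA.EF φ (par (triangles G) edT G w u)) =
      av (fun w : Finset (Fin n) → Fin M => ind (Function.Injective w)) * LinkA.EF φ G := by
    intro u
    induction u with
    | zero =>
      rw [mul_comm, ← av_const_mul]
      simp only [par, mul_comm]
    | succ u ih => rw [← ih, av, av, LinkA.sum_step hG]
  have h2 : (1 : ℝ) / 2 ≤ av (fun w : Finset (Fin n) → Fin M => ind (Function.Injective w)) := by
    have a1 := LinkA.av_not_inj (J := Finset (Fin n)) hM0
    simp only [ind_not] at a1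
    rw [av_sub, av_const, Fintype.card_finset, Fintype.card_fin] at a1
    have a2 : (((2 ^ n : ℕ) : ℝ)) ^ 2 * (M : ℝ)⁻¹ ≤ 1 / 2 := by
      rw [← div_eq_mul_inv, div_le_iff₀ hM']
      have : (2 : ℝ) * 4 ^ n ≤ M := by exact_mod_cast hM
      push_cast
      rw [← pow_mul, mul_comm n 2, pow_mul]
      norm_num
      linarith
    linarith
  have h3 : av (fun w : Finset (Fin n) → Fin M => ind (Function.Injective w) *
      LinkA.EF φ (par (triangles G) edT G w M)) ≤
      av fun w : Finset (Fin n) → Fin M => φ (par (triangles G) edT G w M).card := by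
    refine av_mono fun w => ?_
    have : (triangles (par (triangles G) edT G w M)).card = 0 := by
      rw [card_eq_zero]
      refine eq_empty_of_forall_notMem fun T hT => ?_
      have := LinkA.tri_ge w hT
      have := (w T).2
      omega
    rw [LinkA.EF, LinkA.ef_none φ _ this]
    exact mul_le_of_le_one_left (hφ _) (ind_le_one _)
  have h4 : 0 ≤ LinkA.EF φ G := expectFinal_nonneg hφ _ _
  rw [LinkA.ef_fuel φ fuel G.card G hG hf le_rfl]
  change LinkA.EF φ G ≤ _
  rw [h1] at h3
  nlinarith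

end Crest.Agent.R30
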