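import Crest.Agent.R30.Stop
import Crest.Agent.R30.Link
import Crest.Agent.R30.ColSum
import Crest.Agent.R30.Cav
import Crest.Agent.R30.Spec

/-!
# R30 Ph2: phase 2 (task R30-Ph2)

PLAN (aux in `namespace Ph2A`).  `M = 2 * 4 ^ n`, `H = triangles G`, `Δ = 2 D` (`tri_card`; an unordered pair
outside `G` lies in no triangle), `Γ = 16 D (3 D) ^ 40`, `Γ³ ≤ z ^ 2976`.  For `A ⊆ G`: `sem`, `couple`, `tree_ok`,
`coll_le` give `|av (ind (A ⊆ par)) - ∏_{c ∈ rootS A} (1 - RR M c)| ≤ Γ³ Col (rootS A)`, and for `e ≠ f`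
`rootS {e, f}` is the disjoint union of `rootS {e}`, `rootS {f}`.  With `F = |par| = ∑_{e ∈ G} ind (e ∈ par)`,
`N = |G|`, `s = n ^ (3/2) = n √n`, `c = 1 / (2 √2)`, `N / √(2D) = c s` (`Good.card`, `D = n p²`), `ε = z⁻⁵`:
`av F ≥ (1 - ε) c s - 10 Γ³ Xs`, `av F² ≤ N + (1 + ε)² c² s² + Γ³ (20 N Xs + 32 |H|)`, `phi = F²/s² - 2 c F/s + c²`.
`N / s ≤ z ^ 12`, `|H| ≤ 2 D N` (`six_Q`), `Xs (M+1) ≤ Xs R + 6 D |H| 4^(-R)`, `4^(-R) ≤ exp (-z) ≤ n⁻¹⁰`,
`z ^ 5000 ≤ √n`.  Finish with `link`.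
-/

set_option autoImplicit false

namespace Crest.Agent.R30

open Finset Crest.CombinatoricsR.TriangleRemoval

namespace Ph2A

lemma final {z s N Hc X X' G3 q A1 A2 c : ℝ} (hz : 1000 ≤ z) (hs : z ^ 5000 ≤ s)
    (hN : N = s * z ^ 12 / 2) (hH0 : 0 ≤ Hc) (hH : Hc ≤ z ^ 24 * N) (hX : 0 ≤ X)
    (hX' : X' ≤ X + 3 * Hc * (2 * z ^ 24) * q) (hq0 : 0 ≤ q) (hq : q ≤ (z ^ 10000)⁻¹)
    (hG0 : 0 ≤ G3) (hG : G3 ≤ z ^ 2976) (hc0 : 0 ≤ c) (hc : c ^ 2 = 1 / 8)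
    (hA1 : (1 - (z ^ 5)⁻¹) * (c * s) - G3 * (10 * X') ≤ A1)
    (hA2 : A2 ≤ N + ((1 + (z ^ 5)⁻¹) * (c * s)) ^ 2 + G3 * (20 * N * X' + 32 * Hc)) :
    2 * (A2 / s ^ 2 - 2 * c * (A1 / s) + c ^ 2) ≤ 2 / z + z ^ 3100 * X / s := by
  have hz1 : 1 ≤ z := by linarith
  have hz0 : 0 < z := by linarith
  have pw : ∀ {a b : ℕ}, a ≤ b → z ^ a ≤ z ^ b := fun h => pow_le_pow_right₀ hz1 h
  have pw' : ∀ {a b : ℕ} {k : ℝ}, a + 1 ≤ b → k ≤ 1000 → k * z ^ a ≤ z ^ b := by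
    intro a b k h hk
    refine le_trans ?_ (pw h)
    rw [pow_succ, mul_comm k]
    exact mul_le_mul_of_nonneg_left (hk.trans hz) (by positivity)
  have hs0 : 0 < s := lt_of_lt_of_le (by positivity) hs
  have hc1 : c ≤ 1 := by nlinarith
  set ε := (z ^ 5)⁻¹ with hε
  have hε0 : 0 ≤ ε := by positivity
  have hε1 : ε ≤ 1 := inv_le_one_of_one_le₀ (one_le_pow₀ hz1)
  set κ := G3 * (20 * z ^ 12 + 40 * c) with hκ
  have hκ0 : 0 ≤ κ := by positivity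
  have hκ1 : κ ≤ z ^ 2989 := by
    have h1 : 20 * z ^ 12 + 40 * c ≤ z ^ 13 := by
      have h2 : 1 ≤ z ^ 12 := one_le_pow₀ hz1
      have h3 : 60 * z ^ 12 ≤ z ^ 13 := pw' le_rfl (by norm_num)
      linarith
    calc κ ≤ z ^ 2976 * z ^ 13 := mul_le_mul hG h1 (by positivity) (by positivity)
      _ = z ^ 2989 := by rw [← pow_add]
  have e1 : 2 * (A2 / s ^ 2 - 2 * c * (A1 / s) + c ^ 2) ≤
      z ^ 12 / s + (4 * ε + ε ^ 2) / 4 + 64 * G3 * Hc / s ^ 2 + κ * X' / s := by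
    have h1 : A2 / s ^ 2 ≤ (N + ((1 + ε) * (c * s)) ^ 2 + G3 * (20 * N * X' + 32 * Hc)) / s ^ 2 :=
      div_le_div_of_nonneg_right hA2 (by positivity)
    have h2 : c * (((1 - ε) * (c * s) - G3 * (10 * X')) / s) ≤ c * (A1 / s) :=
      mul_le_mul_of_nonneg_left (div_le_div_of_nonneg_right hA1 hs0.le) hc0
    have h3 : 2 * ((N + ((1 + ε) * (c * s)) ^ 2 + G3 * (20 * N * X' + 32 * Hc)) / s ^ 2 -
        2 * (c * (((1 - ε) * (c * s) - G3 * (10 * X')) / s)) + c ^ 2) =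
        z ^ 12 / s + 2 * c ^ 2 * (4 * ε + ε ^ 2) + 64 * G3 * Hc / s ^ 2 + κ * X' / s := by
      rw [hN, hκ]
      field_simp
      ring
    rw [hc] at h3 ⊢
    linarith
  have t1 : z ^ 12 / s ≤ 1 / (2 * z) := by
    rw [div_le_div_iff₀ hs0 (by positivity), one_mul]
    calc z ^ 12 * (2 * z) = 2 * z ^ 13 := by ring
      _ ≤ z ^ 5000 := pw' (by norm_num) (by norm_num)
      _ ≤ s := hs
  have t2 : (4 * ε + ε ^ 2) / 4 ≤ 1 / (2 * z) := by
    have h1 : (4 * ε + ε ^ 2) / 4 ≤ 5 / 4 * ε := by nlinarith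
    refine h1.trans ?_
    rw [hε, ← div_eq_mul_inv, div_le_div_iff₀ (by positivity) (by positivity), one_mul]
    calc 5 / 4 * (2 * z) = 5 / 2 * z ^ 1 := by ring
      _ ≤ z ^ 5 := pw' (by norm_num) (by norm_num)
  have t3 : 64 * G3 * Hc / s ^ 2 ≤ 1 / (2 * z) := by
    rw [div_le_div_iff₀ (by positivity) (by positivity), one_mul]
    have h1 : G3 * Hc ≤ z ^ 2976 * (z ^ 24 * N) := mul_le_mul hG hH hH0 (by positivity)
    calc 64 * G3 * Hc * (2 * z) = 128 * z * (G3 * Hc) := by ring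
      _ ≤ 128 * z * (z ^ 2976 * (z ^ 24 * N)) := mul_le_mul_of_nonneg_left h1 (by positivity)
      _ = 64 * z ^ 3013 * s := by rw [hN]; ring
      _ ≤ s * s := mul_le_mul_of_nonneg_right
          (le_trans (pw' (b := 5000) (by norm_num) (by norm_num)) hs) hs0.le
      _ = s ^ 2 := by ring
  have t4 : κ * (3 * Hc * (2 * z ^ 24) * q) / s ≤ 1 / (2 * z) := by
    rw [div_le_div_iff₀ hs0 (by positivity), one_mul]
    have h1 : κ * Hc ≤ z ^ 2989 * (z ^ 24 * N) := mul_le_mul hκ1 hH hH0 (by positivity)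
    have h2 : 6 * z ^ 3050 * q ≤ 1 := by
      have h3 : 6 * z ^ 3050 ≤ z ^ 10000 := pw' (by norm_num) (by norm_num)
      calc 6 * z ^ 3050 * q ≤ z ^ 10000 * (z ^ 10000)⁻¹ := mul_le_mul h3 hq hq0 (by positivity)
        _ = 1 := mul_inv_cancel₀ (by positivity)
    calc κ * (3 * Hc * (2 * z ^ 24) * q) * (2 * z) = 12 * z ^ 25 * q * (κ * Hc) := by ring
      _ ≤ 12 * z ^ 25 * q * (z ^ 2989 * (z ^ 24 * N)) :=
          mul_le_mul_of_nonneg_left h1 (by positivity)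
      _ = 6 * z ^ 3050 * q * s := by rw [hN]; ring
      _ ≤ 1 * s := mul_le_mul_of_nonneg_right h2 hs0.le
      _ = s := one_mul s
  have t5 : κ * X' / s ≤ z ^ 3100 * X / s + κ * (3 * Hc * (2 * z ^ 24) * q) / s := by
    rw [← add_div]
    refine div_le_div_of_nonneg_right ?_ hs0.le
    have h1 := mul_le_mul_of_nonneg_left hX' hκ0
    have h2 : κ * X ≤ z ^ 3100 * X := mul_le_mul_of_nonneg_right (hκ1.trans (pw (by norm_num))) hX
    linarith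
  have e2 : 2 / z = 4 * (1 / (2 * z)) := by field_simp; norm_num
  linarith

section

variable {X J : Type} [Fintype X] [DecidableEq X] [Fintype J] [DecidableEq J]
  (H : Finset J) (ed : J → Finset X) {M : ℕ}

lemma approx (hM : 0 < M) {A0 A : Finset X} (h0 : ∀ T ∈ H, ed T ⊆ A0) (hA : A ⊆ A0)
    (ρ : ℕ → ℝ) (hρ0 : ∀ j, 0 ≤ ρ j)
    (hρ : ∀ c ∈ Inc H ed, ∀ c' ∈ chH H ed c, ∀ j < M,
      ∏ c'' ∈ (chH H ed c).erase c', (1 - RR (chH H ed) M j c'') ≤ ρ j)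
    {θ Γ : ℝ} (hθ : 0 < θ) (hθ1 : θ ≤ 1)
    (hΓ : Real.exp ((θ * M)⁻¹ * ∑ j ∈ range M, ρ j) ≤ θ * Γ) :
    |av (fun w : J → Fin M => ind (A ⊆ par H ed A0 w M)) -
      ∏ c ∈ rootS H ed A, (1 - RR (chH H ed) M M c)| ≤
      Γ ^ 3 * Col (chH H ed) Prod.snd θ M M (rootS H ed A) := by
  have h1 := couple (chH H ed) Prod.snd hM M (rootS H ed A) M
  rw [tree_ok (chH H ed) hM M (rootS H ed A) le_rfl le_rfl] at h1
  have h2 : (fun w : J → Fin M => ind (A ⊆ par H ed A0 w M)) =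
      fun w : J → Fin M => ind (Ok (chH H ed) M (rootS H ed A) M (w ∘ labN Prod.snd M)) :=
    funext fun w => ind_congr (sem H ed h0 hA w).symm
  rw [h2]
  exact h1.trans (coll_le (chH H ed) Prod.snd hM (Inc H ed) (fun c _ => filter_subset _ _)
    (filter_subset _ _) ρ hρ0 hρ hθ hθ1 hΓ)

lemma prod_pair (f : X × J → ℝ) {e e' : X} (h : e' ≠ e) :
    ∏ c ∈ rootS H ed {e, e'}, f c = (∏ c ∈ rootS H ed {e}, f c) * ∏ c ∈ rootS H ed {e'}, f c := by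
  have e1 : rootS H ed {e, e'} = rootS H ed {e} ∪ rootS H ed {e'} := by
    ext c
    simp only [ColSumA.mem_rootS, mem_union, mem_insert, mem_singleton]
    tauto
  have e2 : Disjoint (rootS H ed {e}) (rootS H ed {e'}) := by
    rw [disjoint_left]
    intro c h1 h2
    exact h ((mem_singleton.1 ((ColSumA.mem_rootS H ed).1 h2).2).symm.trans
      (mem_singleton.1 ((ColSumA.mem_rootS H ed).1 h1).2))
  rw [e1, prod_union e2]

omit [Fintype X] in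
lemma card_eq_sum {A0 B : Finset X} (h : B ⊆ A0) :
    (B.card : ℝ) = ∑ e ∈ A0, ind ({e} ⊆ B) := by
  simp only [singleton_subset_iff]
  rw [sum_ind, filter_mem_eq_inter, inter_eq_right.2 h]

omit [Fintype X] in
lemma card_sq_le {A0 B : Finset X} (h : B ⊆ A0) :
    (B.card : ℝ) ^ 2 ≤ A0.card + ∑ e ∈ A0, ∑ f ∈ A0.erase e, ind ({e, f} ⊆ B) := by
  rw [sq, card_eq_sum h, sum_mul_sum, card_eq_sum_ones A0, Nat.cast_sum, ← sum_add_distrib]
  refine sum_le_sum fun e he => ?_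
  rw [← add_sum_erase A0 _ he]
  refine add_le_add ?_ (le_of_eq (sum_congr rfl fun f _ => ?_))
  · rw [← ind_and, Nat.cast_one]
    exact ind_le_one _
  · rw [← ind_and]
    exact ind_congr (by simp only [singleton_subset_iff, insert_subset_iff])

end

lemma moments {X J : Type} [Fintype X] [DecidableEq X] [Fintype J] [DecidableEq J]
    (H : Finset J) (ed : J → Finset X) {M : ℕ} (hM : 0 < M) {A0 : Finset X}
    (h0 : ∀ T ∈ H, ed T ⊆ A0) {θ Δ Γ : ℝ} (h3 : ∀ T ∈ H, (ed T).card ≤ 3)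
    (hΔ : ∀ g, ((H.filter fun T => g ∈ ed T).card : ℝ) ≤ Δ) (h1 : 1 ≤ Δ) (hθ : 0 < θ)
    (hθΔ : θ * (2 * Δ) ≤ 1 / 4) (hΓ0 : 0 ≤ Γ) (ρ : ℕ → ℝ) (hρ0 : ∀ j, 0 ≤ ρ j)
    (hρ : ∀ c ∈ Inc H ed, ∀ c' ∈ chH H ed c, ∀ j < M,
      ∏ c'' ∈ (chH H ed c).erase c', (1 - RR (chH H ed) M j c'') ≤ ρ j)
    (hΓ : Real.exp ((θ * M)⁻¹ * ∑ j ∈ range M, ρ j) ≤ θ * Γ) {a b : ℝ} (hb : 0 ≤ b)
    (hQ : ∀ e ∈ A0, a ≤ ∏ c ∈ rootS H ed {e}, (1 - RR (chH H ed) M M c) ∧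
      ∏ c ∈ rootS H ed {e}, (1 - RR (chH H ed) M M c) ≤ b) :
    A0.card * a - Γ ^ 3 * (10 * Xs H ed θ (M + 1)) ≤
        av (fun w : J → Fin M => ((par H ed A0 w M).card : ℝ)) ∧
      av (fun w : J → Fin M => ((par H ed A0 w M).card : ℝ) ^ 2) ≤
        A0.card + (A0.card * b) ^ 2 +
          Γ ^ 3 * (20 * A0.card * Xs H ed θ (M + 1) + 32 * H.card) := by
  have : Nonempty (Fin M) := ⟨⟨0, hM⟩⟩
  have hθ1 : θ ≤ 1 := by nlinarith
  have hΓ3 : 0 ≤ Γ ^ 3 := by positivity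
  constructor
  · have e1 : (fun w : J → Fin M => ((par H ed A0 w M).card : ℝ)) =
        fun w => ∑ e ∈ A0, ind ({e} ⊆ par H ed A0 w M) :=
      funext fun w => card_eq_sum (par_subset H ed A0 w M)
    rw [e1, av_sum]
    have a1 := mul_le_mul_of_nonneg_left (col_one H ed h3 hΔ h1 hθ hθΔ M M A0) hΓ3
    have a2 : ∑ e ∈ A0, (a - Γ ^ 3 * Col (chH H ed) Prod.snd θ M M (rootS H ed {e})) ≤
        ∑ e ∈ A0, av (fun w : J → Fin M => ind ({e} ⊆ par H ed A0 w M)) := by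
      refine sum_le_sum fun e he => ?_
      have := (abs_le.1 (approx H ed hM h0 (singleton_subset_iff.2 he) ρ hρ0 hρ hθ hθ1 hΓ)).1
      have := (hQ e he).1
      linarith
    rw [sum_sub_distrib, sum_const, nsmul_eq_mul, ← mul_sum] at a2
    linarith
  · refine le_trans (av_mono fun w => card_sq_le (par_subset H ed A0 w M)) ?_
    rw [av_add, av_const, av_sum]
    have a1 := mul_le_mul_of_nonneg_left (col_two H ed h3 hΔ h1 hθ hθΔ M M A0) hΓ3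
    have a2 : ∑ e ∈ A0, av (fun w : J → Fin M => ∑ f ∈ A0.erase e,
        ind ({e, f} ⊆ par H ed A0 w M)) ≤ ∑ e ∈ A0, (A0.card * b ^ 2 + Γ ^ 3 *
          ∑ f ∈ A0.erase e, Col (chH H ed) Prod.snd θ M M (rootS H ed {e, f})) := by
      refine sum_le_sum fun e he => ?_
      rw [av_sum, mul_sum]
      have a3 : ∑ _f ∈ A0.erase e, b ^ 2 ≤ A0.card * b ^ 2 := by
        rw [sum_const, nsmul_eq_mul]
        exact mul_le_mul_of_nonneg_right (Nat.cast_le.2 card_erase_le) (by positivity)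
      refine le_trans ?_ (add_le_add a3 le_rfl)
      rw [← sum_add_distrib]
      refine sum_le_sum fun f hf => ?_
      obtain ⟨hfe, hf'⟩ := mem_erase.1 hf
      have a4 := (abs_le.1 (approx H ed hM h0 (A := {e, f})
        (insert_subset he (singleton_subset_iff.2 hf')) ρ hρ0 hρ hθ hθ1 hΓ)).2
      rw [prod_pair H ed _ hfe] at a4
      have a5 : (∏ c ∈ rootS H ed {e}, (1 - RR (chH H ed) M M c)) *
          ∏ c ∈ rootS H ed {f}, (1 - RR (chH H ed) M M c) ≤ b * b :=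
        mul_le_mul (hQ e he).2 (hQ f hf').2
          (prod_nonneg fun c _ => sub_nonneg.2 (RR_mem (chH H ed) le_rfl c).2) hb
      linarith
    rw [sum_add_distrib, sum_const, nsmul_eq_mul, ← mul_sum] at a2
    linarith

lemma av_phi {α : Type} [Fintype α] [Nonempty α] (n : ℕ) (F : α → ℕ) :
    av (fun a => phi n (F a)) = av (fun a => (F a : ℝ) ^ 2) / (n * √(n : ℝ)) ^ 2 -
      2 * (1 / (2 * √2)) * (av (fun a => (F a : ℝ)) / (n * √(n : ℝ))) + (1 / (2 * √2)) ^ 2 := by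
  have e : (n : ℝ) ^ ((3 : ℝ) / 2) = n * √(n : ℝ) := by
    rw [Real.sqrt_eq_rpow, show (3 : ℝ) / 2 = 1 + 1 / 2 by norm_num,
      Real.rpow_add' (Nat.cast_nonneg n) (by norm_num), Real.rpow_one]
  have e2 : (fun a => phi n (F a)) = fun a => (((n * √(n : ℝ)) ^ 2)⁻¹ * (F a : ℝ) ^ 2 -
      (2 * (1 / (2 * √2)) * (n * √(n : ℝ))⁻¹) * (F a : ℝ)) + (1 / (2 * √2)) ^ 2 := by
    funext a
    rw [phi, e]
    ring
  rw [e2, av_add, av_sub, av_const_mul, av_const_mul, av_const]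
  ring

end Ph2A

theorem phase2 (P : Par) {G : St P.n} (hG : P.Good P.m G) (disc : Disc (pp P.n P.m) P.δ' P.κ G)
    {fuel : ℕ} (hf : G.card ≤ fuel) :
    expectFinal (phi P.n) fuel G ≤
      2 / P.z + P.z ^ 3100 * Xs (triangles G) edT P.θ P.R / (P.n * √(P.n : ℝ)) := by
  have hz := P.z_ge
  have hz1 : 1 ≤ P.z := by linarith
  have hz0 := P.z_pos
  have hn3 : (3 : ℝ) ≤ P.n := by exact_mod_cast P.n3
  have hn0 : (0 : ℝ) < P.n := by linarith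
  have hD : P.D = P.z ^ 24 := rfl
  have hD1 : 1 ≤ P.D := one_le_pow₀ hz1
  have hDy : yy P.n P.m = P.D := P.hz.symm
  have hθ : P.θ = (16 * P.D)⁻¹ := rfl
  have hθ0 : 0 < P.θ := by rw [hθ]; positivity
  obtain ⟨M, hM⟩ : ∃ M, M = 2 * 4 ^ P.n := ⟨_, rfl⟩
  have hM0 : 0 < M := by rw [hM]; positivity
  have hnM : P.n ≤ M := by
    have := Nat.lt_pow_self (n := P.n) (show 1 < 4 by norm_num)
    omega
  have : Nonempty (Fin M) := ⟨⟨0, hM0⟩⟩
  have hcod : ∀ u v, s(u, v) ∈ G → cod G u v ≤ 2 * P.D := by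
    intro u v h
    have h1 := (abs_le.1 (hG.cod u v h)).2
    have h2 : P.δ ≤ 1 := inv_le_one_of_one_le₀ (one_le_pow₀ hz1)
    rw [hDy] at h1
    nlinarith
  have h0 : ∀ T ∈ triangles G, edT T ⊆ G := fun T hT => (mem_tri.1 hT).2
  have h3 : ∀ T ∈ triangles G, (edT T).card ≤ 3 := fun T hT => (card_edT (mem_tri.1 hT).1).le
  have hΔ : ∀ g, (((triangles G).filter fun T => g ∈ edT T).card : ℝ) ≤ 2 * P.D := by
    intro g
    induction g using Sym2.ind with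
    | _ u v =>
      by_cases h : s(u, v) ∈ G
      · rw [tri_card hG.sub h]
        exact hcod u v h
      · rw [filter_eq_empty_iff.2 fun T hT h' => h (h0 T hT h')]
        simp only [card_empty, Nat.cast_zero]
        linarith
  have hθΔ : P.θ * (2 * (2 * P.D)) ≤ 1 / 4 := by
    rw [hθ]
    apply le_of_eq
    field_simp
    norm_num
  obtain ⟨hQ, ρ, hρ0, hρ, hΓ⟩ := cav P hG (reg_of_good P le_rfl hG disc) hnM
  have hΓ' : (3 * P.D) ^ 40 = P.θ * (16 * P.D * (3 * P.D) ^ 40) := by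
    rw [hθ, ← mul_assoc, inv_mul_cancel₀ (by positivity), one_mul]
  rw [hΓ'] at hΓ
  have hsD : √(2 * P.D) = √2 * P.z ^ 12 := by
    rw [Real.sqrt_mul (by norm_num), hD, show P.z ^ 24 = (P.z ^ 12) ^ 2 by ring,
      Real.sqrt_sq (by positivity)]
  have h2 : 0 < √2 := by positivity
  have h22 : √2 * √2 = 2 := Real.mul_self_sqrt (by norm_num)
  have hsD0 : 0 < √(2 * P.D) := by rw [hsD]; positivity
  obtain ⟨m1, m2⟩ := Ph2A.moments (triangles G) edT hM0 h0 h3 hΔ (by linarith) hθ0 hθΔ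
    (by positivity) ρ hρ0 hρ hΓ (a := (1 - (P.z ^ 5)⁻¹) / √(2 * P.D))
    (b := (1 + (P.z ^ 5)⁻¹) / √(2 * P.D)) (by positivity) (fun e he => by
      have h := abs_le.1 (hQ e he)
      rw [div_le_iff₀ hsD0, le_div_iff₀ hsD0]
      constructor <;> linarith [h.1, h.2])
  have hsn : √(P.n : ℝ) * √(P.n : ℝ) = P.n := Real.mul_self_sqrt hn0.le
  have hsn0 : 0 < √(P.n : ℝ) := Real.sqrt_pos.2 hn0
  have hp : P.z ^ 12 = √(P.n : ℝ) * pp P.n P.m := by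
    have h1 : (P.z ^ 12) ^ 2 = (√(P.n : ℝ) * pp P.n P.m) ^ 2 := by
      rw [← pow_mul, P.hz, yy, mul_pow, Real.sq_sqrt hn0.le]
    exact (pow_left_inj₀ (by positivity) (mul_pos hsn0 P.p_pos).le two_ne_zero).1 h1
  have hN : (G.card : ℝ) = P.n * √(P.n : ℝ) * P.z ^ 12 / 2 := by
    have h1 := hG.card
    rw [hp]
    have : (P.n : ℝ) * √(P.n : ℝ) * (√(P.n : ℝ) * pp P.n P.m) = (P.n : ℝ) ^ 2 * pp P.n P.m := by
      rw [mul_assoc, ← mul_assoc (√(P.n : ℝ)), hsn]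
      ring
    rw [this]
    linarith
  have hNc : ∀ t : ℝ, (G.card : ℝ) * (t / √(2 * P.D)) =
      t * (1 / (2 * √2) * (P.n * √(P.n : ℝ))) := by
    intro t
    rw [hN, hsD]
    field_simp
  rw [hNc] at m1 m2
  have hH : ((triangles G).card : ℝ) ≤ P.z ^ 24 * G.card := by
    have h1 := six_Q hG.sub
    have h4 : ∑ u, ∑ v ∈ nb G u, cod G u v ≤ ∑ u, deg G u * (2 * P.D) := by
      refine sum_le_sum fun u _ => ?_
      rw [deg, ← nsmul_eq_mul]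
      exact sum_le_card_nsmul _ _ _ fun v hv => hcod u v (mem_nb.1 hv)
    rw [← sum_mul, sum_deg_eq hG.sub] at h4
    rw [← hD]
    have h5 : (0 : ℝ) ≤ P.D * G.card := mul_nonneg (le_trans zero_le_one hD1) (Nat.cast_nonneg _)
    linarith
  have hs5 : P.z ^ 5000 ≤ P.n * √(P.n : ℝ) := by
    have h4 : P.z ^ 5000 ≤ √(P.n : ℝ) := by
      refine Real.le_sqrt_of_sq_le ?_
      rw [← pow_mul]
      exact P.h2
    have h5 : (1 : ℝ) ≤ P.n := le_trans (by norm_num) hn3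
    exact h4.trans (le_mul_of_one_le_left hsn0.le h5)
  have hq : ((1 : ℝ) / 4) ^ P.R ≤ (P.z ^ 10000)⁻¹ := by
    rw [one_div, inv_pow]
    refine inv_anti₀ (by positivity) (P.h2.trans ?_)
    have h4 : P.L ≤ P.R := by
      have h5 := P.L_le
      have h6 := P.L_ge
      have h7 : P.z ≤ P.R := Nat.le_ceil _
      linarith
    rw [← P.exp_L]
    refine (Real.exp_le_exp.2 h4).trans ?_
    rw [← Real.exp_one_pow]
    exact pow_le_pow_left₀ (Real.exp_pos 1).le (by linarith [Real.exp_one_lt_d9]) _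
  have hG3 : (16 * P.D * (3 * P.D) ^ 40) ^ 3 ≤ P.z ^ 2976 := by
    have h4 : 16 * P.D * (3 * P.D) ^ 40 ≤ P.z ^ 992 := by
      have h5 : (16 * 3 ^ 40 : ℝ) ≤ P.z ^ 8 :=
        le_trans (by norm_num) (pow_le_pow_left₀ (by norm_num) hz 8)
      calc 16 * P.D * (3 * P.D) ^ 40 = 16 * 3 ^ 40 * P.z ^ 984 := by rw [hD]; ring
        _ ≤ P.z ^ 8 * P.z ^ 984 := mul_le_mul_of_nonneg_right h5 (by positivity)
        _ = P.z ^ 992 := by rw [← pow_add]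
    calc _ ≤ (P.z ^ 992) ^ 3 := pow_le_pow_left₀ (by positivity) h4 3
      _ = P.z ^ 2976 := by rw [← pow_mul]
  refine (link (M := M) (φ := phi P.n) hG.sub hM.ge (fun e => sq_nonneg _) hf).trans ?_
  rw [Ph2A.av_phi]
  refine Ph2A.final hz hs5 hN (Nat.cast_nonneg _) hH (Xs_nonneg _ _ hθ0.le _)
    (Xs_trunc (triangles G) edT h3 hΔ (by linarith) hθ0 hθΔ (M + 1) P.R) (by positivity) hq
    (by positivity) hG3 (by positivity) ?_ m1 m2
  rw [div_pow, mul_pow, Real.sq_sqrt (by norm_num)]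
  norm_num

end Crest.Agent.R30
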