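import Crest.Agent.R30.Boot
import Crest.Agent.R30.Fail
import Crest.Agent.R30.Cyc
import Crest.Agent.R30.Ph2

/-!
# R30 Main: assembly
-/

set_option autoImplicit false

namespace Crest.Agent.R30

open Finset Crest.CombinatoricsR.TriangleRemoval

theorem rpow_three_half (n : ℕ) : (n : ℝ) ^ ((3 : ℝ) / 2) = n * √(n : ℝ) := by
  rw [Real.sqrt_eq_rpow, show (3 : ℝ) / 2 = 1 + 1 / 2 by norm_num,
    Real.rpow_add' (Nat.cast_nonneg n) (by norm_num), Real.rpow_one]

theorem phi_le {n e : ℕ} (hn : 1 ≤ n) (he : e ≤ n ^ 2) : phi n e ≤ 4 * n := by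
  have hn1 : (1 : ℝ) ≤ n := by exact_mod_cast hn
  have hs : 1 ≤ √(n : ℝ) := Real.one_le_sqrt.2 hn1
  have hss : √(n : ℝ) * √(n : ℝ) = n := Real.mul_self_sqrt (by linarith)
  have he' : (e : ℝ) ≤ (n : ℝ) ^ 2 := by exact_mod_cast he
  have h1 : (e : ℝ) / (n * √(n : ℝ)) ≤ √(n : ℝ) := by
    rw [div_le_iff₀ (by positivity)]
    nlinarith
  have h2 : 0 ≤ (e : ℝ) / (n * √(n : ℝ)) := by positivity
  have h3 : 1 ≤ √2 := Real.one_le_sqrt.2 (by norm_num)
  have h4 : 1 / (2 * √2) ≤ 1 := by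
    rw [div_le_one (by positivity)]
    linarith
  have h5 : 0 ≤ 1 / (2 * √2) := by positivity
  unfold phi
  rw [rpow_three_half]
  have h6 : |(e : ℝ) / (n * √(n : ℝ)) - 1 / (2 * √2)| ≤ √(n : ℝ) := by
    rw [abs_le]
    constructor <;> linarith
  rw [← sq_abs]
  have h7 := pow_le_pow_left₀ (abs_nonneg _) h6 2
  nlinarith

theorem main_bound (P : Par) : expectFinal (phi P.n) (P.n ^ 2) (allEdges P.n) ≤ 10 / P.z := by
  have hm : P.m ≤ P.n ^ 2 := by have := P.m_le; omega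
  have hz := P.z_ge
  have hn3 : (3 : ℝ) ≤ P.n := by exact_mod_cast P.n3
  have hn0 : (0 : ℝ) < P.n := by linarith
  have hs0 : 0 < √(P.n : ℝ) := Real.sqrt_pos.2 hn0
  have hθ : 0 ≤ P.θ := by unfold Par.θ; positivity
  obtain ⟨fuel, hfuel⟩ := Nat.exists_eq_add_of_le hm
  rw [hfuel, EE_final]
  have hcard : ∀ E : St P.n, E ⊆ allEdges P.n → 2 * E.card ≤ P.n ^ 2 := by
    intro E hE
    have h1 : (E.card : ℝ) ≤ (allEdges P.n).card := by exact_mod_cast card_le_card hE
    have h2 := card_all (n := P.n)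
    have h3 : 2 * (E.card : ℝ) ≤ (P.n : ℝ) ^ 2 := by linarith
    exact_mod_cast h3
  have key : ∀ x, Valid P.m x → expectFinal (phi P.n) fuel (x P.m) ≤
      (4 * P.n * ind (¬ P.NoFail x) + 2 / P.z) + P.z ^ 3100 / (P.n * √(P.n : ℝ)) *
        (ind (P.GoodTo x P.m) * Xs (triangles (x P.m)) edT P.θ P.R) := by
    intro x hx
    have hsub : x P.m ⊆ allEdges P.n := hx.1 ▸ hx.anti (Nat.zero_le _) le_rfl
    have hc := hcard _ hsub
    have hX := Xs_nonneg (triangles (x P.m)) edT hθ P.R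
    by_cases hf : P.NoFail x
    · have hg := boot P hx hf
      have hgt : P.GoodTo x P.m := fun i hi => hg i hi.le
      have h1 := phase2 P (hg P.m le_rfl) (hf P.m le_rfl hgt).2.2 (fuel := fuel) (by
        have := P.m_le; omega)
      rw [ind_neg (not_not.2 hf), ind_pos hgt, mul_zero, zero_add, one_mul, div_mul_eq_mul_div]
      exact h1
    · have h1 : expectFinal (phi P.n) fuel (x P.m) ≤ 4 * P.n :=
        expectFinal_le _ _ fun e he => phi_le (by have := P.n3; omega) (by omega)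
      rw [ind_pos hf, mul_one]
      have h2 := ind_nonneg (P.GoodTo x P.m)
      have h3 : 0 ≤ P.z ^ 3100 / (P.n * √(P.n : ℝ)) *
          (ind (P.GoodTo x P.m) * Xs (triangles (x P.m)) edT P.θ P.R) := by positivity
      have h4 : 0 ≤ 2 / P.z := by positivity
      linarith
  refine (EE_mono _ key).trans ?_
  rw [EE_add, EE_add, EE_const_mul, EE_const_mul, EE_const]
  have h1 : 4 * P.n * EE P.n P.m (fun x => ind (¬ P.NoFail x)) ≤ 4 / P.z := by
    refine (mul_le_mul_of_nonneg_left (fail_le P) (by positivity)).trans ?_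
    have h2 : P.z ≤ P.n := le_trans (le_self_pow₀ (by linarith) (by norm_num)) P.h2
    rw [show 4 * (P.n : ℝ) * ((P.n : ℝ) ^ 2)⁻¹ = 4 / P.n by field_simp]
    exact div_le_div_of_nonneg_left (by norm_num) (by linarith) h2
  have h2 : P.z ^ 3100 / (P.n * √(P.n : ℝ)) * EE P.n P.m (fun x => ind (P.GoodTo x P.m) *
      Xs (triangles (x P.m)) edT P.θ P.R) ≤ 1 / P.z := by
    refine (mul_le_mul_of_nonneg_left (cyc_exp P) (by positivity)).trans ?_
    have h3 : P.z ^ 5000 ≤ √(P.n : ℝ) := by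
      refine Real.le_sqrt_of_sq_le ?_
      rw [← pow_mul]
      exact P.h2
    have h4 : P.z ^ 3181 ≤ P.z ^ 5000 := pow_le_pow_right₀ (by linarith) (by norm_num)
    rw [div_mul_eq_mul_div, div_le_div_iff₀ (by positivity) (by linarith)]
    calc P.z ^ 3100 * (P.z ^ 80 * P.n) * P.z = P.n * P.z ^ 3181 := by ring
      _ ≤ 1 * (P.n * √(P.n : ℝ)) := by
        rw [one_mul]
        exact mul_le_mul_of_nonneg_left (h4.trans h3) hn0.le
  have h3 : 4 / P.z + 2 / P.z + 1 / P.z ≤ 10 / P.z := by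
    rw [← add_div, ← add_div]
    exact div_le_div_of_nonneg_right (by norm_num) (by linarith)
  linarith

theorem main_tendsto : Filter.Tendsto
    (fun n : ℕ => expectFinal (phi n) (n ^ 2) (allEdges n)) Filter.atTop (nhds 0) := by
  have h1 : Filter.Tendsto (fun n : ℕ => 10 * (n : ℝ) ^ (-(1 / 12000 : ℝ))) Filter.atTop
      (nhds (10 * 0)) :=
    ((tendsto_rpow_neg_atTop (by norm_num)).comp tendsto_natCast_atTop_atTop).const_mul 10
  rw [mul_zero] at h1
  refine squeeze_zero' (Filter.Eventually.of_forall fun n =>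
    expectFinal_nonneg (fun e => sq_nonneg _) _ _) ?_ h1
  filter_upwards [exists_par] with n hn
  obtain ⟨P, rfl⟩ := hn
  refine (main_bound P).trans ?_
  have hn0 : (0 : ℝ) < P.n := by have := P.n3; positivity
  have h2 : (P.n : ℝ) ^ (1 / 12000 : ℝ) ≤ P.z := by
    have h3 := Real.rpow_le_rpow hn0.le P.h1 (by norm_num : (0 : ℝ) ≤ 1 / 12000)
    rwa [← Real.rpow_natCast, ← Real.rpow_mul P.z_pos.le,
      show ((12000 : ℕ) : ℝ) * (1 / 12000) = 1 by norm_num, Real.rpow_one] at h3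
  rw [Real.rpow_neg hn0.le, ← div_eq_mul_inv]
  exact div_le_div_of_nonneg_left (by norm_num) (Real.rpow_pos_of_pos hn0 _) h2

end Crest.Agent.R30
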