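import Crest.Agent.R30.Basic

/-!
# R30 Proc: the path expectation `EE` (task R30-Proc)

PLAN (aux in `namespace ProcA`).  First the obvious properties of `stepAvg` (linear, monotone along
`Step`, constants).  Prove everything for `Ex k i x` by induction on `k` generalizing `i x`:
linearity; monotonicity (`f ≤ g` on all paths `x'` with `x' l = x l` for `l ≤ i` and
`Step (x' l) (x' (l+1))` for `i ≤ l < i + k`); `Ex k i x f = f x` if `f` only depends on the
coordinates `≤ i`.  `EE_final`: `expectFinal φ (k + fuel) (x i) = Ex k i x (fun x => expectFinal φ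
fuel (x (i + k)))` (if there is no triangle `expectFinal φ fuel E = φ E.card` for every fuel).
`EE_super`: with `Z l x = ind (∀ i < l, Act i (x i)) * (∏ i < l, f ..) * ψ l (x l)` and `l = min · j`,
show `Ex k i x (Z j) ≤ Z (min i j) x` for `j ≤ i + k`.
`freedman`: apply `EE_super` to `ψ = 1`,
`f i E E' = exp (s θ w i (X E' - stepAvg E X) - θ² (w i)² v i)`, `s = ±1`, using
`exp t ≤ 1 + t + t²` for `|t| ≤ 1` (`Real.abs_exp_sub_one_sub_id_le`), `|X E' - stepAvg E X| ≤ 2 b`,
`stepAvg (X' - stepAvg X)² ≤ stepAvg (X' - X E)²`, and Markov `ind (η < M) ≤ exp (θ (M - η))`.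
-/

set_option autoImplicit false

namespace Crest.Agent.R30

open Finset Crest.CombinatoricsR.TriangleRemoval

variable {n : ℕ}

theorem stepAvg_add (E : St n) (f g : St n → ℝ) :
    stepAvg E (fun E' => f E' + g E') = stepAvg E f + stepAvg E g := by
  unfold stepAvg
  split_ifs
  · rfl
  · rw [sum_add_distrib, mul_add]

theorem stepAvg_const_mul (E : St n) (c : ℝ) (f : St n → ℝ) :
    stepAvg E (fun E' => c * f E') = c * stepAvg E f := by
  unfold stepAvg
  split_ifs
  · rfl
  · rw [← mul_sum, mul_left_comm]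

theorem stepAvg_const (E : St n) (c : ℝ) : stepAvg E (fun _ => c) = c := by
  unfold stepAvg
  split_ifs with h
  · rfl
  · have : ((triangles E).card : ℝ) ≠ 0 := Nat.cast_ne_zero.2 h
    rw [sum_const, nsmul_eq_mul, inv_mul_cancel_left₀ this]

theorem stepAvg_sum {ι : Type} (E : St n) (s : Finset ι) (f : ι → St n → ℝ) :
    stepAvg E (fun E' => ∑ i ∈ s, f i E') = ∑ i ∈ s, stepAvg E (f i) := by
  unfold stepAvg
  split_ifs
  · rfl
  · rw [sum_comm, mul_sum]

theorem stepAvg_mono (E : St n) {f g : St n → ℝ} (h : ∀ E', Step E E' → f E' ≤ g E') :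
    stepAvg E f ≤ stepAvg E g := by
  unfold stepAvg
  split_ifs with h0
  · exact h E (Or.inl ⟨h0, rfl⟩)
  · exact mul_le_mul_of_nonneg_left (sum_le_sum fun t ht => h _ (Or.inr ⟨t, ht, rfl⟩))
      (by positivity)

theorem Step.subset {E E' : St n} (h : Step E E') : E' ⊆ E := by
  rcases h with ⟨-, rfl⟩ | ⟨t, -, rfl⟩
  · exact Subset.refl _
  · exact sdiff_subset

theorem Valid.anti {m : ℕ} {x : ℕ → St n} (h : Valid m x) {i j : ℕ} (hij : i ≤ j) (hj : j ≤ m) :
    x j ⊆ x i := by
  induction hij with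
  | refl => exact Subset.refl _
  | step hl ih => exact (h.2 _ (by omega)).subset.trans (ih (by omega))

namespace ProcA

theorem Ex_succ (k i : ℕ) (x : ℕ → St n) (f : (ℕ → St n) → ℝ) :
    Ex (k + 1) i x f = stepAvg (x i) fun E => Ex k (i + 1) (Function.update x (i + 1) E) f := rfl

theorem Ex_add (f g : (ℕ → St n) → ℝ) (k : ℕ) : ∀ (i : ℕ) (x : ℕ → St n),
    Ex k i x (fun x => f x + g x) = Ex k i x f + Ex k i x g := by
  induction k with
  | zero => intro i x; rfl
  | succ k ih => intro i x; simp only [Ex_succ, ih, stepAvg_add]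

theorem Ex_const_mul (c : ℝ) (f : (ℕ → St n) → ℝ) (k : ℕ) : ∀ (i : ℕ) (x : ℕ → St n),
    Ex k i x (fun x => c * f x) = c * Ex k i x f := by
  induction k with
  | zero => intro i x; rfl
  | succ k ih => intro i x; simp only [Ex_succ, ih, stepAvg_const_mul]

theorem Ex_const (c : ℝ) (k : ℕ) : ∀ (i : ℕ) (x : ℕ → St n), Ex k i x (fun _ => c) = c := by
  induction k with
  | zero => intro i x; rfl
  | succ k ih => intro i x; simp only [Ex_succ, ih, stepAvg_const]

theorem Ex_mono {f g : (ℕ → St n) → ℝ} (k : ℕ) : ∀ (i : ℕ) (x : ℕ → St n),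
    (∀ x' : ℕ → St n, (∀ l ≤ i, x' l = x l) →
      (∀ l, i ≤ l → l < i + k → Step (x' l) (x' (l + 1))) → f x' ≤ g x') →
    Ex k i x f ≤ Ex k i x g := by
  induction k with
  | zero => intro i x h; exact h x (fun _ _ => rfl) fun l h1 h2 => by omega
  | succ k ih =>
    intro i x h
    rw [Ex_succ, Ex_succ]
    refine stepAvg_mono _ fun E hE => ih _ _ fun x' h1 h2 => ?_
    have h3 : ∀ l ≤ i, x' l = x l := fun l hl => by
      rw [h1 l (by omega), Function.update_of_ne (by omega)]
    refine h x' h3 fun l hl1 hl2 => ?_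
    rcases hl1.eq_or_lt with rfl | hl1
    · rw [h3 i le_rfl, h1 (i + 1) le_rfl, Function.update_self]
      exact hE
    · exact h2 l hl1 (by omega)

theorem Ex_local {f : (ℕ → St n) → ℝ} (k i : ℕ) (x : ℕ → St n)
    (h : ∀ x' : ℕ → St n, (∀ l ≤ i, x' l = x l) → f x' = f x) : Ex k i x f = f x := by
  rw [← Ex_const (f x) k i x]
  exact le_antisymm (Ex_mono k i x fun x' h1 _ => (h x' h1).le)
    (Ex_mono k i x fun x' h1 _ => (h x' h1).ge)

theorem final_succ (φ : ℕ → ℝ) (fuel : ℕ) (E : St n) :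
    expectFinal φ (fuel + 1) E = stepAvg E (expectFinal φ fuel) := by
  unfold stepAvg
  rw [expectFinal]
  split_ifs with h
  · cases fuel with
    | zero => rfl
    | succ fuel => rw [expectFinal, if_pos h]
  · rfl

theorem Ex_final (φ : ℕ → ℝ) (fuel k : ℕ) : ∀ (i : ℕ) (x : ℕ → St n),
    expectFinal φ (k + fuel) (x i) = Ex k i x fun x => expectFinal φ fuel (x (i + k)) := by
  induction k with
  | zero => intro i x; rw [Nat.zero_add]; rfl
  | succ k ih =>
    intro i x
    rw [show k + 1 + fuel = (k + fuel) + 1 by omega, final_succ, Ex_succ]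
    congr 1
    funext E
    have := ih (i + 1) (Function.update x (i + 1) E)
    rw [Function.update_self] at this
    rw [this, show i + 1 + k = i + (k + 1) by omega]

theorem exp_step {E : St n} {X : St n → ℝ} {c b v : ℝ} (hc : |c| * (2 * b) ≤ 1)
    (hb : ∀ E', Step E E' → |X E' - X E| ≤ b) (hv : stepAvg E (fun E' => (X E' - X E) ^ 2) ≤ v) :
    stepAvg E (fun E' => Real.exp (c * (X E' - stepAvg E X) - c ^ 2 * v)) ≤ 1 := by
  have h1 : stepAvg E X ≤ X E + b := by
    rw [← stepAvg_const E (X E + b)]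
    exact stepAvg_mono E fun E' h => by linarith [(abs_le.1 (hb E' h)).2]
  have h2 : X E - b ≤ stepAvg E X := by
    rw [← stepAvg_const E (X E - b)]
    exact stepAvg_mono E fun E' h => by linarith [(abs_le.1 (hb E' h)).1]
  generalize hμ : stepAvg E X = μ at h1 h2
  have h3 : stepAvg E (fun E' => Real.exp (c * (X E' - μ) - c ^ 2 * v)) ≤
      stepAvg E (fun E' => Real.exp (-(c ^ 2 * v)) * (c ^ 2 * (X E' - X E) ^ 2 +
        ((c - 2 * c ^ 2 * (μ - X E)) * X E' + (1 - c * μ + c ^ 2 * (μ ^ 2 - X E ^ 2))))) := by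
    refine stepAvg_mono E fun E' h => ?_
    have h4 : |X E' - μ| ≤ 2 * b := by
      have := abs_le.1 (hb E' h)
      rw [abs_le]; constructor <;> linarith
    have h5 : |c * (X E' - μ)| ≤ 1 := by
      rw [abs_mul]
      exact (mul_le_mul_of_nonneg_left h4 (abs_nonneg c)).trans hc
    have h6 := (abs_le.1 (Real.abs_exp_sub_one_sub_id_le h5)).2
    rw [sub_eq_add_neg, Real.exp_add, mul_comm]
    refine mul_le_mul_of_nonneg_left ?_ (Real.exp_pos _).le
    nlinarith
  refine h3.trans ?_
  rw [stepAvg_const_mul, stepAvg_add, stepAvg_add, stepAvg_const_mul, stepAvg_const_mul,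
    stepAvg_const, hμ]
  have h7 := Real.add_one_le_exp (c ^ 2 * v)
  have h8 := mul_le_mul_of_nonneg_left hv (sq_nonneg c)
  rw [Real.exp_neg, inv_mul_le_iff₀ (Real.exp_pos _), mul_one]
  nlinarith [mul_nonneg (sq_nonneg c) (sq_nonneg (μ - X E))]

end ProcA

theorem EE_add (m : ℕ) (f g : (ℕ → St n) → ℝ) :
    EE n m (fun x => f x + g x) = EE n m f + EE n m g := ProcA.Ex_add f g m 0 _

theorem EE_const_mul (m : ℕ) (c : ℝ) (f : (ℕ → St n) → ℝ) :
    EE n m (fun x => c * f x) = c * EE n m f := ProcA.Ex_const_mul c f m 0 _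

theorem EE_const (m : ℕ) (c : ℝ) : EE n m (fun _ => c) = c := ProcA.Ex_const c m 0 _

theorem EE_sum {ι : Type} (m : ℕ) (s : Finset ι) (f : ι → (ℕ → St n) → ℝ) :
    EE n m (fun x => ∑ i ∈ s, f i x) = ∑ i ∈ s, EE n m (f i) := by
  classical
  induction s using Finset.induction_on with
  | empty => simpa using EE_const m 0
  | insert a s ha ih => simp only [sum_insert ha]; rw [EE_add, ih]

theorem EE_mono (m : ℕ) {f g : (ℕ → St n) → ℝ} (h : ∀ x, Valid m x → f x ≤ g x) :
    EE n m f ≤ EE n m g := ProcA.Ex_mono m 0 _ fun x h1 h2 =>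
    h x ⟨h1 0 le_rfl, fun i hi => h2 i (Nat.zero_le i) (by omega)⟩

theorem EE_final (φ : ℕ → ℝ) (m fuel : ℕ) :
    expectFinal φ (m + fuel) (allEdges n) = EE n m fun x => expectFinal φ fuel (x m) := by
  have := ProcA.Ex_final φ fuel m 0 (fun _ => allEdges n)
  simpa only [Nat.zero_add, EE] using this

theorem expectFinal_nonneg {φ : ℕ → ℝ} (h : ∀ e, 0 ≤ φ e) (fuel : ℕ) (E : St n) :
    0 ≤ expectFinal φ fuel E := by
  induction fuel generalizing E with
  | zero => exact h _
  | succ fuel ih =>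
    rw [ProcA.final_succ, ← stepAvg_const E 0]
    exact stepAvg_mono E fun E' _ => ih E'

theorem expectFinal_le {φ : ℕ → ℝ} {B : ℝ} (fuel : ℕ) (E : St n) (h : ∀ e ≤ E.card, φ e ≤ B) :
    expectFinal φ fuel E ≤ B := by
  induction fuel generalizing E with
  | zero => exact h _ le_rfl
  | succ fuel ih =>
    rw [ProcA.final_succ, ← stepAvg_const E B]
    exact stepAvg_mono E fun E' hE' => ih E' fun e he => h e (he.trans (card_le_card hE'.subset))

/-- supermartingale bound -/
theorem EE_super {m j : ℕ} (hj : j ≤ m) (Act : ℕ → St n → Prop) (f : ℕ → St n → St n → ℝ)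
    (ψ : ℕ → St n → ℝ) (hf : ∀ i E E', 0 ≤ f i E E') (hψ : ∀ i E, 0 ≤ ψ i E)
    (h : ∀ i < j, ∀ E, Act i E → stepAvg E (fun E' => f i E E' * ψ (i + 1) E') ≤ ψ i E) :
    EE n m (fun x => ind (∀ i < j, Act i (x i)) * (∏ i ∈ range j, f i (x i) (x (i + 1))) *
      ψ j (x j)) ≤ ψ 0 (allEdges n) := by
  set Z : ℕ → (ℕ → St n) → ℝ := fun l x => ind (∀ i < l, Act i (x i)) *
    (∏ i ∈ range l, f i (x i) (x (i + 1))) * ψ l (x l) with hZ
  have key : ∀ k i (x : ℕ → St n), i ≤ j → j ≤ i + k → Ex k i x (Z j) ≤ Z i x := by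
    intro k
    induction k with
    | zero =>
      intro i x h1 h2
      obtain rfl : i = j := by omega
      exact le_rfl
    | succ k ih =>
      intro i x h1 h2
      rcases h1.eq_or_lt with rfl | h1
      · refine (ProcA.Ex_local _ _ _ fun x' hx' => ?_).le
        simp only [hZ]
        rw [hx' i le_rfl, ind_congr (forall₂_congr fun l hl => by rw [hx' l hl.le]),
          prod_congr rfl fun l hl => by
            rw [hx' l (mem_range.1 hl).le, hx' (l + 1) (mem_range.1 hl)]]
      · refine (stepAvg_mono _ fun E _ => ih (i + 1) _ h1 (by omega)).trans ?_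
        have e : ∀ E, Z (i + 1) (Function.update x (i + 1) E) =
            (ind (∀ l < i + 1, Act l (x l)) * ∏ l ∈ range i, f l (x l) (x (l + 1))) *
              (f i (x i) E * ψ (i + 1) E) := fun E => by
          have hu : ∀ l ≤ i, Function.update x (i + 1) E l = x l := fun l hl =>
            Function.update_of_ne (by omega) _ _
          simp only [hZ]
          rw [prod_range_succ, Function.update_self, hu i le_rfl,
            ind_congr (forall₂_congr fun l hl => by rw [hu l (by omega)]),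
            prod_congr rfl fun l hl => by
              rw [hu l (mem_range.1 hl).le, hu (l + 1) (mem_range.1 hl)]]
          ring
        simp only [e]
        rw [stepAvg_const_mul]
        have hp : 0 ≤ ∏ l ∈ range i, f l (x l) (x (l + 1)) := prod_nonneg fun l _ => hf _ _ _
        simp only [hZ]
        by_cases ha : ∀ l < i + 1, Act l (x l)
        · rw [ind_pos ha, ind_pos fun l hl => ha l (by omega)]
          exact mul_le_mul_of_nonneg_left (h i h1 _ (ha i (by omega))) (by positivity)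
        · rw [ind_neg ha, zero_mul, zero_mul]
          exact mul_nonneg (mul_nonneg (ind_nonneg _) hp) (hψ _ _)
  refine (key m 0 _ (Nat.zero_le j) (by omega)).trans (le_of_eq ?_)
  simp only [hZ]
  rw [ind_pos fun i hi => absurd hi (Nat.not_lt_zero i)]
  simp

theorem freedman {m j : ℕ} (hj : j ≤ m) (Act : ℕ → St n → Prop) (X : St n → ℝ) (w v : ℕ → ℝ)
    {θ η b : ℝ} (hθ : 0 ≤ θ) (hw : ∀ i < j, 0 ≤ w i ∧ θ * w i * (2 * b) ≤ 1)
    (hb : ∀ i < j, ∀ E, Act i E → ∀ E', Step E E' → |X E' - X E| ≤ b)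
    (hv : ∀ i < j, ∀ E, Act i E → stepAvg E (fun E' => (X E' - X E) ^ 2) ≤ v i) :
    EE n m (fun x => ind ((∀ i < j, Act i (x i)) ∧
      η < |∑ i ∈ range j, w i * (X (x (i + 1)) - stepAvg (x i) X)|)) ≤
      2 * Real.exp (-(θ * η) + θ ^ 2 * ∑ i ∈ range j, w i ^ 2 * v i) := by
  have one : ∀ c : ℕ → ℝ, (∀ i < j, |c i| * (2 * b) ≤ 1) →
      EE n m (fun x => ind (∀ i < j, Act i (x i)) *
        Real.exp (∑ i ∈ range j, c i * (X (x (i + 1)) - stepAvg (x i) X) -
          ∑ i ∈ range j, c i ^ 2 * v i)) ≤ 1 := fun c hc => by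
    have := EE_super hj Act (fun i E E' => Real.exp (c i * (X E' - stepAvg E X) - c i ^ 2 * v i))
      (fun _ _ => 1) (fun _ _ _ => (Real.exp_pos _).le) (fun _ _ => zero_le_one)
      (fun i hi E hE => by
        simp only [mul_one]
        exact ProcA.exp_step (hc i hi) (hb i hi E hE) (hv i hi E hE))
    simpa only [mul_one, ← Real.exp_sum, sum_sub_distrib] using this
  have habs : ∀ i < j, |θ * w i| * (2 * b) ≤ 1 := fun i hi => by
    rw [abs_of_nonneg (mul_nonneg hθ (hw i hi).1)]; exact (hw i hi).2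
  have h1 := one (fun i => θ * w i) habs
  have h2 := one (fun i => -(θ * w i)) fun i hi => by rw [abs_neg]; exact habs i hi
  have e1 : ∑ i ∈ range j, (θ * w i) ^ 2 * v i = θ ^ 2 * ∑ i ∈ range j, w i ^ 2 * v i := by
    rw [mul_sum]; exact sum_congr rfl fun i _ => by ring
  simp only [neg_sq, e1, neg_mul, sum_neg_distrib, mul_assoc θ, ← mul_sum] at h1 h2
  set V := θ ^ 2 * ∑ i ∈ range j, w i ^ 2 * v i
  have hK : 0 ≤ Real.exp (-(θ * η) + V) := (Real.exp_pos _).le
  refine (EE_mono m (g := fun x => Real.exp (-(θ * η) + V) * (ind (∀ i < j, Act i (x i)) *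
      Real.exp (θ * ∑ i ∈ range j, w i * (X (x (i + 1)) - stepAvg (x i) X) - V) +
      ind (∀ i < j, Act i (x i)) *
      Real.exp (-(θ * ∑ i ∈ range j, w i * (X (x (i + 1)) - stepAvg (x i) X)) - V)))
    fun x _ => ?_).trans ?_
  · generalize ∑ i ∈ range j, w i * (X (x (i + 1)) - stepAvg (x i) X) = M
    by_cases hx : (∀ i < j, Act i (x i)) ∧ η < |M|
    · rw [ind_pos hx, ind_pos hx.1, one_mul, one_mul, mul_add, ← Real.exp_add, ← Real.exp_add]
      have p1 := Real.exp_pos (-(θ * η) + V + (θ * M - V))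
      have p2 := Real.exp_pos (-(θ * η) + V + (-(θ * M) - V))
      rcases lt_abs.1 hx.2 with h | h
      · have : 1 ≤ Real.exp (-(θ * η) + V + (θ * M - V)) :=
          Real.one_le_exp (by nlinarith [mul_le_mul_of_nonneg_left h.le hθ])
        linarith
      · have : 1 ≤ Real.exp (-(θ * η) + V + (-(θ * M) - V)) :=
          Real.one_le_exp (by nlinarith [mul_le_mul_of_nonneg_left h.le hθ])
        linarith
    · rw [ind_neg hx]
      have := ind_nonneg (∀ i < j, Act i (x i))
      positivity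
  · rw [EE_const_mul, EE_add, mul_comm 2]
    exact mul_le_mul_of_nonneg_left (by linarith) hK

end Crest.Agent.R30
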