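import Crest.Agent.R30.Basic

/-!
# R30 StabAbs: abstract stability lemma (task R30-StabAbs)

PLAN (aux in `namespace StabA`).  Trajectories `x = (a, β) : (ℕ → X) × (ℕ → Y)`.  Put
`β i = ∑_{l<i} τ l • m l (a l)`, `ξ i = a i + ∑_{l<i} τ l • (E l (a l) + ι (m l (a l)))`.  For an input
`(ξ, x')` let `g i = ξ i - ∑_{l<i} τ l • E l (a' l)`, `ζ i = m i (g i) - F i (β' i)`,
`b 0 = 0`, `b (i+1) = (1 - τ i) • b i - τ i • avg (b i) + τ i • ζ i` and `Out (ξ, x') = (g - ι b, b)`.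
`Out` is additive, and `x = Out (ξ, x) = Out (ξ, 0) + K x`, `K = Out (0, ·)` (here `g = a + ι β`; use
`hm`; the identity is only needed, and only true, for indices `≤ j`: either argue with the relation
"equal at indices `≤ j`" or replace the operators by ones satisfying `hm` everywhere).
Let `Bd ne nv x s := ∀ i ≤ j, ne i (a i) ≤ s ∧ nv i (β i) ≤ s`.  For any `NB .. e ne nv`:
`Bd x' s → Bd (K x') (13 L² e s)` (`g ≤ L e s`, `ζ ≤ 3 L e s + e s`, `b ≤ L ζ` because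
`b ↦ (1 - τ) b - τ avg b` is a contraction, `a ≤ g + 3 b`), and `ne i (ξ i) ≤ η → Bd (Out (ξ, 0)) (10 L η)`.
A priori `Bd∞ x (20 L)`: `nv (β i) ≤ 3 L`, `ne (a j) ≤ η + L (8 + 9)`.  Then
`x = ∑_{k<k0} K^k x₀ + K^k0 x`, bound the first terms in the sup seminorms (`e = 8`, ratio `104 L²`) and
the last one in the `ℓ²` seminorms.
-/

set_option autoImplicit false

namespace Crest.Agent.R30

open Finset Crest.CombinatoricsR.TriangleRemoval

/-- hypotheses on a pair of families of seminorms -/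
structure NB {X Y : Type} [AddCommGroup X] [Module ℝ X] [AddCommGroup Y] [Module ℝ Y]
    (E : ℕ → X →ₗ[ℝ] X) (m : ℕ → X →ₗ[ℝ] Y) (F : ℕ → Y →ₗ[ℝ] Y) (avg : Y →ₗ[ℝ] Y)
    (ι : Y →ₗ[ℝ] X) (j : ℕ) (e : ℝ) (ne : ℕ → Seminorm ℝ X) (nv : ℕ → Seminorm ℝ Y) : Prop where
  e0 : 0 ≤ e
  mono_e : ∀ i < j, ∀ a, ne (i + 1) a ≤ ne i a
  mono_v : ∀ i < j, ∀ b, nv (i + 1) b ≤ nv i b
  hE : ∀ i < j, ∀ a, ne i (E i a) ≤ e * ne i a
  hm : ∀ i < j, ∀ a, nv i (m i a) ≤ 3 * ne i a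
  hF : ∀ i < j, ∀ b, nv i (F i b) ≤ e * nv i b
  havg : ∀ i < j, ∀ b, nv i (avg b) ≤ nv i b
  hι : ∀ i ≤ j, ∀ b, ne i (ι b) ≤ 3 * nv i b

namespace StabA

variable {X Y : Type} [AddCommGroup X] [Module ℝ X] [AddCommGroup Y] [Module ℝ Y]
  {E : ℕ → X →ₗ[ℝ] X} {m : ℕ → X →ₗ[ℝ] Y} {F : ℕ → Y →ₗ[ℝ] Y} {avg : Y →ₗ[ℝ] Y}
  {ι : Y →ₗ[ℝ] X} {j : ℕ} {τ : ℕ → ℝ}

variable (E m F avg ι j τ) in
/-- `(a, β)` is the output for the input `(ξ, a', β')` -/
structure Sol (ξ a' : ℕ → X) (β' : ℕ → Y) (a : ℕ → X) (β : ℕ → Y) : Prop where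
  g : ∀ i ≤ j, a i + ι (β i) = ξ i - ∑ l ∈ range i, τ l • E l (a' l)
  z : β 0 = 0
  s : ∀ i < j, β (i + 1) =
    (1 - τ i) • β i - τ i • avg (β i) + τ i • (m i (a i + ι (β i)) - F i (β' i))

theorem exists_sol (ξ a' : ℕ → X) (β' : ℕ → Y) : ∃ a β, Sol E m F avg ι j τ ξ a' β' a β := by
  let g : ℕ → X := fun i => ξ i - ∑ l ∈ range i, τ l • E l (a' l)
  let b : ℕ → Y := fun i => Nat.rec 0
    (fun i b => (1 - τ i) • b - τ i • avg b + τ i • (m i (g i) - F i (β' i))) i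
  refine ⟨fun i => g i - ι (b i), b, fun i _ => ?_, rfl, fun i _ => ?_⟩
  · simp only [sub_add_cancel, g]
  · simp only [sub_add_cancel]
    rfl

theorem Sol.sub {ξ a' a ξ₂ a₂' a₂ : ℕ → X} {β' β β₂' β₂ : ℕ → Y}
    (h : Sol E m F avg ι j τ ξ a' β' a β) (h2 : Sol E m F avg ι j τ ξ₂ a₂' β₂' a₂ β₂) :
    Sol E m F avg ι j τ (fun i => ξ i - ξ₂ i) (fun i => a' i - a₂' i) (fun i => β' i - β₂' i)
      (fun i => a i - a₂ i) (fun i => β i - β₂ i) := by
  refine ⟨fun i hi => ?_, by rw [h.z, h2.z, sub_zero], fun i hi => ?_⟩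
  · have e : a i - a₂ i + ι (β i - β₂ i) = (a i + ι (β i)) - (a₂ i + ι (β₂ i)) := by
      rw [map_sub]; abel
    rw [e, h.g i hi, h2.g i hi]
    simp only [map_sub, smul_sub, sum_sub_distrib]
    abel
  · rw [h.s i hi, h2.s i hi]
    simp only [map_sub, map_add, smul_sub, smul_add]
    abel

theorem mono_chain {Z : Type} [AddCommGroup Z] [Module ℝ Z] {p : ℕ → Seminorm ℝ Z}
    (h : ∀ i < j, ∀ a, p (i + 1) a ≤ p i a) {l i : ℕ} (hl : l ≤ i) (hi : i ≤ j) (a : Z) :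
    p i a ≤ p l a := by
  induction i, hl using Nat.le_induction with
  | base => exact le_rfl
  | succ k _ ih => exact (h k hi a).trans (ih (by omega))

theorem sum_bound {Z : Type} [AddCommGroup Z] [Module ℝ Z] {p : ℕ → Seminorm ℝ Z}
    (h : ∀ i < j, ∀ a, p (i + 1) a ≤ p i a) (hτ : ∀ i < j, 0 ≤ τ i ∧ τ i ≤ 1) {L c : ℝ}
    (hτL : ∑ i ∈ range j, τ i ≤ L) (hc : 0 ≤ c) {f : ℕ → Z} (hf : ∀ l < j, p l (f l) ≤ c)
    {i : ℕ} (hi : i ≤ j) : p i (∑ l ∈ range i, τ l • f l) ≤ L * c := by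
  have h1 : p i (∑ l ∈ range i, τ l • f l) ≤ ∑ l ∈ range i, τ l * c := by
    refine (le_sum_of_subadditive (p i) (map_zero _).le (map_add_le_add _) _ _).trans (sum_le_sum fun l hl => ?_)
    have hl' := mem_range.1 hl
    rw [map_smul_eq_mul, Real.norm_of_nonneg (hτ l (by omega)).1]
    exact mul_le_mul_of_nonneg_left ((mono_chain h hl'.le hi _).trans (hf l (by omega)))
      (hτ l (by omega)).1
  rw [← sum_mul] at h1
  refine h1.trans (mul_le_mul_of_nonneg_right (le_trans ?_ hτL) hc)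
  exact sum_le_sum_of_subset_of_nonneg (range_subset_range.2 hi) fun l hl _ =>
    (hτ l (mem_range.1 hl)).1

theorem Sol.bound {e L η s : ℝ} {ne : ℕ → Seminorm ℝ X} {nv : ℕ → Seminorm ℝ Y}
    (hb : NB E m F avg ι j e ne nv) (hτ : ∀ i < j, 0 ≤ τ i ∧ τ i ≤ 1) (hL : 1 ≤ L)
    (hτL : ∑ i ∈ range j, τ i ≤ L) {ξ a' a : ℕ → X} {β' β : ℕ → Y}
    (h : Sol E m F avg ι j τ ξ a' β' a β) (hη : 0 ≤ η) (hs : 0 ≤ s)
    (hξ : ∀ i ≤ j, ne i (ξ i) ≤ η) (hx : ∀ i ≤ j, ne i (a' i) ≤ s ∧ nv i (β' i) ≤ s) :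
    ∀ i ≤ j, ne i (a i) ≤ 10 * L * η + 13 * L ^ 2 * e * s ∧
      nv i (β i) ≤ 10 * L * η + 13 * L ^ 2 * e * s := by
  have e0 := hb.e0
  have es : 0 ≤ e * s := mul_nonneg e0 hs
  have hg : ∀ i ≤ j, ne i (a i + ι (β i)) ≤ η + L * (e * s) := by
    intro i hi
    rw [h.g i hi]
    refine (map_sub_le_add _ _ _).trans (add_le_add (hξ i hi) ?_)
    exact sum_bound hb.mono_e hτ hτL es (fun l hl =>
      (hb.hE l hl _).trans (mul_le_mul_of_nonneg_left (hx l hl.le).1 e0)) hi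
  set c := 3 * (η + L * (e * s)) + e * s with hc
  have c0 : 0 ≤ c := by positivity
  have hβ : ∀ i ≤ j, nv i (β i) ≤ (∑ l ∈ range i, τ l) * c := by
    intro i
    induction i with
    | zero => intro _; simp [h.z]
    | succ i ih =>
      intro hi
      have hi' : i < j := hi
      obtain ⟨t0, t1⟩ := hτ i hi'
      refine (hb.mono_v i hi' _).trans ?_
      rw [h.s i hi', sum_range_succ, add_mul]
      refine (map_add_le_add _ _ _).trans (add_le_add ?_ ?_)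
      · refine (map_sub_le_add _ _ _).trans (le_trans ?_ (ih hi'.le))
        rw [map_smul_eq_mul, map_smul_eq_mul, Real.norm_of_nonneg t0,
          Real.norm_of_nonneg (sub_nonneg.2 t1)]
        have := mul_le_mul_of_nonneg_left (hb.havg i hi' (β i)) t0
        linarith
      · rw [map_smul_eq_mul, Real.norm_of_nonneg t0]
        refine mul_le_mul_of_nonneg_left ((map_sub_le_add _ _ _).trans (add_le_add ?_ ?_)) t0
        · exact (hb.hm i hi' _).trans (by linarith [hg i hi'.le])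
        · exact (hb.hF i hi' _).trans (mul_le_mul_of_nonneg_left (hx i hi'.le).2 e0)
  intro i hi
  have h1 : nv i (β i) ≤ L * c := by
    refine (hβ i hi).trans (mul_le_mul_of_nonneg_right (le_trans ?_ hτL) c0)
    exact sum_le_sum_of_subset_of_nonneg (range_subset_range.2 hi) fun l hl _ =>
      (hτ l (mem_range.1 hl)).1
  have h2 : ne i (a i) ≤ η + L * (e * s) + 3 * (L * c) := by
    have : a i = (a i + ι (β i)) - ι (β i) := by abel
    rw [this]
    refine (map_sub_le_add _ _ _).trans (add_le_add (hg i hi) ((hb.hι i hi _).trans ?_))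
    linarith
  have k1 : η ≤ L * η := le_mul_of_one_le_left hη hL
  have k2 : L * (e * s) ≤ L * (L * (e * s)) :=
    mul_le_mul_of_nonneg_left (le_mul_of_one_le_left es hL) (by linarith)
  have k3 : 0 ≤ L * (e * s) := by positivity
  have k4 : 0 ≤ L * η := by positivity
  constructor
  · rw [hc] at h2; nlinarith
  · rw [hc] at h1; nlinarith

end StabA

theorem stab_abs {X Y : Type} [AddCommGroup X] [Module ℝ X] [AddCommGroup Y] [Module ℝ Y]
    {E : ℕ → X →ₗ[ℝ] X} {m : ℕ → X →ₗ[ℝ] Y} {F : ℕ → Y →ₗ[ℝ] Y} {avg : Y →ₗ[ℝ] Y}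
    {ι : Y →ₗ[ℝ] X} {j : ℕ} {e N L η : ℝ} {ne ne2 : ℕ → Seminorm ℝ X} {nv nv2 : ℕ → Seminorm ℝ Y}
    (h1 : NB E m F avg ι j 8 ne nv) (h2 : NB E m F avg ι j e ne2 nv2)
    (hm : ∀ i < j, ∀ b, m i (ι b) = b + avg b + F i b)
    (ce : ∀ i ≤ j, ∀ a, ne i a ≤ ne2 i a ∧ ne2 i a ≤ N * ne i a)
    (cv : ∀ i ≤ j, ∀ b, nv2 i b ≤ N * nv i b) (hN : 0 ≤ N)
    {τ : ℕ → ℝ} (hτ : ∀ i < j, 0 ≤ τ i ∧ τ i ≤ 1) (hL : 1 ≤ L) (hτL : ∑ i ∈ range j, τ i ≤ L)
    {a : ℕ → X} (hη0 : 0 ≤ η) (hη1 : η ≤ 1)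
    (hξ : ∀ i ≤ j, ne i (a i + ∑ l ∈ range i, τ l • (E l (a l) + ι (m l (a l)))) ≤ η)
    (ha : ∀ i < j, ne i (a i) ≤ 1) (k0 : ℕ)
    (small : (13 * L ^ 2 * e) ^ k0 * (N * (20 * L)) ≤ η) :
    ∀ i ≤ j, ne i (a i) ≤ (200 * L ^ 2) ^ (k0 + 1) * η := by 
  let β : ℕ → Y := fun i => ∑ l ∈ range i, τ l • m l (a l)
  let ξ : ℕ → X := fun i => a i + ∑ l ∈ range i, τ l • (E l (a l) + ι (m l (a l)))
  have self : StabA.Sol E m F avg ι j τ ξ a β a β := by
    refine ⟨fun i _ => ?_, by simp [β], fun i hi => ?_⟩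
    · simp only [ξ, β, map_sum, map_smul, smul_add, sum_add_distrib]
      abel
    · have : β (i + 1) = β i + τ i • m i (a i) := sum_range_succ _ _
      rw [this, map_add, hm i hi]
      simp only [smul_add, smul_sub, sub_smul, one_smul]
      abel
  have L0 : 0 ≤ L := by linarith
  have pri : ∀ i ≤ j, ne2 i (a i) ≤ N * (20 * L) ∧ nv2 i (β i) ≤ N * (20 * L) := by
    intro i hi
    constructor
    · refine (ce i hi _).2.trans (mul_le_mul_of_nonneg_left ?_ hN)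
      have e : a i = ξ i - ∑ l ∈ range i, τ l • (E l (a l) + ι (m l (a l))) := by
        simp only [ξ, add_sub_cancel_right]
      have h3 := StabA.sum_bound (c := 17) h1.mono_e hτ hτL (by norm_num)
        (f := fun l => E l (a l) + ι (m l (a l))) (fun l hl => by
          refine (map_add_le_add _ _ _).trans ?_
          have := h1.hE l hl (a l)
          have := h1.hι l hl.le (m l (a l))
          have := h1.hm l hl (a l)
          have := ha l hl
          linarith) hi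
      rw [e]
      refine (map_sub_le_add _ _ _).trans ?_
      have := hξ i hi
      linarith
    · refine (cv i hi _).trans (mul_le_mul_of_nonneg_left ?_ hN)
      have h3 := StabA.sum_bound (c := 3) h1.mono_v hτ hτL (by norm_num)
        (f := fun l => m l (a l)) (fun l hl => by
          have := h1.hm l hl (a l)
          have := ha l hl
          linarith) hi
      exact h3.trans (by linarith)
  have hq : 1 ≤ 200 * L ^ 2 := by nlinarith
  have key : ∀ k : ℕ, ∃ (r : ℕ → X) (ρ : ℕ → Y),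
      (∀ i ≤ j, ne i (a i - r i) ≤ (200 * L ^ 2) ^ k * η ∧ nv i (β i - ρ i) ≤ (200 * L ^ 2) ^ k * η) ∧
      ∀ i ≤ j, ne2 i (r i) ≤ (13 * L ^ 2 * e) ^ k * (N * (20 * L)) ∧
        nv2 i (ρ i) ≤ (13 * L ^ 2 * e) ^ k * (N * (20 * L)) := by
    intro k
    induction k with
    | zero =>
      refine ⟨a, β, fun i _ => ?_, fun i hi => ?_⟩
      · simp [hη0]
      · simpa using pri i hi
    | succ k ih =>
      obtain ⟨r, ρ, b1, b2⟩ := ih
      obtain ⟨r', ρ', hs⟩ := StabA.exists_sol (E := E) (m := m) (F := F) (avg := avg) (ι := ι)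
        (j := j) (τ := τ) (fun _ => 0) r ρ
      have e0 := h2.e0
      refine ⟨r', ρ', fun i hi => ?_, fun i hi => ?_⟩
      · have := (self.sub hs).bound h1 hτ hL hτL hη0 (by positivity)
          (fun i hi => by rw [sub_zero]; exact hξ i hi) b1 i hi
        have p1 : 1 ≤ (200 * L ^ 2) ^ k := one_le_pow₀ hq
        have p2 : 10 * L * η + 13 * L ^ 2 * 8 * ((200 * L ^ 2) ^ k * η) ≤
            (200 * L ^ 2) ^ (k + 1) * η := by
          rw [pow_succ (200 * L ^ 2) k]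
          have q1 : η ≤ (200 * L ^ 2) ^ k * η := le_mul_of_one_le_left hη0 p1
          have q2 : L * η ≤ L ^ 2 * ((200 * L ^ 2) ^ k * η) :=
            mul_le_mul (by nlinarith) q1 hη0 (by positivity)
          have q3 : 0 ≤ L ^ 2 * ((200 * L ^ 2) ^ k * η) := by positivity
          nlinarith
        exact ⟨this.1.trans p2, this.2.trans p2⟩
      · have := hs.bound h2 hτ hL hτL le_rfl (by positivity) (fun i _ => by simp) b2 i hi
        have p2 : 10 * L * 0 + 13 * L ^ 2 * e * ((13 * L ^ 2 * e) ^ k * (N * (20 * L))) =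
            (13 * L ^ 2 * e) ^ (k + 1) * (N * (20 * L)) := by ring
        exact ⟨this.1.trans p2.le, this.2.trans p2.le⟩
  intro i hi
  obtain ⟨r, ρ, b1, b2⟩ := key k0
  have e1 : a i = (a i - r i) + r i := by abel
  rw [e1]
  refine (map_add_le_add _ _ _).trans ?_
  have c1 := (b1 i hi).1
  have c2 := ((ce i hi _).1.trans (b2 i hi).1).trans small
  have p1 : 1 ≤ (200 * L ^ 2) ^ k0 := one_le_pow₀ hq
  have q1 : η ≤ (200 * L ^ 2) ^ k0 * η := le_mul_of_one_le_left hη0 p1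
  have q2 : 2 * ((200 * L ^ 2) ^ k0 * η) ≤ (200 * L ^ 2) * ((200 * L ^ 2) ^ k0 * η) :=
    mul_le_mul_of_nonneg_right (by nlinarith) (by positivity)
  rw [pow_succ (200 * L ^ 2) k0]
  nlinarith

end Crest.Agent.R30
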