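import Crest.Agent.R30.Basic

/-!
# R30 Stop: the coupling between the tree and the hypergraph (task R30-Stop)

PLAN (aux in `namespace StopA`).  `stop`: induction on `k`.  All `hd w c`, `c ∈ S`, agree.  If `c` is
opened in `w` the subtrees below `c` agree on `Qd`, so `Ok` and `Qd` below `c` agree.  If `c` is opened in
`w` then so is every `c' ∈ S` with smaller priority, so `c` is opened in `w'`.  If `c ∈ S`, `hd w c < u` is
not opened in `w`, take `c' ∈ S` of minimal priority with `Ok` below it: it is opened in `w`, hence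
`c` is not opened in `w'`.  Same argument for `Ok`.
`av_comp`: a function `h` of `w : I → Y` which only depends on the coordinates in `A`, with `π` injective
on `A`, has `av (h (ω ∘ π)) = av h` (e.g. both sides equal `av` over `A → Y` of `h` of an extension; a
restriction along an injective map `A → J` preserves `av`: `Equiv.piEquivPiSubtypeProd`, `av_prod`).
`couple`: for each `A : Finset (Nd C k)` the functions `ind (Qd w = A)` and `ind (Qd w = A ∧ Ok w)` only
depend on the coordinates in `A`; sum over the `A` on which `labN` is injective: the events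
"no collision" and "no collision and `Ok`" have the same probability in both models.
-/

set_option autoImplicit false

namespace Crest.Agent.R30

open Finset Crest.CombinatoricsR.TriangleRemoval

variable {C J : Type} [Fintype C] [DecidableEq C] [Fintype J] [DecidableEq J] {M : ℕ}
  (chi : C → Finset C) (lab : C → J)

omit [Fintype C] [DecidableEq C] in
theorem stop (k : ℕ) (S : Finset C) (u : ℕ) (w w' : Nd C k → Fin M)
    (h : ∀ i, Qd chi k S u w i → w' i = w i) :
    (Ok chi k S u w' ↔ Ok chi k S u w) ∧ ∀ i, Qd chi k S u w' i ↔ Qd chi k S u w i := by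
  induction k generalizing S u with
  | zero => exact ⟨Iff.rfl, fun i => i.elim⟩
  | succ k ih =>
    have hhd : ∀ c ∈ S, hd w' c = hd w c := fun c hc => by
      simp only [hd]
      rw [h (c, none) hc]
    have hop : ∀ c, Opened chi k S u w c →
        (Ok chi k (chi c) (hd w c) (sh w' c) ↔ Ok chi k (chi c) (hd w c) (sh w c)) ∧
        ∀ i, Qd chi k (chi c) (hd w c) (sh w' c) i ↔ Qd chi k (chi c) (hd w c) (sh w c) i :=
      fun c hc => ih _ _ _ _ fun i hi => h (c, some i) ⟨hc, hi⟩
    have key : ∀ j ≤ u, (∀ c ∈ S, hd w' c < j → ¬ Ok chi k (chi c) (hd w' c) (sh w' c)) ↔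
        (∀ c ∈ S, hd w c < j → ¬ Ok chi k (chi c) (hd w c) (sh w c)) := by
      intro j hj
      constructor
      · intro h1
        have : ∀ n, ∀ c ∈ S, hd w c = n → hd w c < j → ¬ Ok chi k (chi c) (hd w c) (sh w c) := by
          intro n
          induction n using Nat.strong_induction_on with
          | _ n ihn =>
            intro c hc hn hlt hok
            have ho : Opened chi k S u w c := ⟨hc, by omega, fun c' hc' hlt' =>
              ihn (hd w c') (by omega) c' hc' rfl (by omega)⟩
            have := h1 c hc (by rw [hhd c hc]; exact hlt)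
            rw [hhd c hc] at this
            exact this ((hop c ho).1.2 hok)
        exact fun c hc => this _ c hc rfl
      · intro h1 c hc hlt
        rw [hhd c hc] at hlt ⊢
        have ho : Opened chi k S u w c := ⟨hc, by omega, fun c' hc' hlt' => h1 c' hc' (by omega)⟩
        rw [(hop c ho).1]
        exact h1 c hc hlt
    have hopen : ∀ c, Opened chi k S u w' c ↔ Opened chi k S u w c := by
      intro c
      refine and_congr_right fun hc => ?_
      rw [hhd c hc]
      exact and_congr_right fun hlt => key _ hlt.le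
    refine ⟨key u le_rfl, ?_⟩
    rintro ⟨c, _ | i⟩
    · exact Iff.rfl
    · change (Opened chi k S u w' c ∧ Qd chi k (chi c) (hd w' c) (sh w' c) i) ↔
        (Opened chi k S u w c ∧ Qd chi k (chi c) (hd w c) (sh w c) i)
      rw [hopen]
      refine and_congr_right fun ho => ?_
      rw [hhd c ho.1]
      exact (hop c ho).2 i

namespace StopA

theorem av_restr {A J Y : Type} [Fintype A] [DecidableEq A] [Fintype J] [DecidableEq J] [Fintype Y]
    [Nonempty Y] (e : A → J) (he : Function.Injective e) (g : (A → Y) → ℝ) :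
    av (fun w : J → Y => g (w ∘ e)) = av g := by
  classical
  let e1 := Equiv.piEquivPiSubtypeProd (fun j => j ∈ Set.range e) (fun _ => Y)
  let e2 : ({j // j ∈ Set.range e} → Y) ≃ (A → Y) :=
    Equiv.arrowCongr (Equiv.ofInjective e he).symm (Equiv.refl Y)
  have h1 : (fun w : J → Y => g (w ∘ e)) = fun w => (fun z : ({j // j ∈ Set.range e} → Y) ×
      ({j // ¬ j ∈ Set.range e} → Y) => g (e2 z.1)) (e1 w) := by
    funext w
    rfl
  rw [h1, av_equiv e1 (fun z => g (e2 z.1)), av_prod]
  simp only [av_const]
  exact av_equiv e2 g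

end StopA

theorem av_comp {I Y : Type} [Fintype I] [DecidableEq I] [Fintype Y] [Nonempty Y] (π : I → J)
    (A : Finset I) (hπ : Set.InjOn π A) (h : (I → Y) → ℝ)
    (hh : ∀ w w' : I → Y, (∀ i ∈ A, w i = w' i) → h w = h w') :
    av (fun w : J → Y => h (w ∘ π)) = av h := by
  let g : (A → Y) → ℝ := fun v => h fun i => if hi : i ∈ A then v ⟨i, hi⟩ else Classical.arbitrary Y
  have hg : ∀ w : I → Y, h w = g (w ∘ Subtype.val) := fun w =>
    hh _ _ fun i hi => by simp only [dif_pos hi, Function.comp]
  have h1 := StopA.av_restr (Subtype.val : A → I) Subtype.val_injective g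
  have h2 := StopA.av_restr (fun a : A => π a) (fun a b e => Subtype.ext (hπ a.2 b.2 e)) g
  rw [show h = fun w => g (w ∘ Subtype.val) from funext hg, h1, ← h2]
  rfl

theorem couple (hM : 0 < M) (k : ℕ) (S : Finset C) (u : ℕ) :
    |av (fun w : J → Fin M => ind (Ok chi k S u (w ∘ labN lab k))) -
      av (fun w : Nd C k → Fin M => ind (Ok chi k S u w))| ≤
      av (fun w : Nd C k → Fin M => ind (¬ Set.InjOn (labN lab k) {i | Qd chi k S u w i})) := by
  classical
  haveI : Nonempty (Fin M) := ⟨⟨0, hM⟩⟩
  let QA : (Nd C k → Fin M) → Finset (Nd C k) := fun w => univ.filter (Qd chi k S u w)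
  have hQA : ∀ w, ((QA w : Finset _) : Set (Nd C k)) = {i | Qd chi k S u w i} := fun w => by
    ext i; simp [QA]
  let Inj : (Nd C k → Fin M) → Prop := fun w => Set.InjOn (labN lab k) {i | Qd chi k S u w i}
  have key : ∀ P : Prop → Prop, av (fun w : J → Fin M =>
      ind (Inj (w ∘ labN lab k) ∧ P (Ok chi k S u (w ∘ labN lab k)))) =
      av (fun w : Nd C k → Fin M => ind (Inj w ∧ P (Ok chi k S u w))) := by
    intro P
    have h1 : ∀ w : Nd C k → Fin M, ind (Inj w ∧ P (Ok chi k S u w)) =
        ∑ A ∈ univ.filter (fun A : Finset (Nd C k) => Set.InjOn (labN lab k) A),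
          ind (QA w = A ∧ P (Ok chi k S u w)) := by
      intro w
      by_cases hi : Inj w
      · rw [sum_eq_single_of_mem (QA w) (mem_filter.2 ⟨mem_univ _, by rw [hQA]; exact hi⟩)]
        · exact ind_congr ⟨fun h => ⟨rfl, h.2⟩, fun h => ⟨hi, h.2⟩⟩
        · intro A _ hA
          exact ind_neg fun h => hA h.1.symm
      · rw [ind_neg fun h => hi h.1]
        refine (sum_eq_zero fun A hA => ind_neg fun h => hi ?_).symm
        have := (mem_filter.1 hA).2
        rwa [← h.1, hQA] at this
    simp only [h1]
    rw [av_sum, av_sum]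
    refine sum_congr rfl fun A hA => ?_
    refine av_comp (labN lab k) A (mem_filter.1 hA).2
      (fun w => ind (QA w = A ∧ P (Ok chi k S u w))) ?_
    have h2 : ∀ w w' : Nd C k → Fin M, (∀ i ∈ A, w i = w' i) →
        (QA w = A ∧ P (Ok chi k S u w)) → (QA w' = A ∧ P (Ok chi k S u w')) := by
      rintro w w' hw ⟨h3, h4⟩
      have := stop chi k S u w w' fun i hi =>
        (hw i (h3 ▸ mem_filter.2 ⟨mem_univ _, hi⟩)).symm
      refine ⟨?_, by rw [this.1]; exact h4⟩
      rw [← h3]
      exact filter_congr fun i _ => this.2 i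
    exact fun w w' hw => ind_congr ⟨h2 w w' hw, h2 w' w fun i hi => (hw i hi).symm⟩
  have k0 := key fun _ => True
  have k1 := key fun p => p
  have b1 : ∀ {α : Type} [Fintype α] [Nonempty α] (p q : α → Prop),
      av (fun a => ind (p a ∧ q a)) ≤ av (fun a => ind (q a)) ∧
      av (fun a => ind (q a)) ≤ av (fun a => ind (p a ∧ q a)) + av (fun a => ind (¬ p a)) ∧
      av (fun a => ind (¬ p a)) = 1 - av (fun a => ind (p a ∧ True)) := by
    intro α _ _ p q
    refine ⟨av_mono fun a => ind_mono fun h => h.2, ?_, ?_⟩
    · rw [← av_add]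
      refine av_mono fun a => (ind_mono fun h => ?_).trans (ind_or_le _ _)
      by_cases hp : p a
      · exact Or.inl ⟨hp, h⟩
      · exact Or.inr hp
    · rw [← av_const (α := α) 1, ← av_sub]
      simp only [and_true, ind_not]
  obtain ⟨a1, a2, a3⟩ := b1 (fun w : J → Fin M => Inj (w ∘ labN lab k))
    (fun w => Ok chi k S u (w ∘ labN lab k))
  obtain ⟨c1, c2, c3⟩ := b1 Inj (fun w => Ok chi k S u w)
  change _ ≤ av fun w => ind (¬ Inj w)
  rw [abs_le]
  constructor <;> linarith

end Crest.Agent.R30
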