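import Crest.Agent.R30.Basic

/-!
# R30 Tree: independent priorities on the tree (tasks R30-Tree)

PLAN (aux in `namespace TreeA`).  `av_split`: the equivalence
`(C × Option I → Y) ≃ (C → Y × (I → Y))` (currying, `Equiv.piOptionEquivProd`), `av_equiv`, `av_pi`,
`av_prod`.  `tree_ok`: induction on `k`; `ind (Ok ..) = ∏ c, f c (hd w c) (sh w c)` with
`f c j w' = if c ∈ S then 1 - ind (j < u ∧ Ok k (chi c) j w') else 1`; and
`M⁻¹ ∑_{j < u} ∏_{c' ∈ chi c} (1 - RR j c') = RR u c` (`RR_eq`).
-/

set_option autoImplicit false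

namespace Crest.Agent.R30

open Finset Crest.CombinatoricsR.TriangleRemoval

variable {C : Type} [Fintype C] [DecidableEq C] {M : ℕ} (chi : C → Finset C)

namespace TreeA

/-- splitting the priorities according to the children of the root -/
def eqv (C : Type) (k M : ℕ) : (C → Fin M × (Nd C k → Fin M)) ≃ (Nd C (k + 1) → Fin M) where
  toFun g := fun i => match i with
    | (c, none) => (g c).1
    | (c, some i) => (g c).2 i
  invFun w := fun c => (w (c, none), fun i => w (c, some i))
  left_inv g := rfl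
  right_inv w := by
    funext i
    rcases i with ⟨c, _ | i⟩ <;> rfl

theorem av_fin (f : ℕ → ℝ) : av (fun a : Fin M => f a) = (M : ℝ)⁻¹ * ∑ j ∈ range M, f j := by
  rw [av, Fin.sum_univ_eq_sum_range, Fintype.card_fin, div_eq_inv_mul]

end TreeA

/-- independence of the subtrees -/
theorem av_split (k : ℕ) (f : C → ℕ → (Nd C k → Fin M) → ℝ) :
    av (fun w : Nd C (k + 1) → Fin M => ∏ c, f c (hd w c) (sh w c)) =
      ∏ c, ((M : ℝ)⁻¹ * ∑ j ∈ range M, av (f c j)) := by
  rw [← av_equiv (TreeA.eqv C k M)]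
  have := av_pi (fun (c : C) (y : Fin M × (Nd C k → Fin M)) => f c y.1 y.2)
  refine Eq.trans ?_ (this.trans ?_)
  · rfl
  · refine prod_congr rfl fun c _ => ?_
    rw [av_prod]
    exact TreeA.av_fin fun j => av (f c j)

omit [Fintype C] [DecidableEq C] in
theorem RR_eq (u : ℕ) (c : C) :
    RR chi M u c = (M : ℝ)⁻¹ * ∑ j ∈ range u, ∏ c' ∈ chi c, (1 - RR chi M j c') := by
  induction u with
  | zero => simp [RR]
  | succ u ih => rw [RR, ih, sum_range_succ, mul_add]

omit [Fintype C] [DecidableEq C] in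
theorem RR_mem {u : ℕ} (hu : u ≤ M) (c : C) : 0 ≤ RR chi M u c ∧ RR chi M u c ≤ 1 := by
  have key : ∀ u ≤ M, ∀ c, 0 ≤ RR chi M u c ∧ RR chi M u c ≤ (M : ℝ)⁻¹ * u := by
    intro u
    induction u with
    | zero => intro _ c; simp [RR]
    | succ u ih =>
      intro hu c
      have hM : (0 : ℝ) < M := by exact_mod_cast (by omega : 0 < M)
      have h1 : (M : ℝ)⁻¹ * u ≤ 1 := by
        rw [inv_mul_le_iff₀ hM, mul_one]; exact_mod_cast (by omega : u ≤ M)
      have h2 : 0 ≤ ∏ c' ∈ chi c, (1 - RR chi M u c') :=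
        prod_nonneg fun c' _ => by linarith [(ih (by omega) c').2]
      have h3 : ∏ c' ∈ chi c, (1 - RR chi M u c') ≤ 1 :=
        prod_le_one (fun c' _ => by linarith [(ih (by omega) c').2])
          fun c' _ => by linarith [(ih (by omega) c').1]
      have h4 := ih (by omega) c
      have h5 : 0 ≤ (M : ℝ)⁻¹ := inv_nonneg.2 hM.le
      rw [RR]
      push_cast
      constructor
      · exact add_nonneg h4.1 (mul_nonneg h5 h2)
      · nlinarith [h4.2, mul_le_mul_of_nonneg_left h3 h5]
  refine ⟨(key u hu c).1, (key u hu c).2.trans ?_⟩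
  rcases Nat.eq_zero_or_pos M with rfl | hM
  · simp
  · rw [inv_mul_le_iff₀ (by exact_mod_cast hM), mul_one]; exact_mod_cast hu

namespace TreeA

theorem fac (hM : 0 < M) (k : ℕ)
    (ih : ∀ (S : Finset C) (u : ℕ), u ≤ k → u ≤ M →
      av (fun w : Nd C k → Fin M => ind (Ok chi k S u w)) = ∏ c ∈ S, (1 - RR chi M u c))
    {u : ℕ} (hk : u ≤ k + 1) (hu : u ≤ M) (c : C) :
    (M : ℝ)⁻¹ * ∑ j ∈ range M, av (fun w : Nd C k → Fin M => ind (j < u → ¬ Ok chi k (chi c) j w)) =
      1 - RR chi M u c := by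
  haveI : Nonempty (Fin M) := ⟨⟨0, hM⟩⟩
  have h1 : ∀ j ∈ range M, av (fun w : Nd C k → Fin M => ind (j < u → ¬ Ok chi k (chi c) j w)) =
      1 - if j < u then ∏ c' ∈ chi c, (1 - RR chi M j c') else 0 := by
    intro j _
    by_cases hj : j < u
    · rw [if_pos hj, ← ih _ _ (by omega) (by omega), ← av_const (α := Nd C k → Fin M) 1, ← av_sub]
      congr 1
      funext w
      rw [← ind_not]
      exact ind_congr ⟨fun h => h hj, fun h _ => h⟩
    · rw [if_neg hj, sub_zero, ← av_const (α := Nd C k → Fin M) 1]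
      congr 1
      funext w
      exact ind_pos fun h => (hj h).elim
  have h2 : (range M).filter (fun j => j < u) = range u := by
    ext j
    simp only [mem_filter, mem_range]
    omega
  have hM' : (M : ℝ) ≠ 0 := by exact_mod_cast hM.ne'
  rw [sum_congr rfl h1, sum_sub_distrib, ← sum_filter, h2, RR_eq, mul_sub, sum_const, card_range,
    nsmul_eq_mul, mul_one, inv_mul_cancel₀ hM']

theorem fac_one (hM : 0 < M) (k : ℕ) :
    (M : ℝ)⁻¹ * ∑ _j ∈ range M, av (fun _ : Nd C k → Fin M => (1 : ℝ)) = 1 := by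
  haveI : Nonempty (Fin M) := ⟨⟨0, hM⟩⟩
  have hM' : (M : ℝ) ≠ 0 := by exact_mod_cast hM.ne'
  rw [av_const, sum_const, card_range, nsmul_eq_mul, mul_one, inv_mul_cancel₀ hM']

end TreeA

theorem tree_ok (hM : 0 < M) (k : ℕ) (S : Finset C) {u : ℕ} (hk : u ≤ k) (hu : u ≤ M) :
    av (fun w : Nd C k → Fin M => ind (Ok chi k S u w)) = ∏ c ∈ S, (1 - RR chi M u c) := by
  haveI : Nonempty (Fin M) := ⟨⟨0, hM⟩⟩
  induction k generalizing S u with
  | zero =>
    obtain rfl : u = 0 := by omega
    have : (fun w : Nd C 0 → Fin M => ind (Ok chi 0 S 0 w)) = fun _ => 1 :=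
      funext fun w => ind_pos trivial
    rw [this, av_const]
    simp [RR]
  | succ k ih =>
    have h1 := av_split (M := M) k (fun (c : C) j (w : Nd C k → Fin M) =>
      if c ∈ S then ind (j < u → ¬ Ok chi k (chi c) j w) else 1)
    have h2 : (fun w : Nd C (k + 1) → Fin M => ind (Ok chi (k + 1) S u w)) =
        fun w => ∏ c, if c ∈ S then ind (hd w c < u → ¬ Ok chi k (chi c) (hd w c) (sh w c))
          else 1 := by
      funext w
      rw [prod_ite_mem, univ_inter, ← ind_forall]
      rfl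
    rw [h2, h1, ← univ_inter S, ← prod_ite_mem, univ_inter]
    refine prod_congr rfl fun c _ => ?_
    by_cases hc : c ∈ S
    · simp only [if_pos hc]
      exact TreeA.fac chi hM k (fun S u h h' => ih S h h') hk hu c
    · simp only [if_neg hc]
      exact TreeA.fac_one hM k

/-- probability to open `c`, jointly with a function of the subtree below `c` -/
theorem av_opened (hM : 0 < M) (k : ℕ) (S : Finset C) {u : ℕ} (hk : u ≤ k + 1) (hu : u ≤ M)
    {c : C} (hc : c ∈ S) (Y : ℕ → (Nd C k → Fin M) → ℝ) :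
    av (fun w : Nd C (k + 1) → Fin M => ind (Opened chi k S u w c) * Y (hd w c) (sh w c)) =
      (M : ℝ)⁻¹ * ∑ j ∈ range u, (∏ c' ∈ S.erase c, (1 - RR chi M j c')) * av (Y j) := by
  let f : ℕ → C → ℕ → (Nd C k → Fin M) → ℝ := fun j c' i w =>
    if c' = c then ind (i = j) * Y j w
    else if c' ∈ S then ind (i < j → ¬ Ok chi k (chi c') i w) else 1
  have hprod : ∀ (g : C → ℝ) (a : ℝ), (∏ c', if c' = c then a else if c' ∈ S then g c' else 1) =
      a * ∏ c' ∈ S.erase c, g c' := by
    intro g a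
    rw [← mul_prod_erase univ _ (mem_univ c), if_pos rfl]
    congr 1
    have : S.erase c = univ.erase c ∩ S := by
      ext x; simp
    rw [this, ← prod_ite_mem]
    exact prod_congr rfl fun x hx => if_neg (ne_of_mem_erase hx)
  have h2 : (fun w : Nd C (k + 1) → Fin M => ind (Opened chi k S u w c) * Y (hd w c) (sh w c)) =
      fun w => ∑ j ∈ range u, ∏ c', f j c' (hd w c') (sh w c') := by
    funext w
    have h3 : ∀ j, ∏ c', f j c' (hd w c') (sh w c') = ind (hd w c = j) * Y j (sh w c) *
        ∏ c' ∈ S.erase c, ind (hd w c' < j → ¬ Ok chi k (chi c') (hd w c') (sh w c')) := by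
      intro j
      rw [← hprod]
      refine prod_congr rfl fun c' _ => ?_
      by_cases h : c' = c
      · simp only [f, if_pos h, h]
      · simp only [f, if_neg h]
    simp only [h3]
    by_cases hu' : hd w c < u
    · rw [sum_eq_single_of_mem (hd w c) (mem_range.2 hu')]
      · rw [ind_pos rfl, one_mul, mul_comm, ← ind_forall]
        congr 1
        refine ind_congr ⟨fun h c' hc' => h.2.2 c' (mem_of_mem_erase hc'),
          fun h => ⟨hc, hu', fun c' hc' hlt => h c' (mem_erase.2 ⟨?_, hc'⟩) hlt⟩⟩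
        rintro rfl
        exact lt_irrefl _ hlt
      · intro j _ hj
        rw [ind_neg (Ne.symm hj), zero_mul, zero_mul]
    · rw [ind_neg fun h => hu' h.2.1, zero_mul]
      refine (sum_eq_zero fun j hj => ?_).symm
      rw [ind_neg, zero_mul, zero_mul]
      rintro rfl
      exact hu' (mem_range.1 hj)
  rw [h2, av_sum, mul_sum]
  refine sum_congr rfl fun j hj => ?_
  have hj' := mem_range.1 hj
  rw [av_split k (f j), mul_comm (∏ c' ∈ S.erase c, _), ← mul_assoc, ← hprod]
  refine prod_congr rfl fun c' _ => ?_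
  by_cases h : c' = c
  · simp only [f, if_pos h, av_const_mul]
    rw [sum_eq_single_of_mem j (mem_range.2 (by omega)), ind_pos rfl, one_mul]
    intro i _ hi
    rw [ind_neg hi, zero_mul]
  · by_cases h' : c' ∈ S
    · simp only [f, if_neg h, if_pos h']
      exact TreeA.fac chi hM k (fun S u h h' => tree_ok chi hM k S h h') (by omega) (by omega) c'
    · simp only [f, if_neg h, if_neg h']
      exact TreeA.fac_one hM k

end Crest.Agent.R30
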